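import Vale.Agent.P088.R2.H86.Z.Wey

/-!
# P088, stage 3, zone II: from pointwise inequalities to the weighted estimate

Zone II: near the diagonal, outside of the core.  `k` is the convexity weight, `g |w|²` the weighted
square of the difference `w` of the dressed gradients in frames, `e (a + b)²` the zero order term
(`e = E²`); `Z` dominates everything that contains a derivative of the cut-off `χ`.
-/

open MeasureTheory Set Filter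
open scoped ContDiff Topology

noncomputable section

namespace Vale.Agent.P088.R2.H86.Z

open Vale.Agent.P088.R2.H961.GW Vale.Agent.P088.R2.H644 Vale.Agent.P088.R2.H960.W
  Vale.Agent.P088.R2.H747.S Vale.Agent.P088.R2.H551.E

variable {E ι κ α : Type*} [NormedAddCommGroup E] [NormedSpace ℝ E] [Fintype ι] [Fintype κ]
  [Fintype α]

/-- `|w|²`, `w = p A - q B`. -/
def wq (p : α → ι → E → ℝ) (q : α → κ → E → ℝ) (z : E) (A : ι → ℝ) (B : κ → ℝ) : ℝ :=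
  ∑ r, ((∑ i, p r i z * A i) - ∑ k, q r k z * B k) ^ 2

/-- The unit density. -/
def uf (σ : Sl E ι) (τ : Sl E κ) (W g e : E → ℝ) (p : α → ι → E → ℝ) (q : α → κ → E → ℝ)
    (z : E) (A : ι → ℝ) (B : κ → ℝ) (x y : ℝ) : ℝ :=
  g z * wq p q z A B + e z * (x + y) ^ 2 + ((∑ i, A i ^ 2) + ∑ k, B k ^ 2) +
    (σ.F W z * x ^ 2 + τ.F W z * y ^ 2)

/-- The unit density of two functions. -/
def ud (σ : Sl E ι) (τ : Sl E κ) (W g e : E → ℝ) (p : α → ι → E → ℝ) (q : α → κ → E → ℝ)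
    (a b : E → ℝ) (z : E) : ℝ :=
  uf σ τ W g e p q z (Ch.XX σ W a z) (Ch.XX τ W b z) (a z) (b z)

/-- Ellipticity. -/
structure El (σ : Sl E ι) (z : E) : Prop where
  up : ∀ A : ι → ℝ, ∑ i, ∑ j, σ.s i j z * A i * A j ≤ 2 * ∑ i, A i ^ 2
  lo : ∀ A : ι → ℝ, ∑ i, A i ^ 2 ≤ 2 * ∑ i, ∑ j, σ.s i j z * A i * A j

/-- The pointwise hypotheses of one slot. -/
structure HS (σ : Sl E ι) (W χ k Z v : E → ℝ) (c : ι → E → ℝ) (κ₀ η : ℝ) (z : E) : Prop where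
  /-- the energy -/
  en : |k z * σ.Λ W z + σ.Γ k W z| ≤ η * (k z * σ.F W z)
  ch : |2 * χ z * (k z * σ.Γ χ W z)| ≤ Z z * σ.F W z
  /-- the fields -/
  er : ∀ a : E → ℝ, 8 * |eC σ c v W a z| + 16 / κ₀ * cY σ c W a z ^ 2 ≤
    η * (k z * ((∑ i, YY σ W a i z ^ 2) + σ.F W z * a z ^ 2))

/-- The pointwise hypotheses of the pair. -/
structure HP (σ : Sl E ι) (τ : Sl E κ) (v₁ v₂ W χ k g e Z : E → ℝ) (p : α → ι → E → ℝ)
    (q : α → κ → E → ℝ) (c : ι → E → ℝ) (c' : κ → E → ℝ) (L₀ C₁ η : ℝ) (z : E) : Prop where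
  /-- the certificate, with all zero order terms -/
  tot : ∀ (A : ι → ℝ) (B : κ → ℝ) (x y : ℝ),
    4 * (k z * ((∑ i, A i ^ 2) + ∑ j, B j ^ 2)) + L₀ * (g z * wq p q z A B) -
      C₁ * (e z * (x + y) ^ 2) - η * (k z * σ.F W z * x ^ 2 + k z * τ.F W z * y ^ 2) ≤
    8 * (Ch.TH σ τ W z A B + tc σ c W z A + tc τ c' W z B) + qf σ τ v₁ v₂ W z A B x y +
      16 * (dF σ c W z * x ^ 2 + dF τ c' W z * y ^ 2)
  /-- the turn-on terms -/
  on : ∀ (A : ι → ℝ) (B : κ → ℝ) (x y : ℝ),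
    |2 * χ z * (8 * (onf σ c χ z (fun i => 2 * x * σ.D i W z - A i) +
        onf τ c' χ z (fun i => 2 * y * τ.D i W z - B i)) +
      16 * (cD σ c χ z * σ.F W z * x ^ 2 + cD τ c' χ z * τ.F W z * y ^ 2))| ≤
    Z z * uf σ τ W g e p q z A B x y

section pw

variable {σ : Sl E ι} {τ : Sl E κ} {U : Set E} {θ : E → ℝ} {v v₁ v₂ W χ a b k g e Z : E → ℝ}
  {c : ι → E → ℝ} {c' : κ → E → ℝ} {p : α → ι → E → ℝ} {q : α → κ → E → ℝ} {z : E}
  {κ₀ η L₀ C₁ : ℝ}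

theorem YY_XX (i : ι) : YY σ W a i z = 2 * a z * σ.D i W z - Ch.XX σ W a z i := by
  unfold YY Ch.XX; ring

theorem wq_nonneg (p : α → ι → E → ℝ) (q : α → κ → E → ℝ) (z : E) (A : ι → ℝ) (B : κ → ℝ) :
    0 ≤ wq p q z A B := Finset.sum_nonneg fun _ _ => sq_nonneg _

theorem El.F0 (h : El σ z) (W : E → ℝ) : 0 ≤ σ.F W z := by
  have h1 := h.lo fun i => σ.D i W z
  have h0 : 0 ≤ ∑ i, σ.D i W z ^ 2 := Finset.sum_nonneg fun i _ => sq_nonneg _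
  have e : σ.F W z = ∑ i, ∑ j, σ.s i j z * σ.D i W z * σ.D j W z := rfl
  rw [e]; linarith

theorem El.G0 (h : El σ z) (a : E → ℝ) : 0 ≤ σ.Γ a a z := by
  have h1 := h.lo fun i => σ.D i a z
  have h0 : 0 ≤ ∑ i, σ.D i a z ^ 2 := Finset.sum_nonneg fun i _ => sq_nonneg _
  have e : σ.Γ a a z = ∑ i, ∑ j, σ.s i j z * σ.D i a z * σ.D j a z := rfl
  rw [e]; linarith

theorem twq (ok : σ.Ok U θ) (ot : τ.Ok U θ) (hp : ∀ r i, Sm U (p r i)) (hq : ∀ r i, Sm U (q r i))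
    (hW : Sm U W) (ha : Te U a) (hb : Te U b) :
    Te U fun z => wq p q z (Ch.XX σ W a z) (Ch.XX τ W b z) := by
  have hU := ok.op
  refine Te.sum hU _ fun r _ => Te.sq hU ?_
  exact (Te.sum hU _ fun i _ => (tX ok hW ha i).mul_left hU (hp r i)).sub hU
    (Te.sum hU _ fun i _ => (tX ot hW hb i).mul_left hU (hq r i))

theorem tsum (ok : σ.Ok U θ) (hW : Sm U W) (ha : Te U a) :
    Te U fun z => ∑ i, XX σ W a i z ^ 2 :=
  Te.sum ok.op _ fun i _ => (tX ok hW ha i).sq ok.op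

theorem tud (ok : σ.Ok U θ) (ot : τ.Ok U θ) (hp : ∀ r i, Sm U (p r i)) (hq : ∀ r i, Sm U (q r i))
    (hg : Sm U g) (he : Sm U e) (hW : Sm U W) (ha : Te U a) (hb : Te U b) :
    Te U (ud σ τ W g e p q a b) := by
  have hU := ok.op
  have t1 := (twq ok ot hp hq hW ha hb).mul_left hU hg
  have t2 := ((ha.add hU hb).sq hU).mul_left hU he
  have t3 := (tsum ok hW ha).add hU (tsum ot hW hb)
  have t4 := ((ha.sq hU).mul_left hU (ok.sF hW)).add hU ((hb.sq hU).mul_left hU (ot.sF hW))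
  exact ((t1.add hU t2).add hU t3).add hU t4

end pw

/-- The arithmetic at the end. -/
theorem fin_arith {P X₁ X₂ F₁ F₂ Y₁ Y₂ Q S Z T κ₀ η δ L₀ C₁ C₂ : ℝ} (hκ : κ₀ = 1 / 8)
    (hη : 0 ≤ η) (hη1 : η * (C₁ + 10) ≤ 1 / 10) (hC1 : 0 ≤ C₁) (hδ : (C₁ + 1) * δ ≤ 1 / 8)
    (hL : (C₁ + 1) * C₂ + 1 ≤ L₀) (hP : 0 ≤ P) (hQ : 0 ≤ Q) (hX1 : 0 ≤ X₁)
    (hX2 : 0 ≤ X₂) (hF1 : 0 ≤ F₁) (hF2 : 0 ≤ F₂) (hZ : 0 ≤ Z)
    (h1 : (1 - κ₀) * P + 4 * (X₁ + X₂) + L₀ * Q - C₁ * S - 2 * η * (F₁ + F₂) - η * (Y₁ + Y₂) - Z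
      ≤ T)
    (f1 : (1 - η) * F₁ ≤ 2 * X₁ + Z) (f2 : (1 - η) * F₂ ≤ 2 * X₂ + Z)
    (y1 : Y₁ ≤ 4 * X₁ + 4 * η * F₁ + 4 * Z) (y2 : Y₂ ≤ 4 * X₂ + 4 * η * F₂ + 4 * Z)
    (kt : S ≤ C₂ * Q + δ * P + η * (F₁ + F₂) + Z) :
    1 / 2 * P + (X₁ + X₂) + 1 / 4 * (F₁ + F₂) + Q + S - (C₁ + 6) * Z ≤ T := by
  have hη2 : η ≤ 1 / 100 := by nlinarith
  have g1 : η * (Y₁ + Y₂) ≤ 1 / 100 * (4 * (X₁ + X₂)) + 1 / 100 * (F₁ + F₂) + 8 / 100 * Z := by
    have a1 : η * (Y₁ + Y₂) ≤ η * (4 * (X₁ + X₂) + 4 * η * (F₁ + F₂) + 8 * Z) :=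
      mul_le_mul_of_nonneg_left (by linarith) hη
    have a2 : η * (4 * (X₁ + X₂) + 4 * η * (F₁ + F₂) + 8 * Z) ≤
        1 / 100 * (4 * (X₁ + X₂) + 4 * η * (F₁ + F₂) + 8 * Z) :=
      mul_le_mul_of_nonneg_right hη2 (by positivity)
    have a3 : η * (F₁ + F₂) ≤ 1 / 100 * (F₁ + F₂) := mul_le_mul_of_nonneg_right hη2 (by linarith)
    linarith
  have g2 : (C₁ + 1) * S ≤ (C₁ + 1) * (C₂ * Q) + (C₁ + 1) * (δ * P) +
      (C₁ + 1) * (η * (F₁ + F₂)) + (C₁ + 1) * Z := by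
    have := mul_le_mul_of_nonneg_left kt (by linarith : 0 ≤ C₁ + 1)
    linarith
  have g3 : (C₁ + 1) * (δ * P) ≤ 1 / 8 * P := by
    have := mul_le_mul_of_nonneg_right hδ hP
    linarith
  have g4 : (C₁ + 1) * (η * (F₁ + F₂)) + 2 * η * (F₁ + F₂) ≤ 1 / 10 * (F₁ + F₂) := by
    have : η * (C₁ + 3) ≤ 1 / 10 := by linarith
    have := mul_le_mul_of_nonneg_right this (by linarith : 0 ≤ F₁ + F₂)
    linarith
  have g5 : ((C₁ + 1) * C₂ + 1) * Q ≤ L₀ * Q := mul_le_mul_of_nonneg_right hL hQ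
  have g6 : 99 / 100 * (F₁ + F₂) ≤ 2 * (X₁ + X₂) + 2 * Z := by
    have : (1 - η) * (F₁ + F₂) ≤ 2 * (X₁ + X₂) + 2 * Z := by linarith
    have h2 : 99 / 100 * (F₁ + F₂) ≤ (1 - η) * (F₁ + F₂) :=
      mul_le_mul_of_nonneg_right (by linarith) (by linarith)
    linarith
  rw [hκ] at h1
  nlinarith

variable [MeasureSpace E] [FiniteDimensional ℝ E] [BorelSpace E]
  [(volume : Measure E).IsAddHaarMeasure]

section integral

variable {σ : Sl E ι} {τ : Sl E κ} {U : Set E} {θ : E → ℝ} {v v₁ v₂ W χ a b k g e Z : E → ℝ}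
  {c : ι → E → ℝ} {c' : κ → E → ℝ} {p : α → ι → E → ℝ} {q : α → κ → E → ℝ}
  {κ₀ η L₀ C₁ C₂ δ : ℝ}

/-- The energies of one slot with the weight `χ² k`. -/
theorem en_w (ok : σ.Ok U θ) (el : ∀ z ∈ U, El σ z) (hW : Sm U W) (hχ : Sm U χ) (hk : Sm U k)
    (hZ : Sm U Z) (ha : Te U a) (hk0 : ∀ z ∈ U, 0 ≤ k z) (hZ0 : ∀ z ∈ U, 0 ≤ Z z)
    (hs : ∀ z ∈ U, χ z ≠ 0 → HS σ W χ k Z v c κ₀ η z) :
    (1 - η) * In U θ (fun z => χ z ^ 2 * (k z * σ.F W z * a z ^ 2)) ≤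
      2 * In U θ (fun z => χ z ^ 2 * (k z * ∑ i, XX σ W a i z ^ 2)) +
        In U θ (fun z => Z z * (σ.F W z * a z ^ 2)) ∧
    In U θ (fun z => χ z ^ 2 * (k z * ∑ i, YY σ W a i z ^ 2)) ≤
      4 * In U θ (fun z => χ z ^ 2 * (k z * ∑ i, XX σ W a i z ^ 2)) +
      4 * η * In U θ (fun z => χ z ^ 2 * (k z * σ.F W z * a z ^ 2)) +
      4 * In U θ (fun z => Z z * (σ.F W z * a z ^ 2)) := by
  have hU := ok.op
  have hχ2 : Sm U fun z => χ z ^ 2 := hχ.pow 2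
  have hm : Sm U fun z => χ z ^ 2 * k z := hχ2.mul hk
  have m0 : ∀ z ∈ U, 0 ≤ χ z ^ 2 * k z := fun z hz => mul_nonneg (sq_nonneg _) (hk0 z hz)
  have e := en_X ok hW ha hm
  have eY := YX_m ok hW ha hm
  have tE := tmE ok hm hW ha
  have tF : Te U fun z => χ z ^ 2 * (k z * σ.F W z * a z ^ 2) :=
    ((ha.sq hU).mul_left hU (hk.mul (ok.sF hW))).mul_left hU hχ2
  have tFZ : Te U fun z => Z z * (σ.F W z * a z ^ 2) :=
    ((ha.sq hU).mul_left hU (ok.sF hW)).mul_left hU hZ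
  have tx := tsX ok hm hW ha
  have tX' : Te U fun z => χ z ^ 2 * (k z * ∑ i, XX σ W a i z ^ 2) :=
    ((tsum ok hW ha).mul_left hU hk).mul_left hU hχ2
  have tYY : Te U fun z => χ z ^ 2 * (k z * ∑ i, YY σ W a i z ^ 2) :=
    ((Te.sum hU _ fun i _ => (tY ok hW ha i).sq hU).mul_left hU hk).mul_left hU hχ2
  have tw : Te U fun z => (χ z ^ 2 * k z * σ.Λ W z + σ.Γ (fun z => χ z ^ 2 * k z) W z) * a z ^ 2 :=
    (ha.sq hU).mul_left hU ((hm.mul (ok.sL hW)).add (ok.sG hm hW))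
  have eG : ∀ z ∈ U, σ.Γ (fun z => χ z ^ 2 * k z) W z =
      χ z ^ 2 * σ.Γ k W z + 2 * χ z * (k z * σ.Γ χ W z) := by
    intro z hz
    rw [G_comm ok _ W, G_mul ok W hχ2 hk hz, G_sq ok W hχ hz, G_comm ok W k, G_comm ok W χ]
    ring
  have hw : ∀ z ∈ U, |(χ z ^ 2 * k z * σ.Λ W z + σ.Γ (fun z => χ z ^ 2 * k z) W z) * a z ^ 2| ≤
      η * (χ z ^ 2 * (k z * σ.F W z * a z ^ 2)) + Z z * (σ.F W z * a z ^ 2) := by
    intro z hz
    rw [eG z hz, abs_mul, abs_of_nonneg (sq_nonneg (a z))]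
    by_cases hχz : χ z = 0
    · have h0 : 0 ≤ Z z * (σ.F W z * a z ^ 2) :=
        mul_nonneg (hZ0 z hz) (mul_nonneg ((el z hz).F0 W) (sq_nonneg _))
      rw [hχz]
      simpa using h0
    · have h := hs z hz hχz
      have e1 : χ z ^ 2 * k z * σ.Λ W z + (χ z ^ 2 * σ.Γ k W z + 2 * χ z * (k z * σ.Γ χ W z)) =
          χ z ^ 2 * (k z * σ.Λ W z + σ.Γ k W z) + 2 * χ z * (k z * σ.Γ χ W z) := by ring
      have e2 : |χ z ^ 2 * (k z * σ.Λ W z + σ.Γ k W z)| ≤ χ z ^ 2 * (η * (k z * σ.F W z)) := by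
        rw [abs_mul, abs_of_nonneg (sq_nonneg (χ z))]
        exact mul_le_mul_of_nonneg_left h.en (sq_nonneg _)
      have e3 := (abs_add_le (χ z ^ 2 * (k z * σ.Λ W z + σ.Γ k W z))
        (2 * χ z * (k z * σ.Γ χ W z))).trans (add_le_add e2 h.ch)
      rw [e1]
      have := mul_le_mul_of_nonneg_right e3 (sq_nonneg (a z))
      linarith
  have h2 : |In U θ (fun z => (χ z ^ 2 * k z * σ.Λ W z +
      σ.Γ (fun z => χ z ^ 2 * k z) W z) * a z ^ 2)| ≤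
      η * In U θ (fun z => χ z ^ 2 * (k z * σ.F W z * a z ^ 2)) +
        In U θ (fun z => Z z * (σ.F W z * a z ^ 2)) := by
    rw [← In_cmul, ← In_add hU ok.ts (tF.cmul hU η) tFZ, abs_le, ← In_neg]
    constructor
    · exact In_mono hU ok.tp ok.ts (((tF.cmul hU η).add hU tFZ).neg hU) tw fun z hz =>
        (abs_le.1 (hw z hz)).1
    · exact In_mono hU ok.tp ok.ts tw ((tF.cmul hU η).add hU tFZ) fun z hz =>
        (abs_le.1 (hw z hz)).2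
  have h1 : In U θ (fun z => χ z ^ 2 * k z *
      ∑ i, ∑ j, σ.s i j z * XX σ W a i z * XX σ W a j z) ≤
      2 * In U θ (fun z => χ z ^ 2 * (k z * ∑ i, XX σ W a i z ^ 2)) := by
    rw [← In_cmul]
    refine In_mono hU ok.tp ok.ts tx (tX'.cmul hU 2) fun z hz => ?_
    have := mul_le_mul_of_nonneg_left ((el z hz).up fun i => XX σ W a i z) (m0 z hz)
    linarith
  have h3 : In U θ (fun z => χ z ^ 2 * (k z * σ.F W z * a z ^ 2)) ≤
      In U θ (mE σ (fun z => χ z ^ 2 * k z) W a) := by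
    refine In_mono hU ok.tp ok.ts tF tE fun z hz => ?_
    unfold mE
    have := mul_nonneg (m0 z hz) ((el z hz).G0 a)
    nlinarith
  have h5 : In U θ (fun z => χ z ^ 2 * (k z * ∑ i, YY σ W a i z ^ 2)) ≤
      2 * In U θ (fun z => χ z ^ 2 * k z * sYY σ W a z) := by
    rw [← In_cmul]
    refine In_mono hU ok.tp ok.ts tYY (((tsYY ok hW ha).mul_left hU hm).cmul hU 2) fun z hz => ?_
    have := mul_le_mul_of_nonneg_left ((el z hz).lo fun i => YY σ W a i z) (m0 z hz)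
    unfold sYY
    linarith
  obtain ⟨h2a, h2b⟩ := abs_le.1 h2
  constructor
  · linarith
  · rw [eY] at h5
    linarith

/-- The errors of the fields of one slot. -/
theorem er_w (ok : σ.Ok U θ) (hv : Sm U v) (hW : Sm U W) (hχ : Sm U χ) (hk : Sm U k)
    (ha : Te U a) (hc : ∀ i, Sm U (c i))
    (hs : ∀ z ∈ U, χ z ≠ 0 → HS σ W χ k Z v c κ₀ η z) :
    -(η * (In U θ (fun z => χ z ^ 2 * (k z * ∑ i, YY σ W a i z ^ 2)) +
        In U θ (fun z => χ z ^ 2 * (k z * σ.F W z * a z ^ 2)))) ≤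
      8 * In U θ (fun z => χ z ^ 2 * eC σ c v W a z) -
      16 / κ₀ * In U θ (fun z => χ z ^ 2 * cY σ c W a z ^ 2) := by
  have hU := ok.op
  have hχ2 : Sm U fun z => χ z ^ 2 := hχ.pow 2
  have tF : Te U fun z => χ z ^ 2 * (k z * σ.F W z * a z ^ 2) :=
    ((ha.sq hU).mul_left hU (hk.mul (ok.sF hW))).mul_left hU hχ2
  have tYY : Te U fun z => χ z ^ 2 * (k z * ∑ i, YY σ W a i z ^ 2) :=
    ((Te.sum hU _ fun i _ => (tY ok hW ha i).sq hU).mul_left hU hk).mul_left hU hχ2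
  have teC' : Te U fun z => χ z ^ 2 * eC σ c v W a z := (teC ok hc hv hW ha).mul_left hU hχ2
  have tc2 : Te U fun z => χ z ^ 2 * cY σ c W a z ^ 2 :=
    ((tcY ok hc hW ha).sq hU).mul_left hU hχ2
  rw [← In_add hU ok.ts tYY tF, ← In_cmul, ← In_neg, ← In_cmul, ← In_cmul,
    ← In_sub hU ok.ts (teC'.cmul hU 8) (tc2.cmul hU (16 / κ₀))]
  refine In_mono hU ok.tp ok.ts (((tYY.add hU tF).cmul hU η).neg hU)
    ((teC'.cmul hU 8).sub hU (tc2.cmul hU (16 / κ₀))) fun z hz => ?_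
  by_cases hχz : χ z = 0
  · rw [hχz]; simp
  · have h := (hs z hz hχz).er a
    have h1 := neg_abs_le (eC σ c v W a z)
    have h2 := mul_le_mul_of_nonneg_left h (sq_nonneg (χ z))
    have h3 : χ z ^ 2 * (8 * -|eC σ c v W a z|) ≤ χ z ^ 2 * (8 * eC σ c v W a z) :=
      mul_le_mul_of_nonneg_left (by linarith) (sq_nonneg _)
    linarith

/-- **Zone II, from the pointwise inequalities and the inequality for `e (a + b)²`.** -/
theorem zoneII (ok : σ.Ok U θ) (ot : τ.Ok U θ) (hv₁ : Sm U v₁) (hv₂ : Sm U v₂)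
    (el₁ : ∀ z ∈ U, El σ z) (el₂ : ∀ z ∈ U, El τ z)
    (hW : Sm U W) (hχ : Sm U χ) (hk : Sm U k) (hg : Sm U g) (he : Sm U e) (hZ : Sm U Z)
    (hp : ∀ r i, Sm U (p r i)) (hq : ∀ r i, Sm U (q r i))
    (hc : ∀ i, Sm U (c i)) (hc' : ∀ i, Sm U (c' i)) (ha : Te U a) (hb : Te U b)
    (hk0 : ∀ z ∈ U, 0 ≤ k z) (hg0 : ∀ z ∈ U, 0 ≤ g z) (he0 : ∀ z ∈ U, 0 ≤ e z)
    (hZ0 : ∀ z ∈ U, 0 ≤ Z z)
    (hs₁ : ∀ z ∈ U, χ z ≠ 0 → HS σ W χ k Z v₁ c (1 / 8) η z)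
    (hs₂ : ∀ z ∈ U, χ z ≠ 0 → HS τ W χ k Z v₂ c' (1 / 8) η z)
    (hp' : ∀ z ∈ U, χ z ≠ 0 → HP σ τ v₁ v₂ W χ k g e Z p q c c' L₀ C₁ η z)
    (hη : 0 ≤ η) (hη1 : η * (C₁ + 10) ≤ 1 / 10) (hC1 : 0 ≤ C₁) (hδ : (C₁ + 1) * δ ≤ 1 / 8)
    (hL : (C₁ + 1) * C₂ + 1 ≤ L₀)
    (kt : In U θ (fun z => χ z ^ 2 * (e z * (a z + b z) ^ 2)) ≤
      C₂ * In U θ (fun z => χ z ^ 2 * (g z * wq p q z (Ch.XX σ W a z) (Ch.XX τ W b z))) +
      δ * In U θ (fun z => χ z ^ 2 * sqd σ τ v₁ v₂ W a b z) +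
      η * (In U θ (fun z => χ z ^ 2 * (k z * σ.F W z * a z ^ 2)) +
        In U θ (fun z => χ z ^ 2 * (k z * τ.F W z * b z ^ 2))) +
      In U θ (fun z => Z z * ud σ τ W g e p q a b z)) :
    1 / 2 * In U θ (fun z => χ z ^ 2 * sqd σ τ v₁ v₂ W a b z) +
      (In U θ (fun z => χ z ^ 2 * (k z * ∑ i, XX σ W a i z ^ 2)) +
        In U θ (fun z => χ z ^ 2 * (k z * ∑ i, XX τ W b i z ^ 2))) +
      1 / 4 * (In U θ (fun z => χ z ^ 2 * (k z * σ.F W z * a z ^ 2)) +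
        In U θ (fun z => χ z ^ 2 * (k z * τ.F W z * b z ^ 2))) +
      In U θ (fun z => χ z ^ 2 * (g z * wq p q z (Ch.XX σ W a z) (Ch.XX τ W b z))) +
      In U θ (fun z => χ z ^ 2 * (e z * (a z + b z) ^ 2)) -
      (C₁ + 6) * In U θ (fun z => Z z * ud σ τ W g e p q a b z) ≤
      In U θ (fun z => χ z ^ 2 * dn σ τ v₁ v₂ W a b z) := by
  have hU := ok.op
  have hχ2 : Sm U fun z => χ z ^ 2 := hχ.pow 2
  have tsq := (tsqd ok ot hv₁ hv₂ hW ha hb).mul_left hU hχ2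
  have tst := (tsta ok ot hv₁ hv₂ hW ha hb).mul_left hU hχ2
  have tX1 := ((tsum ok hW ha).mul_left hU hk).mul_left hU hχ2
  have tX2 := ((tsum ot hW hb).mul_left hU hk).mul_left hU hχ2
  have tF1 : Te U fun z => χ z ^ 2 * (k z * σ.F W z * a z ^ 2) :=
    ((ha.sq hU).mul_left hU (hk.mul (ok.sF hW))).mul_left hU hχ2
  have tF2 : Te U fun z => χ z ^ 2 * (k z * τ.F W z * b z ^ 2) :=
    ((hb.sq hU).mul_left hU (hk.mul (ot.sF hW))).mul_left hU hχ2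
  have tQ := ((twq ok ot hp hq hW ha hb).mul_left hU hg).mul_left hU hχ2
  have tS := (((ha.add hU hb).sq hU).mul_left hU he).mul_left hU hχ2
  have tu := (tud ok ot hp hq hg he hW ha hb).mul_left hU hZ
  have tZ1 : Te U fun z => Z z * (σ.F W z * a z ^ 2) :=
    ((ha.sq hU).mul_left hU (ok.sF hW)).mul_left hU hZ
  have tZ2 : Te U fun z => Z z * (τ.F W z * b z ^ 2) :=
    ((hb.sq hU).mul_left hU (ot.sF hW)).mul_left hU hZ
  have w1 := weylw ok hv₁ hW hχ ha hc (κ₀ := 1 / 8) (by norm_num)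
  have w2 := weylw ot hv₂ hW hχ hb hc' (κ₀ := 1 / 8) (by norm_num)
  obtain ⟨f1, y1⟩ := en_w ok el₁ hW hχ hk hZ ha hk0 hZ0 hs₁
  obtain ⟨f2, y2⟩ := en_w ot el₂ hW hχ hk hZ hb hk0 hZ0 hs₂
  have r1 := er_w ok hv₁ hW hχ hk ha hc hs₁
  have r2 := er_w ot hv₂ hW hχ hk hb hc' hs₂
  have uZ : ∀ z ∈ U, 0 ≤ ud σ τ W g e p q a b z := by
    intro z hz
    unfold ud uf
    have h1 := mul_nonneg (hg0 z hz) (wq_nonneg p q z (Ch.XX σ W a z) (Ch.XX τ W b z))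
    have h2 := mul_nonneg (he0 z hz) (sq_nonneg (a z + b z))
    have h3 := mul_nonneg ((el₁ z hz).F0 W) (sq_nonneg (a z))
    have h4 := mul_nonneg ((el₂ z hz).F0 W) (sq_nonneg (b z))
    have h5 : 0 ≤ ∑ i, Ch.XX σ W a z i ^ 2 := Finset.sum_nonneg fun _ _ => sq_nonneg _
    have h6 : 0 ≤ ∑ i, Ch.XX τ W b z i ^ 2 := Finset.sum_nonneg fun _ _ => sq_nonneg _
    linarith
  have zu : ∀ z ∈ U, σ.F W z * a z ^ 2 + τ.F W z * b z ^ 2 ≤ ud σ τ W g e p q a b z := by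
    intro z hz
    unfold ud uf
    have h1 := mul_nonneg (hg0 z hz) (wq_nonneg p q z (Ch.XX σ W a z) (Ch.XX τ W b z))
    have h2 := mul_nonneg (he0 z hz) (sq_nonneg (a z + b z))
    have h5 : 0 ≤ ∑ i, Ch.XX σ W a z i ^ 2 := Finset.sum_nonneg fun _ _ => sq_nonneg _
    have h6 : 0 ≤ ∑ i, Ch.XX τ W b z i ^ 2 := Finset.sum_nonneg fun _ _ => sq_nonneg _
    linarith
  have hZu : In U θ (fun z => Z z * (σ.F W z * a z ^ 2)) +
      In U θ (fun z => Z z * (τ.F W z * b z ^ 2)) ≤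
      In U θ (fun z => Z z * ud σ τ W g e p q a b z) := by
    rw [← In_add hU ok.ts tZ1 tZ2]
    refine In_mono hU ok.tp ok.ts (tZ1.add hU tZ2) tu fun z hz => ?_
    have := mul_le_mul_of_nonneg_left (zu z hz) (hZ0 z hz)
    linarith
  have hZ1 : 0 ≤ In U θ (fun z => Z z * (σ.F W z * a z ^ 2)) :=
    In_nonneg hU ok.tp fun z hz =>
      mul_nonneg (hZ0 z hz) (mul_nonneg ((el₁ z hz).F0 W) (sq_nonneg _))
  have hZ2 : 0 ≤ In U θ (fun z => Z z * (τ.F W z * b z ^ 2)) :=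
    In_nonneg hU ok.tp fun z hz =>
      mul_nonneg (hZ0 z hz) (mul_nonneg ((el₂ z hz).F0 W) (sq_nonneg _))
  -- the turn-on terms
  have ton : -In U θ (fun z => Z z * ud σ τ W g e p q a b z) ≤
      In U θ (tn σ c W χ a) + In U θ (tn τ c' W χ b) := by
    have t1 := t_tn ok hW hχ ha hc
    have t2 := t_tn ot hW hχ hb hc'
    rw [← In_add hU ok.ts t1 t2, ← In_neg]
    refine In_mono hU ok.tp ok.ts (tu.neg hU) (t1.add hU t2) fun z hz => ?_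
    by_cases hχz : χ z = 0
    · have := mul_nonneg (hZ0 z hz) (uZ z hz)
      unfold tn
      rw [hχz]
      simpa using this
    · have h := (abs_le.1 ((hp' z hz hχz).on (Ch.XX σ W a z) (Ch.XX τ W b z) (a z) (b z))).1
      have e1 : (fun i => YY σ W a i z) = fun i => 2 * a z * σ.D i W z - Ch.XX σ W a z i :=
        funext fun i => YY_XX i
      have e2 : (fun i => YY τ W b i z) = fun i => 2 * b z * τ.D i W z - Ch.XX τ W b z i :=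
        funext fun i => YY_XX i
      unfold tn ud
      rw [e1, e2]
      linarith
  -- the pointwise inequality, integrated
  have tTH := (tTH ok ot hW ha hb).mul_left hU hχ2
  have tqq := (tqs ok ot hv₁ hv₂ hW ha hb).mul_left hU hχ2
  have tC1 : Te U fun z => χ z ^ 2 * TC σ c W (XX σ W a) z :=
    (tTC (c := c) ok hc hW fun i => tX ok hW ha i).mul_left hU hχ2
  have tC2 : Te U fun z => χ z ^ 2 * TC τ c' W (XX τ W b) z :=
    (tTC (c := c') ot hc' hW fun i => tX ot hW hb i).mul_left hU hχ2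
  have sdF1 : Sm U (dF σ c W) := Sm.sum _ fun j _ =>
    (ok.sD ((ok.sF hW).mul (hc j)) j).add ((ok.ks j).mul ((ok.sF hW).mul (hc j)))
  have sdF2 : Sm U (dF τ c' W) := Sm.sum _ fun j _ =>
    (ot.sD ((ot.sF hW).mul (hc' j)) j).add ((ot.ks j).mul ((ot.sF hW).mul (hc' j)))
  have tD1 : Te U fun z => χ z ^ 2 * (dF σ c W z * a z ^ 2) :=
    ((ha.sq hU).mul_left hU sdF1).mul_left hU hχ2
  have tD2 : Te U fun z => χ z ^ 2 * (dF τ c' W z * b z ^ 2) :=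
    ((hb.sq hU).mul_left hU sdF2).mul_left hU hχ2
  have key : 4 * (In U θ (fun z => χ z ^ 2 * (k z * ∑ i, XX σ W a i z ^ 2)) +
        In U θ (fun z => χ z ^ 2 * (k z * ∑ i, XX τ W b i z ^ 2))) +
      L₀ * In U θ (fun z => χ z ^ 2 * (g z * wq p q z (Ch.XX σ W a z) (Ch.XX τ W b z))) -
      C₁ * In U θ (fun z => χ z ^ 2 * (e z * (a z + b z) ^ 2)) -
      η * (In U θ (fun z => χ z ^ 2 * (k z * σ.F W z * a z ^ 2)) +
        In U θ (fun z => χ z ^ 2 * (k z * τ.F W z * b z ^ 2))) ≤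
      In U θ (fun z => χ z ^ 2 * sta σ τ v₁ v₂ W a b z) +
      8 * (In U θ (fun z => χ z ^ 2 * TC σ c W (XX σ W a) z) +
        In U θ (fun z => χ z ^ 2 * TC τ c' W (XX τ W b) z)) +
      16 * (In U θ (fun z => χ z ^ 2 * (dF σ c W z * a z ^ 2)) +
        In U θ (fun z => χ z ^ 2 * (dF τ c' W z * b z ^ 2))) := by
    rw [← In_add hU ok.ts tX1 tX2, ← In_add hU ok.ts tF1 tF2, ← In_add hU ok.ts tC1 tC2,
      ← In_add hU ok.ts tD1 tD2, ← In_cmul, ← In_cmul, ← In_cmul, ← In_cmul, ← In_cmul, ← In_cmul,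
      ← In_add hU ok.ts ((tX1.add hU tX2).cmul hU 4) (tQ.cmul hU L₀),
      ← In_sub hU ok.ts (((tX1.add hU tX2).cmul hU 4).add hU (tQ.cmul hU L₀)) (tS.cmul hU C₁),
      ← In_sub hU ok.ts ((((tX1.add hU tX2).cmul hU 4).add hU (tQ.cmul hU L₀)).sub hU
        (tS.cmul hU C₁)) ((tF1.add hU tF2).cmul hU η),
      ← In_add hU ok.ts tst ((tC1.add hU tC2).cmul hU 8),
      ← In_add hU ok.ts (tst.add hU ((tC1.add hU tC2).cmul hU 8)) ((tD1.add hU tD2).cmul hU 16)]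
    refine In_mono hU ok.tp ok.ts (((((tX1.add hU tX2).cmul hU 4).add hU (tQ.cmul hU L₀)).sub hU
      (tS.cmul hU C₁)).sub hU ((tF1.add hU tF2).cmul hU η))
      ((tst.add hU ((tC1.add hU tC2).cmul hU 8)).add hU ((tD1.add hU tD2).cmul hU 16))
      fun z hz => ?_
    by_cases hχz : χ z = 0
    · rw [hχz]; simp
    · have h := (hp' z hz hχz).tot (Ch.XX σ W a z) (Ch.XX τ W b z) (a z) (b z)
      have h2 := mul_le_mul_of_nonneg_left h (sq_nonneg (χ z))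
      have c1 : TC σ c W (XX σ W a) z = tc σ c W z (Ch.XX σ W a z) := rfl
      have c2 : TC τ c' W (XX τ W b) z = tc τ c' W z (Ch.XX τ W b z) := rfl
      have c3 : ∑ i, XX σ W a i z ^ 2 = ∑ i, Ch.XX σ W a z i ^ 2 := rfl
      have c4 : ∑ i, XX τ W b i z ^ 2 = ∑ i, Ch.XX τ W b z i ^ 2 := rfl
      unfold sta
      rw [c1, c2, c3, c4, qs_qf]
      linarith
  have e1 : In U θ (fun z => χ z ^ 2 * dn σ τ v₁ v₂ W a b z) =
      In U θ (fun z => χ z ^ 2 * sqd σ τ v₁ v₂ W a b z) +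
      In U θ (fun z => χ z ^ 2 * sta σ τ v₁ v₂ W a b z) := by
    rw [← In_add hU ok.ts tsq tst]
    refine In_congr hU fun z _ => ?_
    unfold dn; ring
  have tP1 : Te U fun z => χ z ^ 2 * σ.P v₁ W a z ^ 2 :=
    ((ok.tP hv₁ hW ha).sq hU).mul_left hU hχ2
  have tP2 : Te U fun z => χ z ^ 2 * τ.P v₂ W b z ^ 2 :=
    ((ot.tP hv₂ hW hb).sq hU).mul_left hU hχ2
  have hPP : In U θ (fun z => χ z ^ 2 * σ.P v₁ W a z ^ 2) +
      In U θ (fun z => χ z ^ 2 * τ.P v₂ W b z ^ 2) ≤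
      In U θ (fun z => χ z ^ 2 * sqd σ τ v₁ v₂ W a b z) := by
    rw [← In_add hU ok.ts tP1 tP2]
    refine In_mono hU ok.tp ok.ts (tP1.add hU tP2) tsq fun z _ => ?_
    unfold sqd
    have h0 := sq_nonneg (χ z)
    have h1 := mul_nonneg h0 (sq_nonneg (τ.P v₂ W a z))
    have h2 := mul_nonneg h0 (sq_nonneg (σ.P v₁ W b z))
    linarith
  have hP : 0 ≤ In U θ (fun z => χ z ^ 2 * sqd σ τ v₁ v₂ W a b z) :=
    In_nonneg hU ok.tp fun z _ => mul_nonneg (sq_nonneg _) (sqd_nonneg σ τ v₁ v₂ W a b z)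
  have hQ : 0 ≤ In U θ (fun z => χ z ^ 2 * (g z * wq p q z (Ch.XX σ W a z) (Ch.XX τ W b z))) :=
    In_nonneg hU ok.tp fun z hz => mul_nonneg (sq_nonneg _)
      (mul_nonneg (hg0 z hz) (wq_nonneg p q z _ _))
  have hX1 : 0 ≤ In U θ (fun z => χ z ^ 2 * (k z * ∑ i, XX σ W a i z ^ 2)) :=
    In_nonneg hU ok.tp fun z hz => mul_nonneg (sq_nonneg _)
      (mul_nonneg (hk0 z hz) (Finset.sum_nonneg fun _ _ => sq_nonneg _))
  have hX2 : 0 ≤ In U θ (fun z => χ z ^ 2 * (k z * ∑ i, XX τ W b i z ^ 2)) :=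
    In_nonneg hU ok.tp fun z hz => mul_nonneg (sq_nonneg _)
      (mul_nonneg (hk0 z hz) (Finset.sum_nonneg fun _ _ => sq_nonneg _))
  have hF1 : 0 ≤ In U θ (fun z => χ z ^ 2 * (k z * σ.F W z * a z ^ 2)) :=
    In_nonneg hU ok.tp fun z hz => mul_nonneg (sq_nonneg _)
      (mul_nonneg (mul_nonneg (hk0 z hz) ((el₁ z hz).F0 W)) (sq_nonneg _))
  have hF2 : 0 ≤ In U θ (fun z => χ z ^ 2 * (k z * τ.F W z * b z ^ 2)) :=
    In_nonneg hU ok.tp fun z hz => mul_nonneg (sq_nonneg _)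
      (mul_nonneg (mul_nonneg (hk0 z hz) ((el₂ z hz).F0 W)) (sq_nonneg _))
  have hZZ : 0 ≤ In U θ (fun z => Z z * ud σ τ W g e p q a b z) :=
    In_nonneg hU ok.tp fun z hz => mul_nonneg (hZ0 z hz) (uZ z hz)
  rw [e1]
  refine fin_arith (κ₀ := 1 / 8) (η := η) (δ := δ) (L₀ := L₀) (C₁ := C₁) (C₂ := C₂) rfl
    hη hη1 hC1 hδ hL hP hQ hX1 hX2 hF1 hF2 hZZ (Y₁ :=
      In U θ (fun z => χ z ^ 2 * (k z * ∑ i, YY σ W a i z ^ 2))) (Y₂ :=
      In U θ (fun z => χ z ^ 2 * (k z * ∑ i, YY τ W b i z ^ 2))) ?_ ?_ ?_ ?_ ?_ kt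
  · linarith only [key, w1, w2, r1, r2, ton, hPP, hP]
  · linarith only [f1, hZu, hZ1, hZ2]
  · linarith only [f2, hZu, hZ1, hZ2]
  · linarith only [y1, hZu, hZ1, hZ2]
  · linarith only [y2, hZu, hZ1, hZ2]

end integral

end Vale.Agent.P088.R2.H86.Z
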