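import Vale.Agent.P088.R2.H808.Z.Loc
import Vale.Agent.P088.R2.H338.C.Lad
import Mathlib.Analysis.SpecialFunctions.SmoothTransition

/-!
# P088, stage 3: exhaustion

`chE ε χ = χ s(χ² / ε²)` vanishes for `|χ| ≤ ε / 2` and is `χ` for `|χ| ≥ ε`. `zone_exh`: a zone
inequality for `χ` follows from those for `chE ε χ` on the open set `χ ≠ 0`.
-/

open MeasureTheory Set Filter
open scoped ContDiff Topology

noncomputable section

namespace Vale.Agent.P088.R2.H86.Z

open Vale.Agent.P088.R2.H961.GW Vale.Agent.P088.R2.H644 Vale.Agent.P088.R2.H960.W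
  Vale.Agent.P088.R2.H551.E Vale.Agent.P088.R2.H808.Z Vale.Agent.P088.R2.H747.SW

/-- `0` for `x ≤ 1 / 4`, `1` for `x ≥ 1`. -/
def se (x : ℝ) : ℝ := Real.smoothTransition ((4 * x - 1) / 3)

theorem se_sm : ContDiff ℝ ∞ se :=
  Real.smoothTransition.contDiff.comp
    (((contDiff_const.mul contDiff_id).sub contDiff_const).div_const 3)

theorem se_0 {x : ℝ} (h : x ≤ 1 / 4) : se x = 0 :=
  Real.smoothTransition.zero_of_nonpos (by linarith)

theorem se_1 {x : ℝ} (h : 1 ≤ x) : se x = 1 :=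
  Real.smoothTransition.one_of_one_le (by linarith)

theorem se_nn (x : ℝ) : 0 ≤ se x := Real.smoothTransition.nonneg _

theorem se_le (x : ℝ) : se x ≤ 1 := Real.smoothTransition.le_one _

/-- `t s(t²)`. -/
def fe (t : ℝ) : ℝ := t * se (t ^ 2)

theorem fe_sm : ContDiff ℝ ∞ fe := contDiff_id.mul (se_sm.comp (contDiff_id.pow 2))

theorem fe_d1 {t : ℝ} (h : 1 < |t|) : deriv fe t = 1 := by
  have e : fe =ᶠ[𝓝 t] fun x => x := by
    filter_upwards [continuous_abs.continuousAt.eventually (Ioi_mem_nhds h)] with x hx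
    have hx' : 1 < |x| := hx
    have : 1 ≤ x ^ 2 := by rw [← sq_abs]; nlinarith
    rw [fe, se_1 this, mul_one]
  rw [e.deriv_eq, deriv_id'']

theorem fe_bd : ∃ C : ℝ, 1 ≤ C ∧ ∀ t, |deriv fe t| ≤ C := by
  have hc : Continuous (deriv fe) := fe_sm.continuous_deriv (by norm_num)
  obtain ⟨C, hC⟩ := (isCompact_Icc (a := (-1 : ℝ)) (b := 1)).exists_bound_of_continuousOn
    hc.continuousOn
  refine ⟨max 1 C, le_max_left _ _, fun t => ?_⟩
  by_cases h : 1 < |t|
  · rw [fe_d1 h, abs_one]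
    exact le_max_left _ _
  · have h2 := abs_le.1 (not_lt.1 h)
    exact (hC t ⟨h2.1, h2.2⟩).trans (le_max_right _ _)

/-- The bound of `fe'`. -/
def Cfe : ℝ := fe_bd.choose

theorem Cfe_one : 1 ≤ Cfe := fe_bd.choose_spec.1

theorem fe_le (t : ℝ) : |deriv fe t| ≤ Cfe := fe_bd.choose_spec.2 t

variable {E ι : Type*} [NormedAddCommGroup E] [NormedSpace ℝ E] [Fintype ι]

/-- The cut-off `χ s(χ² / ε²)`. -/
def chE (ε : ℝ) (χ : E → ℝ) (z : E) : ℝ := ε * fe (χ z / ε)

/-- `fe'(χ / ε)`. -/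
def phE (ε : ℝ) (χ : E → ℝ) (z : E) : ℝ := deriv fe (χ z / ε)

/-- `s(χ² / ε²)`. -/
def psE (ε : ℝ) (χ : E → ℝ) (z : E) : ℝ := se ((χ z / ε) ^ 2)

section bas

variable {σ : Sl E ι} {χ : E → ℝ} {ε : ℝ} {z : E}

omit [NormedSpace ℝ E] in
theorem chE_eq (hε : 0 < ε) (z : E) : chE ε χ z = psE ε χ z * χ z := by
  unfold chE psE fe
  field_simp

theorem chE_sm {U : Set E} (hχ : ContDiffOn ℝ ∞ χ U) : ContDiffOn ℝ ∞ (chE ε χ) U :=
  contDiffOn_const.mul (fe_sm.comp_contDiffOn (hχ.div_const ε))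

omit [NormedSpace ℝ E] in
theorem phE_ct (hχ : Continuous χ) : Continuous (phE ε χ) :=
  (fe_sm.continuous_deriv (by norm_num)).comp (hχ.div_const ε)

omit [NormedSpace ℝ E] in
theorem psE_ct (hχ : Continuous χ) : Continuous (psE ε χ) :=
  se_sm.continuous.comp ((hχ.div_const ε).pow 2)

omit [NormedSpace ℝ E] in
theorem psE_0 (hε : 0 < ε) (h : |χ z| ≤ ε / 2) : psE ε χ z = 0 := by
  refine se_0 ?_
  have h1 : |χ z / ε| ≤ 1 / 2 := by
    rw [abs_div, abs_of_pos hε, div_le_iff₀ hε]; linarith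
  rw [← sq_abs]
  nlinarith [abs_nonneg (χ z / ε)]

omit [NormedSpace ℝ E] in
theorem psE_1 (hε : 0 < ε) (h : ε ≤ |χ z|) : psE ε χ z = 1 := by
  refine se_1 ?_
  have h1 : 1 ≤ |χ z / ε| := by
    rw [abs_div, abs_of_pos hε, le_div_iff₀ hε]; linarith
  rw [← sq_abs]
  nlinarith

omit [NormedSpace ℝ E] in
theorem chE_0 (hε : 0 < ε) (h : |χ z| ≤ ε / 2) : chE ε χ z = 0 := by
  rw [chE_eq hε, psE_0 hε h, zero_mul]

omit [NormedSpace ℝ E] in
theorem chE_ne (hε : 0 < ε) (h : chE ε χ z ≠ 0) : χ z ≠ 0 := by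
  intro h0
  exact h (by rw [chE_eq hε, h0, mul_zero])

omit [NormedSpace ℝ E] in
theorem chE_abs (hε : 0 < ε) (z : E) : |chE ε χ z| ≤ |χ z| := by
  rw [chE_eq hε, abs_mul, abs_of_nonneg (show 0 ≤ psE ε χ z from se_nn _)]
  exact mul_le_of_le_one_left (abs_nonneg _) (se_le _)

omit [NormedSpace ℝ E] in
theorem phE_0 (hε : 0 < ε) (h : |χ z| < ε / 2) : phE ε χ z = 0 := by
  have h1 : |χ z / ε| < 1 / 2 := by
    rw [abs_div, abs_of_pos hε, div_lt_iff₀ hε]; linarith
  have e : fe =ᶠ[𝓝 (χ z / ε)] fun _ => 0 := by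
    filter_upwards [continuous_abs.continuousAt.eventually (Iio_mem_nhds h1)] with x hx
    have hx' : |x| < 1 / 2 := hx
    have : x ^ 2 ≤ 1 / 4 := by rw [← sq_abs]; nlinarith [abs_nonneg x]
    rw [fe, se_0 this, mul_zero]
  unfold phE
  rw [e.deriv_eq, deriv_const]

/-- The derivative of the cut-off. -/
theorem chE_fd (hε : 0 < ε) (hχ : DifferentiableAt ℝ χ z) :
    fderiv ℝ (chE ε χ) z = phE ε χ z • fderiv ℝ χ z := by
  have h1 : HasFDerivAt (fun z => χ z / ε) (ε⁻¹ • fderiv ℝ χ z) z := by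
    have := hχ.hasFDerivAt.mul_const ε⁻¹
    simpa only [div_eq_mul_inv] using this
  have h2 : HasDerivAt fe (deriv fe (χ z / ε)) (χ z / ε) :=
    (fe_sm.differentiable (by norm_num) _).hasDerivAt
  have h3 := (h2.comp_hasFDerivAt z h1).const_mul ε
  have e : (ε * deriv fe (χ z / ε)) • (ε⁻¹ • fderiv ℝ χ z) = phE ε χ z • fderiv ℝ χ z := by
    rw [smul_smul]
    congr 1
    unfold phE
    field_simp
  have h4 : fderiv ℝ (chE ε χ) z = ε • (deriv fe (χ z / ε) • (ε⁻¹ • fderiv ℝ χ z)) := h3.fderiv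
  rw [h4, smul_smul, e]

omit [Fintype ι] in
theorem chE_D (hε : 0 < ε) (hχ : DifferentiableAt ℝ χ z) (i : ι) :
    σ.D i (chE ε χ) z = phE ε χ z * σ.D i χ z := by
  unfold Sl.D
  rw [chE_fd hε hχ]
  simp only [_root_.smul_apply, smul_eq_mul]
  try ring

end bas

variable [MeasureSpace E] [FiniteDimensional ℝ E] [BorelSpace E]
  [(volume : Measure E).IsAddHaarMeasure]

omit [NormedSpace ℝ E] [Fintype ι] [MeasureSpace E] [FiniteDimensional ℝ E] [BorelSpace E]
  [(volume : Measure E).IsAddHaarMeasure] in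
theorem ct_sm {q : Q8 E} {U : Set E} {f : E → ℝ} (hf : ContinuousOn f U) (h : q.Ct U) :
    (q.sm f).Ct U where
  κ := hf.mul h.κ
  ζ₁ := hf.mul h.ζ₁
  ζ₂ := hf.mul h.ζ₂
  ζy := hf.mul h.ζy
  w₁ := hf.mul h.w₁
  w₂ := hf.mul h.w₂
  wb := hf.mul h.wb
  wc := hf.mul h.wc

omit [NormedSpace ℝ E] [Fintype ι] [MeasureSpace E] [FiniteDimensional ℝ E] [BorelSpace E]
  [(volume : Measure E).IsAddHaarMeasure] in
theorem q0_sm {q : Q8 E} {f : E → ℝ} {z : E} (h : f z = 0) : Q0 (q.sm f) z := by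
  constructor <;> simp [Q8.sm, h]

/-- **Exhaustion.** -/
theorem zone_exh {σ τ : Sl E ι} {θ v₁ v₂ W χ : E → ℝ} {mg co : Q8 E} {C : ℝ}
    (ok : σ.Ok univ θ) (ot : τ.Ok univ θ) (hv₁ : Sm univ v₁) (hv₂ : Sm univ v₂)
    (hW : Sm univ W) (hχ : ContDiff ℝ ∞ χ)
    (cM : (mg.sm fun z => χ z ^ 2).Ct univ) (cC : co.Ct univ)
    (h0 : ∀ (z : E) (a b : E → ℝ), 0 ≤ co.dens σ τ v₁ v₂ W a b z) (hC : Cfe ^ 2 ≤ C)
    (zo : ∀ ε : ℝ, 0 < ε → Zone σ τ {z | χ z ≠ 0} θ v₁ v₂ W (chE ε χ)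
      (mg.sm fun z => chE ε χ z ^ 2) (co.sm fun z => phE ε χ z ^ 2)) :
    Zone σ τ univ θ v₁ v₂ W χ (mg.sm fun z => χ z ^ 2) (co.sm fun _ => C) := by
  have hc : Continuous χ := hχ.continuous
  have hΩ : IsOpen {z | χ z ≠ 0} := isOpen_ne.preimage hc
  -- the zone inequalities on the whole space
  have z1 : ∀ ε : ℝ, 0 < ε → Zone σ τ univ θ v₁ v₂ W (chE ε χ)
      (mg.sm fun z => chE ε χ z ^ 2) (co.sm fun z => phE ε χ z ^ 2) := by
    intro ε hε
    have nS : ∀ z : E, z ∉ {z | ε / 2 ≤ |χ z|} → |χ z| < ε / 2 := fun z hz => not_le.1 hz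
    refine zone_loc (S := {z | ε / 2 ≤ |χ z|}) isOpen_univ hΩ (subset_univ _)
      (isClosed_le continuous_const hc.abs) (fun z hz => ?_) (fun _ _ => rfl) (fun _ _ => rfl)
      (fun _ _ => rfl) (fun _ _ => rfl) (fun _ _ => Qe.rfl) (fun _ _ => Qe.rfl)
      (fun z _ hz => chE_0 hε (nS z hz).le)
      (fun z _ hz => q0_sm (by
        show chE ε χ z ^ 2 = 0
        rw [chE_0 hε (nS z hz).le]; norm_num))
      (fun z _ hz => q0_sm (by
        show phE ε χ z ^ 2 = 0
        rw [phE_0 hε (nS z hz)]; norm_num)) (zo ε hε)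
    have hz2 : ε / 2 ≤ |χ z| := hz.2
    show χ z ≠ 0
    intro h
    rw [h, abs_zero] at hz2
    linarith
  intro a b ha hb
  obtain ⟨G, hG⟩ : ∃ G : E → ℝ, G = fun z => (mg.sm fun z => χ z ^ 2).dens σ τ v₁ v₂ W a b z :=
    ⟨_, rfl⟩
  obtain ⟨H, hH⟩ : ∃ H : E → ℝ, H = fun z => χ z ^ 2 * dn σ τ v₁ v₂ W a b z := ⟨_, rfl⟩
  have iG : IntegrableOn (fun z => θ z * G z) univ := by
    rw [hG]; exact Q8.int_dens ok ot hv₁ hv₂ hW ha hb cM
  have iH : IntegrableOn (fun z => θ z * H z) univ := by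
    rw [hH]; exact H338.C.int_w ok ot hv₁ hv₂ hW ha hb hχ.contDiffOn
  have iC := Q8.int_dens ok ot hv₁ hv₂ hW ha hb cC
  have iGH : IntegrableOn (fun z => θ z * (G z - H z)) univ := by
    refine (iG.sub iH).congr_fun (fun z _ => ?_) MeasurableSet.univ
    simp only [Pi.sub_apply]
    ring
  have hps : ∀ ε : ℝ, Continuous (psE ε χ) := fun ε => psE_ct hc
  have p01 : ∀ ε z, |psE ε χ z ^ 2| ≤ 1 := fun ε z => by
    have h1 : 0 ≤ psE ε χ z := se_nn _
    have h2 : psE ε χ z ≤ 1 := se_le _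
    rw [abs_of_nonneg (by positivity)]
    exact pow_le_one₀ h1 h2
  have meas : ∀ ε : ℝ, ∀ {F : E → ℝ}, IntegrableOn (fun z => θ z * F z) univ →
      IntegrableOn (fun z => psE ε χ z ^ 2 * (θ z * F z)) univ := by
    intro ε F hF
    exact hF.bdd_mul (c := 1) ((hps ε).pow 2).aestronglyMeasurable
      (Eventually.of_forall fun z => by rw [Real.norm_eq_abs]; exact p01 ε z)
  -- the inequality for every `ε`
  have key : ∀ ε : ℝ, 0 < ε → ∫ z in univ, psE ε χ z ^ 2 * (θ z * (G z - H z)) ≤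
      C * In univ θ (co.dens σ τ v₁ v₂ W a b) := by
    intro ε hε
    have h1 := z1 ε hε a b ha hb
    have e1 : In univ θ ((mg.sm fun z => chE ε χ z ^ 2).dens σ τ v₁ v₂ W a b) =
        ∫ z in univ, psE ε χ z ^ 2 * (θ z * G z) := by
      unfold In
      refine setIntegral_congr_fun MeasurableSet.univ fun z _ => ?_
      simp only [hG, Q8.dens_sm, chE_eq hε]
      ring
    have e2 : In univ θ (fun z => chE ε χ z ^ 2 * dn σ τ v₁ v₂ W a b z) =
        ∫ z in univ, psE ε χ z ^ 2 * (θ z * H z) := by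
      unfold In
      refine setIntegral_congr_fun MeasurableSet.univ fun z _ => ?_
      simp only [hH, chE_eq hε]
      ring
    have e3 : In univ θ ((co.sm fun z => phE ε χ z ^ 2).dens σ τ v₁ v₂ W a b) ≤
        C * In univ θ (co.dens σ τ v₁ v₂ W a b) := by
      rw [← In_cmul]
      unfold In
      refine setIntegral_mono_on ?_ ?_ MeasurableSet.univ fun z hz => ?_
      · exact Q8.int_dens ok ot hv₁ hv₂ hW ha hb (ct_sm ((phE_ct hc).pow 2).continuousOn cC)
      · have h5 : IntegrableOn (fun z => C * (θ z * co.dens σ τ v₁ v₂ W a b z)) univ :=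
          iC.const_mul C
        exact h5.congr_fun (fun z _ => by ring) MeasurableSet.univ
      · refine mul_le_mul_of_nonneg_left ?_ (ok.tp z hz).le
        rw [Q8.dens_sm]
        refine mul_le_mul_of_nonneg_right ?_ (h0 z a b)
        refine le_trans ?_ hC
        have h3 := fe_le (χ z / ε)
        have h4 : phE ε χ z ^ 2 = |deriv fe (χ z / ε)| ^ 2 := by rw [sq_abs]; rfl
        rw [h4]
        exact pow_le_pow_left₀ (abs_nonneg _) h3 2
    rw [e1, e2] at h1
    have e4 : ∫ z in univ, psE ε χ z ^ 2 * (θ z * (G z - H z)) =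
        (∫ z in univ, psE ε χ z ^ 2 * (θ z * G z)) - ∫ z in univ, psE ε χ z ^ 2 * (θ z * H z) := by
      rw [← integral_sub (meas ε iG) (meas ε iH)]
      exact setIntegral_congr_fun MeasurableSet.univ fun z _ => by ring
    rw [e4]
    linarith
  -- the limit
  have lim : Tendsto (fun k : ℕ => ∫ z in univ, psE (1 / ((k : ℝ) + 1)) χ z ^ 2 *
      (θ z * (G z - H z))) atTop (𝓝 (∫ z in univ, θ z * (G z - H z))) := by
    refine tendsto_integral_of_dominated_convergence (fun z => ‖θ z * (G z - H z)‖)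
      (fun k => (meas _ iGH).aestronglyMeasurable) iGH.norm (fun k => ?_) ?_
    · refine Eventually.of_forall fun z => ?_
      rw [norm_mul]
      refine mul_le_of_le_one_left (norm_nonneg _) ?_
      rw [Real.norm_eq_abs]
      exact p01 _ z
    · refine Eventually.of_forall fun z => ?_
      by_cases h : χ z = 0
      · have e : G z - H z = 0 := by
          rw [hG, hH]
          simp only [Q8.dens_sm, h]
          ring
        simp only [e, mul_zero]
        exact tendsto_const_nhds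
      · have hp : 0 < |χ z| := abs_pos.2 h
        have t1 : Tendsto (fun k : ℕ => 1 / ((k : ℝ) + 1)) atTop (𝓝 0) :=
          tendsto_one_div_add_atTop_nhds_zero_nat
        refine tendsto_const_nhds.congr' ?_
        filter_upwards [t1.eventually (Iio_mem_nhds hp)] with k hk
        have hk' : 1 / ((k : ℝ) + 1) < |χ z| := hk
        rw [psE_1 (by positivity) hk'.le]
        ring
  have fin : ∫ z in univ, θ z * (G z - H z) ≤ C * In univ θ (co.dens σ τ v₁ v₂ W a b) :=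
    le_of_tendsto lim (Eventually.of_forall fun k => key _ (by positivity))
  have e5 : ∫ z in univ, θ z * (G z - H z) = (∫ z in univ, θ z * G z) - ∫ z in univ, θ z * H z := by
    rw [← integral_sub iG iH]
    exact setIntegral_congr_fun MeasurableSet.univ fun z _ => by ring
  have e6 : In univ θ ((co.sm fun _ => C).dens σ τ v₁ v₂ W a b) =
      C * In univ θ (co.dens σ τ v₁ v₂ W a b) := by
    rw [← In_cmul]
    unfold In
    refine setIntegral_congr_fun MeasurableSet.univ fun z _ => ?_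
    simp only [Q8.dens_sm]
  rw [e6]
  rw [e5] at fin
  rw [hG, hH] at fin
  unfold In at fin ⊢
  linarith

end Vale.Agent.P088.R2.H86.Z
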