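import Vale.Agent.P088.R2.H814.B2.Kp3
import Vale.Agent.P088.R2.H870.Z2.Spec

/-!
# P088, stage 3, zone II: `KP` with the constants in the right order

`kb_kp`: helper814's `Kb.kp` with the lower bound of the gradient in the difference frame as a
hypothesis; `low_of`: this bound from helper870's `MB`, `W1` (constants of `n` only), for small `r`
and `N ≤ a e r`.
-/

open Set Filter
open scoped ContDiff Topology

noncomputable section

namespace Vale.Agent.P088.R2.H86.Z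

open Vale.Agent.P088.R2.H961.GW Vale.Agent.P088.R2.H960.W Vale.Agent.P088.R2.H644
  Vale.Agent.P088.R2.H814.B2 Vale.Agent.P088.R2.H814.An Vale.Agent.P088.R2.H870.Z2

variable {E ι β : Type*} [NormedAddCommGroup E] [NormedSpace ℝ E] [Fintype ι] [Fintype β]
variable {σ τ : Sl E ι} {p q : β → ι → E → ℝ} {v₁ v₂ W ζ k ee χ Z : E → ℝ} {U : Set E}
  {θ : E → ℝ} {r e N K lam A η' η : ℝ} {z : E}

/-- **The lower bound of the gradient in the difference frame.** -/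
theorem low_of (mb : MB σ τ p q A r z) (wb : W1 σ τ W A e N r z) (hA : 1 ≤ A) (he : 0 ≤ e)
    (hr : 0 ≤ r) (hN : 0 ≤ N) (hs : ∀ i, σ.s i i z ≤ A ^ 2) {a : ℝ} (ha : 0 ≤ a) (hra : r ≤ a)
    (hNa : N ≤ a * (e * r))
    (hc : Fintype.card β * (Fintype.card ι * (4 * A ^ 2)) ^ 2 * A * a ^ 2 ≤ 1) :
    σ.F W z ≤ ∑ b, gg σ τ p q b W z ^ 2 := by
  have A0 : 0 ≤ A := by linarith
  have er0 : 0 ≤ e * r := mul_nonneg he hr
  have hp : ∀ b i, |p b i z| ≤ A := by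
    intro b i
    refine abs_le_of_sq_le_sq' ?_ A0 |> abs_le.2
    have h1 := mb.f₁ i i
    have h2 : p b i z * p b i z ≤ ∑ a, p a i z * p a i z :=
      Finset.single_le_sum (f := fun a => p a i z * p a i z) (fun a _ => mul_self_nonneg _)
        (Finset.mem_univ b)
    rw [h1] at h2
    have := hs i
    nlinarith
  -- the symmetric derivative
  have hS : ∀ b, |gs σ τ p q b W z| ≤ Fintype.card ι * (4 * A ^ 2) * (a * (e * r)) := by
    intro b
    have e1 : gs σ τ p q b W z = ∑ i, (p b i z * (σ.D i W z + τ.D i W z) -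
        (p b i z - q b i z) * τ.D i W z) := by
      unfold gs fD
      rw [← Finset.sum_add_distrib]
      exact Finset.sum_congr rfl fun i _ => by ring
    rw [e1]
    refine (Finset.abs_sum_le_sum_abs _ _).trans ?_
    have h1 : ∀ i, |p b i z * (σ.D i W z + τ.D i W z) - (p b i z - q b i z) * τ.D i W z| ≤
        4 * A ^ 2 * (a * (e * r)) := by
      intro i
      have h2 : |p b i z * (σ.D i W z + τ.D i W z)| ≤ A * (A * (N + e * r ^ 2)) := by
        rw [abs_mul]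
        exact mul_le_mul (hp b i) (wb.s i) (abs_nonneg _) A0
      have h3 : |(p b i z - q b i z) * τ.D i W z| ≤ A * r * (A * (e * r)) := by
        rw [abs_mul]
        exact mul_le_mul (mb.df b i) (wb.y i) (abs_nonneg _) (mul_nonneg A0 hr)
      have h4 : e * r ^ 2 ≤ a * (e * r) := by
        have := mul_le_mul_of_nonneg_right hra er0
        nlinarith
      have h5 : A ^ 2 * (N + e * r ^ 2) ≤ A ^ 2 * (2 * (a * (e * r))) :=
        mul_le_mul_of_nonneg_left (by linarith) (sq_nonneg A)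
      have h6 : A ^ 2 * (e * r ^ 2) ≤ A ^ 2 * (a * (e * r)) :=
        mul_le_mul_of_nonneg_left h4 (sq_nonneg A)
      have h7 : 0 ≤ A ^ 2 * (a * (e * r)) := by positivity
      calc _ ≤ |p b i z * (σ.D i W z + τ.D i W z)| + |(p b i z - q b i z) * τ.D i W z| :=
            abs_sub _ _
        _ ≤ _ := by nlinarith
    refine (Finset.sum_le_sum fun i _ => h1 i).trans (le_of_eq ?_)
    rw [Finset.sum_const, Finset.card_univ, nsmul_eq_mul]
    ring
  have h1 : ∀ b', 2 * fD σ p b' W z ^ 2 -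
      (Fintype.card ι * (4 * A ^ 2) * (a * (e * r))) ^ 2 ≤ gg σ τ p q b' W z ^ 2 := by
    intro b'
    have e1 : gg σ τ p q b' W z = 2 * fD σ p b' W z - gs σ τ p q b' W z := by
      unfold gg gs; ring
    have h2 := pow_le_pow_left₀ (abs_nonneg _) (hS b') 2
    rw [sq_abs] at h2
    rw [e1]
    nlinarith [sq_nonneg (fD σ p b' W z - gs σ τ p q b' W z)]
  have h3 := Finset.sum_le_sum fun b' (_ : b' ∈ Finset.univ) => h1 b'
  rw [Finset.sum_sub_distrib, ← Finset.mul_sum, fr_F (fun i j => mb.f₁ i j), Finset.sum_const,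
    Finset.card_univ, nsmul_eq_mul] at h3
  have hF := wb.F₁
  have hF0 : 0 ≤ σ.F W z := by
    have h4 : 0 ≤ (e * r) ^ 2 := sq_nonneg _
    nlinarith
  have h5 : Fintype.card β * (Fintype.card ι * (4 * A ^ 2) * (a * (e * r))) ^ 2 ≤ σ.F W z := by
    calc (Fintype.card β : ℝ) * (Fintype.card ι * (4 * A ^ 2) * (a * (e * r))) ^ 2 =
          Fintype.card β * (Fintype.card ι * (4 * A ^ 2)) ^ 2 * a ^ 2 * (e * r) ^ 2 := by ring
      _ ≤ Fintype.card β * (Fintype.card ι * (4 * A ^ 2)) ^ 2 * a ^ 2 * (A * σ.F W z) :=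
          mul_le_mul_of_nonneg_left hF (by positivity)
      _ = (Fintype.card β * (Fintype.card ι * (4 * A ^ 2)) ^ 2 * A * a ^ 2) * σ.F W z := by ring
      _ ≤ 1 * σ.F W z := mul_le_mul_of_nonneg_right hc hF0
      _ = _ := one_mul _
  linarith

/-- **`KP`**, the lower bound of the difference frame as a hypothesis. -/
theorem kb_kp (b : Kb σ τ p q v₁ v₂ W r e N K z) (F : Fr σ τ p q U θ) (hW : Sm U W) (hz : z ∈ U)
    (hr : 0 < r) (hr1 : r ≤ 1) (he : 0 ≤ e) (hN : 0 ≤ N) (hK : 1 ≤ K)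
    (ze : Ze σ τ U ζ r lam A z)
    (low : σ.F W z ≤ ∑ b, gg σ τ p q b W z ^ 2)
    (h1 : 2 * (r ^ 2 * ee z) + Fintype.card β * (lam * e *
      (2 * (K * (2 * (Fintype.card ι * K)) * A) + K + K ^ 2)) ≤ lam * σ.F W z)
    (h2 : 8 / η' * lam ^ 2 + 2 * lam + Fintype.card β *
      ((72 * (2 * (Fintype.card ι * K) * A) ^ 2 + 4 * K ^ 2 + 2) * lam) ≤
      1 / 4 * (r ^ 4 * ee z))
    (h3 : lam * (2 * K ^ 2 + Fintype.card β * ((64 * K ^ 2 + 6 * (K ^ 2 + K) ^ 2) *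
      ((e * r ^ 2 + N) ^ 2 + 1))) ≤ η / 2 * (r ^ 2 * (k z * σ.F W z)))
    (h4 : lam * (2 * K ^ 2 + Fintype.card β * ((64 * K ^ 2 + 6 * (K ^ 2 + K) ^ 2) *
      ((e * r ^ 2 + N) ^ 2 + 1))) ≤ η / 2 * (r ^ 2 * (k z * τ.F W z))) :
    KP σ τ p q v₁ v₂ W ζ k ee η' η z := by
  have K0 : 0 ≤ K := zero_le_one.trans hK
  have l0 := ze.l0
  have rr : 0 < r ^ 2 := by positivity
  have r4 : 0 < r ^ 4 := by positivity
  have hy := ze.gg K0 b.p1 b.q1
  have hU := F.ok.op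
  have hT : 0 ≤ e * r ^ 2 + N := by positivity
  have n0 : (0 : ℝ) ≤ Fintype.card β := Nat.cast_nonneg _
  have lt : r ^ 2 * (2 * ζ z ^ 2 * (v₁ z - v₂ z) ^ 2 +
      ∑ a, (8 * (ζ z ^ 2 * kn σ τ p q W a z ^ 2) + 2 * (ζ z ^ 2 * kk σ τ p q W a z ^ 2))) ≤
      lam * (2 * K ^ 2 + Fintype.card β * ((64 * K ^ 2 + 6 * (K ^ 2 + K) ^ 2) *
      ((e * r ^ 2 + N) ^ 2 + 1))) := by
    have t1 : r ^ 2 * (2 * ζ z ^ 2 * (v₁ z - v₂ z) ^ 2) ≤ lam * (2 * K ^ 2) := by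
      have hv := pow_le_pow_left₀ (abs_nonneg _) b.v 2
      rw [sq_abs] at hv
      have e1 : r ^ 2 * (2 * ζ z ^ 2 * (v₁ z - v₂ z) ^ 2) = lam * (2 * (v₁ z - v₂ z) ^ 2) := by
        rw [← ze.e]; ring
      rw [e1]
      exact mul_le_mul_of_nonneg_left (by linarith) l0
    have t2 : r ^ 2 * ∑ a, (8 * (ζ z ^ 2 * kn σ τ p q W a z ^ 2) +
        2 * (ζ z ^ 2 * kk σ τ p q W a z ^ 2)) ≤ lam * (Fintype.card β *
        ((64 * K ^ 2 + 6 * (K ^ 2 + K) ^ 2) * ((e * r ^ 2 + N) ^ 2 + 1))) := by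
      rw [Finset.mul_sum]
      refine (Finset.sum_le_sum fun a _ => lt_1 (gs := gs σ τ p q a W z) (gr := H814.B2.gr σ τ p q a z)
        (gl := gl σ τ p q a z) (ggr := gg σ τ p q a (H814.B2.gr σ τ p q a) z) l0 ze.e K0 hT (b.S a)
        (b.g a) (b.l a) (b.gr a) rfl rfl).trans (le_of_eq ?_)
      rw [Finset.sum_const, Finset.card_univ, nsmul_eq_mul]
      ring
    rw [mul_add, mul_add]
    linarith
  constructor
  · -- gain
    have g1 : ∀ a, gg σ τ p q a (fun z => ζ z ^ 2 * gg σ τ p q a W z) z =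
        2 * ζ z * gg σ τ p q a ζ z * gg σ τ p q a W z +
          ζ z ^ 2 * gg σ τ p q a (fun z => gg σ τ p q a W z) z := by
      intro a
      rw [gg_mul hU (ze.hζ.pow 2) (s_gg F hW a) a hz, gg_sq hU ze.hζ a hz]
    have g2 : lam * (∑ a, gg σ τ p q a W z ^ 2) - Fintype.card β * (lam * e *
        (2 * (K * (2 * (Fintype.card ι * K)) * A) + K + K ^ 2)) ≤
        r ^ 2 * ∑ a, (ζ z ^ 2 * gg σ τ p q a W z ^ 2 +
        gg σ τ p q a (fun z => ζ z ^ 2 * gg σ τ p q a W z) z +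
        gl σ τ p q a z * (ζ z ^ 2 * gg σ τ p q a W z)) := by
      rw [Finset.mul_sum, Finset.mul_sum]
      have e1 : (Fintype.card β : ℝ) * (lam * e *
        (2 * (K * (2 * (Fintype.card ι * K)) * A) + K + K ^ 2)) = ∑ _b : β, lam * e *
        (2 * (K * (2 * (Fintype.card ι * K)) * A) + K + K ^ 2) := by
        rw [Finset.sum_const, Finset.card_univ, nsmul_eq_mul]
      rw [e1, ← Finset.sum_sub_distrib]
      refine Finset.sum_le_sum fun a _ => ?_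
      rw [g1 a]
      exact gain_1 hr.le hr1 he K0 (by positivity) ze.A0 l0 ze.e (b.G a) (b.GG a) (b.l a) (hy a)
    have g3 := mul_le_mul_of_nonneg_left low l0
    refine le_of_mul_le_mul_left ?_ rr
    linarith
  · -- ls
    refine le_of_mul_le_mul_left ?_ r4
    have e1 : r ^ 4 * ζ z ^ 4 = lam ^ 2 := by rw [← ze.e]; ring
    have e2 : r ^ 4 * ζ z ^ 2 ≤ lam := by
      have : r ^ 4 * ζ z ^ 2 = r ^ 2 * lam := by rw [← ze.e]; ring
      rw [this]
      exact mul_le_of_le_one_left l0 (by nlinarith)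
    have e3 : r ^ 4 * ∑ a, (8 * (2 * gg σ τ p q a ζ z + 1 / 2 * gl σ τ p q a z * ζ z) ^ 2 +
        8 * gg σ τ p q a ζ z ^ 2 + 2 * ζ z ^ 2) ≤ Fintype.card β *
      ((72 * (2 * (Fintype.card ι * K) * A) ^ 2 + 4 * K ^ 2 + 2) * lam) := by
      rw [Finset.mul_sum]
      refine (Finset.sum_le_sum fun a _ => ls_1 hr.le hr1 l0 ze.e (b.l a) (hy a)).trans
        (le_of_eq ?_)
      rw [Finset.sum_const, Finset.card_univ, nsmul_eq_mul]
    have e4 : r ^ 4 * (8 / η' * ζ z ^ 4) = 8 / η' * lam ^ 2 := by rw [← e1]; ring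
    rw [mul_add, mul_add, e4]
    linarith
  · refine le_of_mul_le_mul_left ?_ rr
    linarith
  · refine le_of_mul_le_mul_left ?_ rr
    linarith


/-! ### The numbers -/

/-- The constant of the first condition. -/
def kC1 (β ι K A : ℝ) : ℝ := β * (2 * (K * (2 * (ι * K)) * A) + K + K ^ 2)

/-- The constant of the second condition. -/
def kC2 (β ι K A : ℝ) : ℝ := β * (72 * (2 * (ι * K) * A) ^ 2 + 4 * K ^ 2 + 2)

/-- The constant of the third condition. -/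
def kC3 (β K : ℝ) : ℝ := 2 * K ^ 2 + 3 * (β * (64 * K ^ 2 + 6 * (K ^ 2 + K) ^ 2))

/-- The size which `m` and `k` must have. -/
def kX (β ι K A A₀ L η η' : ℝ) : ℝ :=
  1 + 2 * A₀ * kC1 β ι K A + (256 * L ^ 2 / η' + 8 * L * (2 + kC2 β ι K A)) +
    8 * L * A₀ * kC3 β K / η

/-- The numbers at a point. -/
structure Kn (σ τ : Sl E ι) (W k ee : E → ℝ) (r e N L X A₀ lam : ℝ) (z : E) : Prop where
  r0 : 0 < r
  r1 : r ≤ 1
  e0 : 0 < e
  N0 : 0 ≤ N
  L0 : 0 ≤ L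
  X1 : 1 ≤ X
  Xm : X ≤ e * r ^ 2
  ke : X * (1 + N ^ 2 / (e * r ^ 2) ^ 2) ≤ k z
  A0 : 0 < A₀
  f₁ : (e * r) ^ 2 ≤ A₀ * σ.F W z
  f₂ : (e * r) ^ 2 ≤ A₀ * τ.F W z
  ee₁ : 2 * e ^ 2 ≤ ee z
  ee₂ : ee z ≤ 4 * e ^ 2
  l₁ : 2 * L ≤ lam
  l₂ : lam ≤ 4 * L
  LA : 8 * A₀ ≤ L

theorem Kn.m0 {r e N L X A₀ lam : ℝ} (h : Kn σ τ W k ee r e N L X A₀ lam z) : 0 < e * r ^ 2 :=
  mul_pos h.e0 (pow_pos h.r0 2)

theorem Kn.kF {r e N L X A₀ lam : ℝ} (h : Kn σ τ W k ee r e N L X A₀ lam z) {F : ℝ}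
    (hF : (e * r) ^ 2 ≤ A₀ * F) :
    X * ((e * r ^ 2) ^ 2 + N ^ 2) ≤ A₀ * (r ^ 2 * (k z * F)) := by
  have m0 := h.m0
  have k0 : 0 ≤ k z := by
    refine le_trans ?_ h.ke
    have := h.X1
    positivity
  have h1 : X * ((e * r ^ 2) ^ 2 + N ^ 2) ≤ k z * (e * r ^ 2) ^ 2 := by
    have h2 := mul_le_mul_of_nonneg_right h.ke (sq_nonneg (e * r ^ 2))
    have e1 : X * (1 + N ^ 2 / (e * r ^ 2) ^ 2) * (e * r ^ 2) ^ 2 =
        X * ((e * r ^ 2) ^ 2 + N ^ 2) := by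
      rw [mul_assoc, add_mul, one_mul, div_mul_cancel₀ _ (pow_ne_zero 2 m0.ne')]
    rw [e1] at h2
    exact h2
  have h3 : k z * (e * r ^ 2) ^ 2 ≤ A₀ * (r ^ 2 * (k z * F)) := by
    have h4 := mul_le_mul_of_nonneg_left hF (mul_nonneg k0 (sq_nonneg r))
    calc k z * (e * r ^ 2) ^ 2 = k z * r ^ 2 * (e * r) ^ 2 := by ring
      _ ≤ k z * r ^ 2 * (A₀ * F) := h4
      _ = _ := by ring
  exact h1.trans h3

/-- The third condition. -/
theorem Kn.h3 {r e N L X A₀ lam K η : ℝ} (h : Kn σ τ W k ee r e N L X A₀ lam z) {F β : ℝ}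
    (hβ : 0 ≤ β) (hF : (e * r) ^ 2 ≤ A₀ * F) (hη : 0 < η) (hX : 8 * L * A₀ * kC3 β K / η ≤ X) :
    lam * (2 * K ^ 2 + β * ((64 * K ^ 2 + 6 * (K ^ 2 + K) ^ 2) * ((e * r ^ 2 + N) ^ 2 + 1))) ≤
      η / 2 * (r ^ 2 * (k z * F)) := by
  have m0 := h.m0
  have m1 : 1 ≤ e * r ^ 2 := h.X1.trans h.Xm
  have kF := h.kF hF
  have A0 := h.A0
  have L0 := h.L0
  have N0 := h.N0
  obtain ⟨m, hm⟩ : ∃ m, m = e * r ^ 2 := ⟨_, rfl⟩
  rw [← hm] at m0 m1 kF ⊢
  have hK2 : 0 ≤ K ^ 2 := sq_nonneg K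
  obtain ⟨Q, hQ⟩ : ∃ Q, Q = β * (64 * K ^ 2 + 6 * (K ^ 2 + K) ^ 2) := ⟨_, rfl⟩
  have hQ0 : 0 ≤ Q := by rw [hQ]; positivity
  have mm : 1 ≤ m ^ 2 + N ^ 2 := by nlinarith [sq_nonneg N]
  have s1 : (m + N) ^ 2 + 1 ≤ 3 * (m ^ 2 + N ^ 2) := by nlinarith [sq_nonneg (m - N)]
  have s2 : 2 * K ^ 2 + Q * ((m + N) ^ 2 + 1) ≤ kC3 β K * (m ^ 2 + N ^ 2) := by
    have a1 := mul_le_mul_of_nonneg_left s1 hQ0
    have a2 := mul_le_mul_of_nonneg_left mm (by positivity : 0 ≤ 2 * K ^ 2)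
    have e1 : kC3 β K = 2 * K ^ 2 + 3 * Q := by rw [hQ]; rfl
    rw [e1]
    linarith
  have s3 : 0 ≤ kC3 β K := by
    have e1 : kC3 β K = 2 * K ^ 2 + 3 * Q := by rw [hQ]; rfl
    rw [e1]; positivity
  have e2 : 2 * K ^ 2 + β * ((64 * K ^ 2 + 6 * (K ^ 2 + K) ^ 2) * ((m + N) ^ 2 + 1)) =
      2 * K ^ 2 + Q * ((m + N) ^ 2 + 1) := by rw [hQ]; ring
  rw [e2]
  have s4 : 0 ≤ kC3 β K * (m ^ 2 + N ^ 2) := by positivity
  rw [div_le_iff₀ hη] at hX
  have s5 : 4 * L * (kC3 β K * (m ^ 2 + N ^ 2)) * (2 * A₀) ≤ η * (A₀ * (r ^ 2 * (k z * F))) := by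
    have a1 := mul_le_mul_of_nonneg_right hX (by positivity : 0 ≤ m ^ 2 + N ^ 2)
    have a2 := mul_le_mul_of_nonneg_left kF hη.le
    linarith
  have s6 : 4 * L * (kC3 β K * (m ^ 2 + N ^ 2)) ≤ η / 2 * (r ^ 2 * (k z * F)) := by
    have a1 : (4 * L * (kC3 β K * (m ^ 2 + N ^ 2))) * (2 * A₀) ≤
        (η / 2 * (r ^ 2 * (k z * F))) * (2 * A₀) := by linarith
    exact le_of_mul_le_mul_right a1 (by positivity)
  have l0 : 0 ≤ lam := by linarith [h.l₁]
  have s7 : 0 ≤ 2 * K ^ 2 + Q * ((m + N) ^ 2 + 1) := by positivity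
  calc lam * (2 * K ^ 2 + Q * ((m + N) ^ 2 + 1)) ≤ 4 * L * (kC3 β K * (m ^ 2 + N ^ 2)) :=
        mul_le_mul h.l₂ s2 s7 (by positivity)
    _ ≤ _ := s6

/-- **`KP` from the numbers.** -/
theorem Kn.kp {r e N L X A₀ lam K A η η' : ℝ} (h : Kn σ τ W k ee r e N L X A₀ lam z)
    (b : Kb σ τ p q v₁ v₂ W r e N K z) (F : Fr σ τ p q U θ) (hW : Sm U W) (hz : z ∈ U)
    (hK : 1 ≤ K) (hA : 0 ≤ A) (ze : Ze σ τ U ζ r lam A z)
    (low : σ.F W z ≤ ∑ b, gg σ τ p q b W z ^ 2) (hη : 0 < η) (hη' : 0 < η')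
    (hX : kX (Fintype.card β) (Fintype.card ι) K A A₀ L η η' ≤ X) :
    KP σ τ p q v₁ v₂ W ζ k ee η' η z := by
  have β0 : (0 : ℝ) ≤ Fintype.card β := Nat.cast_nonneg _
  have ι0 : (0 : ℝ) ≤ Fintype.card ι := Nat.cast_nonneg _
  have K0 : 0 ≤ K := by linarith
  have m0 := h.m0
  have e0 := h.e0
  have r0 := h.r0
  have A0 := h.A0
  have L0 := h.L0
  have l0 : 0 ≤ lam := by linarith [h.l₁]
  have c1 : 0 ≤ kC1 (Fintype.card β) (Fintype.card ι) K A := by unfold kC1; positivity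
  have c2 : 0 ≤ kC2 (Fintype.card β) (Fintype.card ι) K A := by unfold kC2; positivity
  have c3 : 0 ≤ kC3 (Fintype.card β) K := by unfold kC3; positivity
  have t1 : 0 ≤ 2 * A₀ * kC1 (Fintype.card β) (Fintype.card ι) K A := by positivity
  have t2 : 0 ≤ 256 * L ^ 2 / η' + 8 * L * (2 + kC2 (Fintype.card β) (Fintype.card ι) K A) := by
    positivity
  have t3 : 0 ≤ 8 * L * A₀ * kC3 (Fintype.card β) K / η := by positivity
  unfold kX at hX
  have Xm := h.Xm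
  refine kb_kp b F hW hz r0 h.r1 e0.le h.N0 hK ze low ?_ ?_
    (h.h3 β0 h.f₁ hη (by linarith)) (h.h3 β0 h.f₂ hη (by linarith))
  · -- the first condition
    have f1 := h.f₁
    have a1 : 2 * (r ^ 2 * ee z) ≤ L * σ.F W z := by
      have b1 := mul_le_mul_of_nonneg_left h.ee₂ (sq_nonneg r)
      have hF : 0 ≤ σ.F W z := by
        have : 0 ≤ A₀ * σ.F W z := (sq_nonneg _).trans f1
        exact nonneg_of_mul_nonneg_right this A0
      have b2 := mul_le_mul_of_nonneg_right h.LA hF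
      nlinarith
    have a2 : (Fintype.card β : ℝ) * (lam * e *
        (2 * (K * (2 * (Fintype.card ι * K)) * A) + K + K ^ 2)) ≤ lam * (1 / 2 * σ.F W z) := by
      have e1 : (Fintype.card β : ℝ) * (lam * e *
        (2 * (K * (2 * (Fintype.card ι * K)) * A) + K + K ^ 2)) =
        lam * (e * kC1 (Fintype.card β) (Fintype.card ι) K A) := by unfold kC1; ring
      rw [e1]
      refine mul_le_mul_of_nonneg_left ?_ l0
      have b1 : 2 * A₀ * kC1 (Fintype.card β) (Fintype.card ι) K A ≤ e * r ^ 2 := by linarith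
      have b2 := mul_le_mul_of_nonneg_left b1 e0.le
      have b3 : 2 * A₀ * (e * kC1 (Fintype.card β) (Fintype.card ι) K A) ≤ A₀ * σ.F W z := by
        nlinarith
      have b4 : A₀ * (2 * (e * kC1 (Fintype.card β) (Fintype.card ι) K A)) ≤ A₀ * σ.F W z := by
        linarith
      have := le_of_mul_le_mul_left b4 A0
      linarith
    have hF : 0 ≤ σ.F W z := by
      have : 0 ≤ A₀ * σ.F W z := (sq_nonneg _).trans f1
      exact nonneg_of_mul_nonneg_right this A0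
    have a3 := mul_le_mul_of_nonneg_right h.l₁ hF
    linarith
  · -- the second condition
    have e1 : (Fintype.card β : ℝ) * ((72 * (2 * (Fintype.card ι * K) * A) ^ 2 + 4 * K ^ 2 + 2) *
        lam) = lam * kC2 (Fintype.card β) (Fintype.card ι) K A := by unfold kC2; ring
    rw [e1]
    have l2 := h.l₂
    have q1 : lam ^ 2 ≤ 16 * L ^ 2 := by nlinarith
    have q2 : 8 / η' * lam ^ 2 ≤ 8 / η' * (16 * L ^ 2) :=
      mul_le_mul_of_nonneg_left q1 (by positivity)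
    have q3 : 8 / η' * (16 * L ^ 2) = 256 * L ^ 2 / η' / 2 := by ring
    have q4 : 2 * lam + lam * kC2 (Fintype.card β) (Fintype.card ι) K A ≤
        4 * L * (2 + kC2 (Fintype.card β) (Fintype.card ι) K A) := by
      have := mul_le_mul_of_nonneg_right l2
        (by linarith : 0 ≤ 2 + kC2 (Fintype.card β) (Fintype.card ι) K A)
      linarith
    have m1 : 1 ≤ e * r ^ 2 := h.X1.trans h.Xm
    have q5 : (e * r ^ 2) ≤ (e * r ^ 2) ^ 2 := by nlinarith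
    have q6 : 1 / 4 * (r ^ 4 * ee z) ≥ 1 / 2 * (e * r ^ 2) ^ 2 := by
      have := mul_le_mul_of_nonneg_left h.ee₁ (by positivity : 0 ≤ r ^ 4)
      nlinarith
    linarith

/-- **`KZ` from the numbers.** -/
theorem kz_num {r e N L lam K : ℝ} (b : Kb σ τ p q v₁ v₂ W r e N K z) (hr : 0 < r) (he : 0 < e)
    (hK : 1 ≤ K) (hL : 0 ≤ L) (hζ : ζ z ^ 2 * r ^ 2 = lam) (hlam : lam ≤ 4 * L)
    (hee : 2 * e ^ 2 ≤ ee z) (hZ0 : 0 ≤ Z z) {d : ℝ} (hd : 0 ≤ d) (d1 : ∀ i, |σ.D i χ z| ≤ d / r)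
    (d2 : ∀ i, |τ.D i χ z| ≤ d / r)
    (h1 : 32 * (Fintype.card β * Fintype.card ι * K ^ 2) * L * (|χ z| * d) ≤ e * r ^ 2 * Z z)
    (h2 : 1280 * (Fintype.card β * Fintype.card ι ^ 2 * K ^ 2) * L * d ^ 2 ≤
      (e * r ^ 2) ^ 2 * Z z) :
    KZ σ τ p q W χ ζ ee Z z := by
  have β0 : (0 : ℝ) ≤ Fintype.card β := Nat.cast_nonneg _
  have ι0 : (0 : ℝ) ≤ Fintype.card ι := Nat.cast_nonneg _
  have K0 : 0 ≤ K := by linarith
  have hx := abs_nonneg (χ z)
  have hZe := mul_le_mul_of_nonneg_left hee hZ0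
  refine b.kz hr he.le hK hζ (by positivity : 0 ≤ d / r) d1 d2 ?_ ?_
  · have e1 : 8 * (Fintype.card β * (2 * (Fintype.card ι * K)) * K) * (lam * (|χ z| * (d / r) * e)) =
        16 * (Fintype.card β * Fintype.card ι * K ^ 2) * lam * (|χ z| * d) * e / r := by
      field_simp
      ring
    rw [e1, div_le_iff₀ hr]
    have a1 : 16 * (Fintype.card β * Fintype.card ι * K ^ 2) * lam * (|χ z| * d) ≤
        2 * (e * r ^ 2 * Z z) := by
      have : 16 * (Fintype.card β * Fintype.card ι * K ^ 2) * lam * (|χ z| * d) ≤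
          16 * (Fintype.card β * Fintype.card ι * K ^ 2) * (4 * L) * (|χ z| * d) := by gcongr
      linarith
    have a2 := mul_le_mul_of_nonneg_right a1 he.le
    have a3 := mul_le_mul_of_nonneg_left hZe (sq_nonneg r)
    nlinarith
  · have e1 : 160 * (Fintype.card β * (2 * (Fintype.card ι * K)) ^ 2) * (lam * (d / r) ^ 2) =
        640 * (Fintype.card β * Fintype.card ι ^ 2 * K ^ 2) * lam * d ^ 2 / r ^ 2 := by
      field_simp
      ring
    rw [e1, div_le_iff₀ (by positivity)]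
    have a1 : 640 * (Fintype.card β * Fintype.card ι ^ 2 * K ^ 2) * lam * d ^ 2 ≤
        2 * ((e * r ^ 2) ^ 2 * Z z) := by
      have : 640 * (Fintype.card β * Fintype.card ι ^ 2 * K ^ 2) * lam * d ^ 2 ≤
          640 * (Fintype.card β * Fintype.card ι ^ 2 * K ^ 2) * (4 * L) * d ^ 2 := by gcongr
      linarith
    have a3 := mul_le_mul_of_nonneg_left hZe (by positivity : 0 ≤ r ^ 4)
    nlinarith

end Vale.Agent.P088.R2.H86.Z
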