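import Vale.Agent.P088.R2.H942.Near14
import Vale.Agent.P088.R2.H230.W.Fl

/-!
# P088, stage 3, zone II: the pointwise certificate, scaled and perturbed (linear algebra)

`ϱ` = length of the gradient of `u`; the slope direction `e` is the same in both slots.
-/

noncomputable section

namespace Vale.Agent.P088.R2.H86.Z

open Vale.Agent.P088.R2.H230.W
open Vale.Agent.P088.R2.H942.Iso.Near hiding dn
open Set

variable {ι : Type*} [Fintype ι]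

lemma TT_smul_left (a : ℝ) (c w U : ι → ℝ) : TT (a • c) w U = a * TT c w U := by
  unfold TT; simp only [dd_smul_left]; ring

lemma TT_smul_mid (a : ℝ) (c w U : ι → ℝ) : TT c (a • w) U = a * TT c w U := by
  unfold TT; simp only [dd_smul_left, dd_smul_right]; ring

lemma TT_add_l (c d w U : ι → ℝ) : TT (c + d) w U = TT c w U + TT d w U := by
  unfold TT; simp only [dd_add_left]; ring

lemma TT_add_m (c w w' U : ι → ℝ) : TT c (w + w') U = TT c w U + TT c w' U := by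
  unfold TT; simp only [dd_add_left, dd_add_right]; ring

lemma kf_smul {e w : ι → ℝ} {a : ℝ} (ha : a ≠ 0) : kf e (a • w) = a⁻¹ • kf e w := by
  unfold kf
  simp only [dd_smul_left, dd_smul_right, smul_smul]
  ext i
  simp only [Pi.smul_apply, Pi.sub_apply, smul_eq_mul]
  by_cases h : dd w w = 0
  · rw [h]; simp
  · field_simp

/-- The model of the field (in the frame): near field and field of the normal convexity. -/
def cm (e q : ι → ℝ) (ϱ g k z b s2 p κ E : ℝ) : ι → ℝ :=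
  ϱ • cn e (ϱ • q) (ϱ ^ 2 * g) k (z / ϱ ^ 2) (ϱ * b) (ϱ ^ 2 * s2) (ϱ ^ 2 * p) 1 +
    (κ / E) • kf e ((p * ϱ) • e + k • q)

/-- `zII2` with half of the quartic margin of the near certificate. -/
theorem zII4 {e q : ι → ℝ} {g k z s : ℝ} (H : Small g k z s) (he : dd e e = 1)
    (hq : dd q q = s ^ 2) {Z p1 p2 E K κ : ℝ} (hZ : z ≤ Z) (hs26 : 26 * s ≤ 1)
    (h1 : g ≤ p1) (h2 : g ≤ p2) (h1' : p1 ≤ k * s / 2) (h2' : p2 ≤ k * s / 2)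
    (hκ : 0 ≤ κ) (hK : κ ≤ K + E * s ^ 4 / 2400) (hE : 1600 * κ ≤ E * s ^ 2)
    (hE2 : 16 * κ ≤ E) (U V : ι → ℝ) :
    κ / 4 * (dd U U + dd V V) + κ / (3600 * (1 + Z) * s ^ 2) * dd (U - V) (U - V)
      ≤ K * (dd e U + dd e V) ^ 2 + E * FU e q g k z p1 1 p2 1 U V
        + κ * TT (kf e (p1 • e + k • q)) (p1 • e + k • q) U
        + κ * TT (kf e (p2 • e - k • q)) (p2 • e - k • q) V := by
  have hs := H.s_pos
  have hg := H.rad.g_pos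
  have hk1 := H.k_gt
  have hE0 : 0 ≤ E := by linarith
  have main := zII2 H he hq (E := E / 2) (K := K + E * s ^ 4 / 2400) hZ hs26 h1 h2 h1' h2' hκ hK
    (by linarith) (by linarith) U V
  have g1 := dd_w_ge he hs hq (hg.le.trans h1) (by linarith : p1 ≤ k * s / 2) (by linarith : 0 ≤ k)
  have hq' : dd (-q) (-q) = s ^ 2 := by rw [dd_neg_neg]; exact hq
  have g2 := dd_w_ge he hs hq' (hg.le.trans h2) (by linarith : p2 ≤ k * s / 2) (by linarith : 0 ≤ k)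
  have hqe : dd q e = dd e q := dd_comm _ _
  have w1 : dd (p1 • e + k • q) (p1 • e + k • q) = wq k (dd e q) (s ^ 2) p1 1 := by
    unfold wq
    simp only [dd_smul_left, dd_smul_right, dd_add_left, dd_add_right, he, hq, hqe]
    ring
  have hqe' : dd (-q) e = dd e (-q) := dd_comm _ _
  have e1 : dd e (-q) = -dd e q := dd_neg_right e q
  have w2 : dd (p2 • e + k • (-q)) (p2 • e + k • (-q))
      = wq k (-dd e q) (s ^ 2) p2 1 := by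
    unfold wq
    simp only [dd_smul_left, dd_smul_right, dd_add_left, dd_add_right, he, hq', hqe', e1]
    ring
  have hD1 : 0 < wq k (dd e q) (s ^ 2) p1 1 := by
    rw [← w1]; exact lt_of_lt_of_le (by positivity) g1
  have hD2 : 0 < wq k (-dd e q) (s ^ 2) p2 1 := by
    rw [← w2]; exact lt_of_lt_of_le (by positivity) g2
  have hF := near_small H he hq (t1 := 1) (t2 := 1) zero_le_one zero_le_one
    (by linarith : 1 * g ≤ p1) (by linarith : 1 * g ≤ p2) hD1 hD2 U V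
  have G1 := Gr_nonneg (q := q) he U
  have G2 := Gr_nonneg (q := q) he V
  have hX : (dd e U + dd e V) ^ 2 ≤ 2 * (dd U U + dd V V) := by
    have a1 := dd_cs e U
    have a2 := dd_cs e V
    rw [he, one_mul] at a1 a2
    nlinarith [sq_nonneg (dd e U - dd e V)]
  have h3 : E * s ^ 4 / 2400 * (dd e U + dd e V) ^ 2 ≤
      E / 2 * FU e q g k z p1 1 p2 1 U V := by
    have h4 : s ^ 4 / 600 * (dd U U + dd V V) ≤ FU e q g k z p1 1 p2 1 U V := by linarith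
    have h5 := mul_le_mul_of_nonneg_left h4 (by linarith : 0 ≤ E / 2)
    have h6 := mul_le_mul_of_nonneg_left hX (by positivity : 0 ≤ E * s ^ 4 / 2400)
    linarith
  linarith

section

variable {e q : ι → ℝ} {ϱ g k z s p : ℝ}

/-- **Zone II with a gradient of length `ϱ`.** -/
theorem zII_rho {Z E K κ : ℝ} (H : Small (ϱ ^ 2 * g) k (z / ϱ ^ 2) (ϱ * s)) (hϱ : 0 < ϱ)
    (he : dd e e = 1) (hq : dd q q = s ^ 2) (hZ : z / ϱ ^ 2 ≤ Z) (hs : 26 * (ϱ * s) ≤ 1)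
    (hp : g ≤ p) (hp' : ϱ * p ≤ k * s / 2) (hκ : 0 ≤ κ) (hK : κ ≤ K + E * (ϱ * s) ^ 4 / 2400)
    (hE : 1600 * κ ≤ E * (ϱ * s) ^ 2) (hE2 : 16 * κ ≤ E) (hE0 : E ≠ 0) (U V : ι → ℝ) :
    κ / 4 * (dd U U + dd V V) +
      κ / (3600 * (1 + Z) * (ϱ * s) ^ 2) * dd (U - V) (U - V) ≤
    K * (dd e U + dd e V) ^ 2 +
      E * (g * (ϱ * (dd e U + dd e V)) ^ 2 + 2 * k * (ϱ * (dd e U + dd e V)) * dd q (U - V) +
        z * dd q (U - V) ^ 2 + k * dd (U - V) (U - V)) +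
      TT (cm e q ϱ g k z (dd e q) (s ^ 2) p κ E) (E • ((p * ϱ) • e + k • q)) U +
      TT (cm e (-q) ϱ g k z (-dd e q) (s ^ 2) p κ E) (E • ((p * ϱ) • e - k • q)) V := by
  have hϱ2 : 0 < ϱ ^ 2 := pow_pos hϱ 2
  have hq' : dd (ϱ • q) (ϱ • q) = (ϱ * s) ^ 2 := by
    rw [dd_smul_left, dd_smul_right, hq]; ring
  have hp1 : ϱ ^ 2 * g ≤ ϱ ^ 2 * p := mul_le_mul_of_nonneg_left hp hϱ2.le
  have hp2 : ϱ ^ 2 * p ≤ k * (ϱ * s) / 2 := by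
    have := mul_le_mul_of_nonneg_left hp' hϱ.le
    calc ϱ ^ 2 * p = ϱ * (ϱ * p) := by ring
      _ ≤ ϱ * (k * s / 2) := this
      _ = _ := by ring
  have main := zII4 H he hq' hZ hs hp1 hp1 hp2 hp2 hκ hK hE hE2 U V
  refine main.trans (le_of_eq ?_)
  have eb : dd e (ϱ • q) = ϱ * dd e q := dd_smul_right _ _ _
  have w1 : (ϱ ^ 2 * p) • e + (1 * k) • (ϱ • q) = ϱ • ((p * ϱ) • e + k • q) := by
    ext i; simp only [Pi.add_apply, Pi.smul_apply, smul_eq_mul]; ring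
  have w2 : (ϱ ^ 2 * p) • e - (1 * k) • (ϱ • q) = ϱ • ((p * ϱ) • e - k • q) := by
    ext i; simp only [Pi.sub_apply, Pi.smul_apply, smul_eq_mul]; ring
  have w3 : (ϱ ^ 2 * p) • e + k • (ϱ • q) = ϱ • ((p * ϱ) • e + k • q) := by
    rw [← w1, one_mul]
  have w4 : (ϱ ^ 2 * p) • e - k • (ϱ • q) = ϱ • ((p * ϱ) • e - k • q) := by
    rw [← w2, one_mul]
  have w5 : (p * ϱ) • e - k • q = (p * ϱ) • e + k • (-q) := by
    rw [smul_neg, sub_eq_add_neg]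
  have hn : -(ϱ • q) = ϱ • (-q) := by rw [smul_neg]
  have hm : ϱ ^ 2 * s ^ 2 = (ϱ * s) ^ 2 := by ring
  unfold FU HQ cm
  rw [w3, w4, w1, w2, eb, hq', hn, kf_smul hϱ.ne', kf_smul hϱ.ne', ← w5, hm]
  simp only [TT_add_l, TT_smul_left, TT_smul_mid, dd_smul_left]
  have hb : -(ϱ * dd e q) = ϱ * -dd e q := by ring
  rw [hb]
  field_simp
  ring

/-- The size of the model field. -/
theorem nn_cm {E κ : ℝ} (H : Small (ϱ ^ 2 * g) k (z / ϱ ^ 2) (ϱ * s)) (hϱ : 0 < ϱ) (hϱ2 : ϱ ≤ 2)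
    (he : dd e e = 1) (hq : dd q q = s ^ 2) (hs0 : 0 < s) (hs1 : s ≤ 1) (hg : 0 ≤ g)
    (hp : g ≤ p) (hp' : ϱ * p ≤ k * s / 2) (hκ : 0 ≤ κ) (hE0 : 0 < E)
    (hE : 800 * κ ≤ E * (ϱ * s) ^ 2) :
    nn (cm e q ϱ g k z (dd e q) (s ^ 2) p κ E) ≤ 21 := by
  have hk := H.k_gt
  have hϱ2' : 0 < ϱ ^ 2 := pow_pos hϱ 2
  have hq' : dd (ϱ • q) (ϱ • q) = (ϱ * s) ^ 2 := by
    rw [dd_smul_left, dd_smul_right, hq]; ring
  have hp0 : 0 ≤ p := hg.trans hp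
  have hp1 : 0 ≤ ϱ ^ 2 * p := by positivity
  have hp2 : ϱ ^ 2 * p ≤ k * (ϱ * s) / 2 := by
    have := mul_le_mul_of_nonneg_left hp' hϱ.le
    calc ϱ ^ 2 * p = ϱ * (ϱ * p) := by ring
      _ ≤ ϱ * (k * s / 2) := this
      _ = _ := by ring
  have hϱs : 0 < ϱ * s := mul_pos hϱ hs0
  have eb : dd e (ϱ • q) = ϱ * dd e q := dd_smul_right _ _ _
  have hw := dd_w_ge he hϱs hq' hp1 hp2 (by linarith : 0 ≤ k)
  have hwk : (ϱ * s) ^ 2 / 4 ≤ dd ((ϱ ^ 2 * p) • e + k • (ϱ • q)) ((ϱ ^ 2 * p) • e + k • (ϱ • q)) := by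
    refine le_trans ?_ hw
    have : 1 ≤ k ^ 2 := by nlinarith
    nlinarith [sq_nonneg (ϱ * s)]
  have w0 : 0 < dd ((ϱ ^ 2 * p) • e + k • (ϱ • q)) ((ϱ ^ 2 * p) • e + k • (ϱ • q)) :=
    lt_of_lt_of_le (by positivity) hwk
  have hwq : wq k (dd e (ϱ • q)) ((ϱ * s) ^ 2) (ϱ ^ 2 * p) 1 =
      dd ((ϱ ^ 2 * p) • e + k • (ϱ • q)) ((ϱ ^ 2 * p) • e + k • (ϱ • q)) := by
    unfold wq
    have hqe : dd q e = dd e q := dd_comm _ _
    simp only [dd_smul_left, dd_smul_right, dd_add_left, dd_add_right, he, hq, hqe]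
    ring
  have h1 := cn_sq H he hq' (p := ϱ ^ 2 * p) (t := 1) (by rw [hwq]; exact w0)
  rw [one_mul, hq'] at h1
  set c := cn e (ϱ • q) (ϱ ^ 2 * g) k (z / ϱ ^ 2) (dd e (ϱ • q)) ((ϱ * s) ^ 2) (ϱ ^ 2 * p) 1
    with hc
  have h2 : dd c c ≤ 10 ^ 2 := by
    have h3 := mul_le_mul_of_nonneg_left hwk (dd_self_nonneg c)
    have h4 : 0 < (ϱ * s) ^ 2 := by positivity
    have h5 : dd c c * ((ϱ * s) ^ 2 / 4) ≤ 25 * (ϱ * s) ^ 2 := h3.trans h1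
    have h6 : (dd c c) * (ϱ * s) ^ 2 ≤ 100 * (ϱ * s) ^ 2 := by linarith
    have := le_of_mul_le_mul_right h6 h4
    linarith
  have h3 : nn c ≤ 10 := nn_le_of_sq (by norm_num) h2
  -- the second part
  have wv : ϱ • ((p * ϱ) • e + k • q) = (ϱ ^ 2 * p) • e + k • (ϱ • q) := by
    ext i; simp only [Pi.add_apply, Pi.smul_apply, smul_eq_mul]; ring
  set w := (p * ϱ) • e + k • q with hwdef
  have hw2 : s ^ 2 / 4 ≤ dd w w := by
    rw [← wv, dd_smul_left, dd_smul_right] at hwk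
    have e1 : ϱ * (ϱ * dd w w) = ϱ ^ 2 * dd w w := by ring
    have e2 : (ϱ * s) ^ 2 / 4 = ϱ ^ 2 * (s ^ 2 / 4) := by ring
    rw [e1, e2] at hwk
    exact le_of_mul_le_mul_left hwk hϱ2'
  have hw0 : 0 < dd w w := lt_of_lt_of_le (by positivity) hw2
  have h4 := kf_sq (e := e) (w := w) he hw0.ne'
  have h5 : dd (kf e w) (kf e w) ≤ (2 / s) ^ 2 := by
    have h6 := mul_le_mul_of_nonneg_left hw2 (dd_self_nonneg (kf e w))
    rw [h4] at h6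
    have h7 : dd (kf e w) (kf e w) * s ^ 2 ≤ 4 := by linarith
    rw [div_pow, le_div_iff₀ (by positivity)]
    linarith
  have h6 : nn (kf e w) ≤ 2 / s := nn_le_of_sq (by positivity) h5
  have h7 : κ / E * (2 / s) ≤ 1 := by
    have h8 : κ / E ≤ (ϱ * s) ^ 2 / 800 := by
      rw [div_le_iff₀ hE0]; linarith
    have h9 : (ϱ * s) ^ 2 / 800 * (2 / s) = ϱ ^ 2 * s / 400 := by
      field_simp; ring
    have h10 : κ / E * (2 / s) ≤ (ϱ * s) ^ 2 / 800 * (2 / s) :=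
      mul_le_mul_of_nonneg_right h8 (by positivity)
    rw [h9] at h10
    have : ϱ ^ 2 * s ≤ 4 * 1 := by
      refine mul_le_mul ?_ hs1 hs0.le (by norm_num)
      nlinarith
    linarith
  have hcm : cm e q ϱ g k z (dd e q) (s ^ 2) p κ E = ϱ • c + (κ / E) • kf e w := by
    unfold cm
    rw [hc, hwdef, eb, mul_pow]
  rw [hcm]
  refine (nn_add_le _ _).trans ?_
  rw [nn_smul, nn_smul, abs_of_pos hϱ, abs_of_nonneg (by positivity : 0 ≤ κ / E)]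
  have a1 : ϱ * nn c ≤ 2 * 10 := mul_le_mul hϱ2 h3 (nn_nonneg _) (by norm_num)
  have a2 : κ / E * nn (kf e w) ≤ κ / E * (2 / s) :=
    mul_le_mul_of_nonneg_left h6 (by positivity)
  linarith

/-- The change of a field term. -/
lemma TT_pert {c v w w' U : ι → ℝ} {C ω α β : ℝ} (hc : nn c ≤ C) (hv : nn (v - c) ≤ ω)
    (hw : nn (w - w') ≤ α) (hw2 : nn w ≤ β) (hω : 0 ≤ ω) (hC : 0 ≤ C) :
    TT c w' U - (C * α + ω * β) * dd U U ≤ TT v w U := by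
  have e : TT v w U = TT c w' U + TT c (w - w') U + TT (v - c) w U := by
    unfold TT
    simp only [dd_sub_left, dd_sub_right]
    ring
  have h1 := (abs_le.1 (TT_abs_nn c (w - w') U)).1
  have h2 := (abs_le.1 (TT_abs_nn (v - c) w U)).1
  have U0 := dd_self_nonneg U
  have h3 : nn c * nn (w - w') * dd U U ≤ C * α * dd U U :=
    mul_le_mul_of_nonneg_right (mul_le_mul hc hw (nn_nonneg _) hC) U0
  have h4 : nn (v - c) * nn w * dd U U ≤ ω * β * dd U U :=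
    mul_le_mul_of_nonneg_right (mul_le_mul hv hw2 (nn_nonneg _) hω) U0
  rw [e]
  linarith

/-! ### Scalar pieces -/

section scalar

variable {K δ ζ X Y da db T Qn ϱ' g' k' z' p' s' a₁' a₂' S' hr' qq : ℝ}

lemma pc1 (hK0 : 0 ≤ K) (h : |da| ≤ δ * T) :
    K * ϱ' ^ 2 / 2 * X ^ 2 - K * δ ^ 2 * T ^ 2 ≤ K * (ϱ' * X + da) ^ 2 := by
  have h0 : da ^ 2 ≤ (δ * T) ^ 2 := sq_le_sq' (by linarith only [(abs_le.1 h).1]) (abs_le.1 h).2
  have h1 : 0 ≤ K * (ϱ' * X + 2 * da) ^ 2 := by positivity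
  have h2 := mul_le_mul_of_nonneg_left h0 hK0
  nlinarith only [h1, h2]

lemma pc2 (hδ0 : 0 ≤ δ) (hϱ0 : 0 ≤ ϱ') (hϱ2 : ϱ' ≤ 2) (hg0 : 0 ≤ g') (hp : g' ≤ p') (T0 : 0 ≤ T)
    (bX : |X| ≤ T) (h : |da| ≤ δ * T) :
    g' * (ϱ' * X) ^ 2 - p' * (5 * δ * T ^ 2) ≤ g' * (ϱ' * X + da) ^ 2 := by
  have pXda : |X * da| ≤ δ * T ^ 2 := by
    rw [abs_mul]
    calc _ ≤ T * (δ * T) := mul_le_mul bX h (abs_nonneg _) T0
      _ = _ := by ring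
  have hdT : 0 ≤ δ * T ^ 2 := by positivity
  have h1 : -(4 * (δ * T ^ 2)) ≤ 2 * ϱ' * (X * da) := by
    have h3 : ϱ' * |X * da| ≤ 2 * (δ * T ^ 2) := mul_le_mul hϱ2 pXda (abs_nonneg _) (by norm_num)
    have h4 := mul_le_mul_of_nonneg_left (neg_abs_le (X * da)) hϱ0
    linarith only [h3, h4]
  have h5 : -(5 * δ * T ^ 2) ≤ 2 * ϱ' * (X * da) + da ^ 2 := by
    linarith only [h1, sq_nonneg da, hdT]
  have h6 : g' * -(5 * δ * T ^ 2) ≤ g' * (2 * ϱ' * (X * da) + da ^ 2) :=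
    mul_le_mul_of_nonneg_left h5 hg0
  have h7 : g' * (5 * δ * T ^ 2) ≤ p' * (5 * δ * T ^ 2) :=
    mul_le_mul_of_nonneg_right hp (by positivity)
  nlinarith only [h6, h7]

lemma pc3 (hδ0 : 0 ≤ δ) (hδ : δ ≤ 1) (hζ0 : 0 ≤ ζ) (hϱ0 : 0 ≤ ϱ') (hϱ2 : ϱ' ≤ 2) (hk0 : 0 ≤ k')
    (hk2 : k' ≤ 2) (T0 : 0 ≤ T) (Q0 : 0 ≤ Qn) (s0 : 0 ≤ s')
    (bX : |X| ≤ T) (h : |da| ≤ δ * T) (h' : |db| ≤ ζ * T) (bY : |Y| ≤ s' * Qn) :
    2 * k' * (ϱ' * X) * Y - (12 * ζ * T ^ 2 + 4 * (δ * s') * (Qn * T)) ≤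
      2 * k' * (ϱ' * X + da) * (Y + db) := by
  have pXdb : |X * db| ≤ ζ * T ^ 2 := by
    rw [abs_mul]
    calc _ ≤ T * (ζ * T) := mul_le_mul bX h' (abs_nonneg _) T0
      _ = _ := by ring
  have pdaY : |da * Y| ≤ δ * s' * (Qn * T) := by
    rw [abs_mul]
    calc _ ≤ (δ * T) * (s' * Qn) := mul_le_mul h bY (abs_nonneg _) (by positivity)
      _ = _ := by ring
  have pdadb : |da * db| ≤ ζ * T ^ 2 := by
    rw [abs_mul]
    calc _ ≤ (δ * T) * (ζ * T) := mul_le_mul h h' (abs_nonneg _) (by positivity)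
      _ = δ * (ζ * T ^ 2) := by ring
      _ ≤ 1 * (ζ * T ^ 2) := mul_le_mul_of_nonneg_right hδ (by positivity)
      _ = _ := by ring
  have h1 : |ϱ' * (X * db) + da * Y + da * db| ≤
      2 * (ζ * T ^ 2) + δ * s' * (Qn * T) + ζ * T ^ 2 := by
    refine (abs_add_le _ _).trans (add_le_add ((abs_add_le _ _).trans (add_le_add ?_ pdaY)) pdadb)
    rw [abs_mul, abs_of_nonneg hϱ0]
    exact mul_le_mul hϱ2 pXdb (abs_nonneg _) (by norm_num)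
  have h2 := (abs_le.1 h1).1
  have h3 : 0 ≤ 3 * (ζ * T ^ 2) + δ * s' * (Qn * T) := by positivity
  have h4 : k' * (3 * (ζ * T ^ 2) + δ * s' * (Qn * T)) ≤
      2 * (3 * (ζ * T ^ 2) + δ * s' * (Qn * T)) := mul_le_mul_of_nonneg_right hk2 h3
  have h5 : k' * -(2 * (ζ * T ^ 2) + δ * s' * (Qn * T) + ζ * T ^ 2) ≤
      k' * (ϱ' * (X * db) + da * Y + da * db) := mul_le_mul_of_nonneg_left h2 hk0
  nlinarith only [h4, h5]

lemma pc4 (hζ0 : 0 ≤ ζ) (hz0 : 0 ≤ z') (hz : z' ≤ 4) (T0 : 0 ≤ T) (Q0 : 0 ≤ Qn) (s0 : 0 ≤ s')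
    (h' : |db| ≤ ζ * T) (bY : |Y| ≤ s' * Qn) :
    z' * Y ^ 2 - (8 * (ζ * s') * (Qn * T)) ≤ z' * (Y + db) ^ 2 := by
  have pYdb : |Y * db| ≤ ζ * s' * (Qn * T) := by
    rw [abs_mul]
    calc _ ≤ (s' * Qn) * (ζ * T) := mul_le_mul bY h' (abs_nonneg _) (by positivity)
      _ = _ := by ring
  have h1 := (abs_le.1 pYdb).1
  have h2 : z' * (ζ * s' * (Qn * T)) ≤ 4 * (ζ * s' * (Qn * T)) :=
    mul_le_mul_of_nonneg_right hz (by positivity)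
  have h3 : z' * -(ζ * s' * (Qn * T)) ≤ z' * (Y * db) := mul_le_mul_of_nonneg_left h1 hz0
  have h4 : 0 ≤ z' * db ^ 2 := by positivity
  nlinarith only [h2, h3, h4]

lemma pc5 (hk0 : 0 ≤ k') (hk2 : k' ≤ 2) (ha₁ : 0 ≤ a₁') (ha₂ : 0 ≤ a₂') (T0 : 0 ≤ T) (Q0 : 0 ≤ Qn)
    (S0 : 0 ≤ S') (h : |hr' - qq| ≤ a₁' * (Qn * T) + a₂' * S') :
    k' * qq - 2 * (a₁' * (Qn * T) + a₂' * S') ≤ k' * hr' := by
  have h1 := (abs_le.1 h).1
  have h2 : 0 ≤ a₁' * (Qn * T) + a₂' * S' := by positivity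
  have h3 : k' * (a₁' * (Qn * T) + a₂' * S') ≤ 2 * (a₁' * (Qn * T) + a₂' * S') :=
    mul_le_mul_of_nonneg_right hk2 h2
  have h4 : k' * -(a₁' * (Qn * T) + a₂' * S') ≤ k' * (hr' - qq) :=
    mul_le_mul_of_nonneg_left h1 hk0
  linarith only [h3, h4]

lemma pc6 {A₂ m₁ m₂ : ℝ} (hA₂ : 32 * A₂ ^ 2 ≤ m₁ * m₂) (m10 : 0 ≤ m₁) (m20 : 0 ≤ m₂)
    (S0 : 0 ≤ S') (hT2 : T ^ 2 ≤ 2 * S') :
    A₂ * (Qn * T) ≤ m₂ / 4 * Qn ^ 2 + m₁ / 16 * S' := by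
  have x0 : 0 ≤ m₂ / 2 * Qn ^ 2 := by positivity
  have y0 : 0 ≤ m₁ / 8 * S' := by positivity
  have h1 : (A₂ * (Qn * T)) ^ 2 ≤ (m₂ / 2 * Qn ^ 2) * (m₁ / 8 * S') := by
    have h2 : (A₂ * (Qn * T)) ^ 2 = A₂ ^ 2 * Qn ^ 2 * T ^ 2 := by ring
    have h3 : A₂ ^ 2 * Qn ^ 2 * T ^ 2 ≤ A₂ ^ 2 * Qn ^ 2 * (2 * S') :=
      mul_le_mul_of_nonneg_left hT2 (by positivity)
    have h4 : 32 * A₂ ^ 2 * (Qn ^ 2 * S') ≤ m₁ * m₂ * (Qn ^ 2 * S') :=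
      mul_le_mul_of_nonneg_right hA₂ (by positivity)
    rw [h2]
    nlinarith only [h3, h4]
  have h5 : (A₂ * (Qn * T)) ^ 2 ≤ ((m₂ / 2 * Qn ^ 2 + m₁ / 8 * S') / 2) ^ 2 := by
    nlinarith only [sq_nonneg (m₂ / 2 * Qn ^ 2 - m₁ / 8 * S'), h1]
  have := (abs_le.1 (abs_le_of_sq_le_sq h5 (by positivity))).2
  linarith only [this]

end scalar

/-- The gradient of the weight against its model. -/
lemma wd_le {f r r' : ι → ℝ} {E δ ζ : ℝ} (he : dd e e = 1) (hk0 : 0 ≤ k) (hk2 : k ≤ 2)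
    (hE0 : 0 < E) (hp0 : 0 ≤ p) (hps : p ≤ 2 * s) (hϱ0 : 0 ≤ ϱ) (hpϱ : p * ϱ ≤ s) (hδ : δ ≤ 1)
    (hζ : ζ ≤ s) (s0 : 0 ≤ s) (h1 : nn (f - ϱ • e) ≤ δ) (h2 : nn (r - r') ≤ ζ) (h3 : nn r' = s) :
    nn (((E * p) • f + (E * k) • r) - E • ((p * ϱ) • e + k • r')) ≤ E * p * δ + 2 * (E * ζ) ∧
      nn ((E * p) • f + (E * k) • r) ≤ 9 * (E * s) := by
  have hζ0 : 0 ≤ ζ := (nn_nonneg _).trans h2
  have hδ0 : 0 ≤ δ := (nn_nonneg _).trans h1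
  have e1 : ((E * p) • f + (E * k) • r) - E • ((p * ϱ) • e + k • r') =
      (E * p) • (f - ϱ • e) + (E * k) • (r - r') := by
    ext i
    simp only [Pi.add_apply, Pi.sub_apply, Pi.smul_apply, smul_eq_mul]
    ring
  have a1 : nn ((E * p) • (f - ϱ • e) + (E * k) • (r - r')) ≤ E * p * δ + 2 * (E * ζ) := by
    refine (nn_add_le _ _).trans (add_le_add ?_ ?_)
    · rw [nn_smul, abs_of_nonneg (by positivity : 0 ≤ E * p)]
      exact mul_le_mul_of_nonneg_left h1 (by positivity)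
    · rw [nn_smul, abs_of_nonneg (by positivity : 0 ≤ E * k)]
      calc E * k * nn (r - r') ≤ E * k * ζ := mul_le_mul_of_nonneg_left h2 (by positivity)
        _ ≤ E * 2 * ζ := by gcongr
        _ = _ := by ring
  refine ⟨by rw [e1]; exact a1, ?_⟩
  have a2 : nn (E • ((p * ϱ) • e + k • r')) ≤ 3 * (E * s) := by
    rw [nn_smul, abs_of_pos hE0]
    have : nn ((p * ϱ) • e + k • r') ≤ 3 * s := by
      refine (nn_add_le _ _).trans ?_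
      rw [nn_smul, nn_smul, nn_one he, h3, abs_of_nonneg (by positivity : 0 ≤ p * ϱ),
        abs_of_nonneg hk0]
      have := mul_le_mul_of_nonneg_right hk2 s0
      linarith only [this, hpϱ]
    have := mul_le_mul_of_nonneg_left this hE0.le
    linarith only [this]
  have a3 := nn_le_add ((E * p) • f + (E * k) • r) (E • ((p * ϱ) • e + k • r'))
  rw [e1] at a3
  have a4 : E * p * δ ≤ 2 * (E * s) := by
    calc E * p * δ ≤ E * (2 * s) * 1 := by gcongr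
      _ = _ := by ring
  have a5 : E * ζ ≤ E * s := mul_le_mul_of_nonneg_left hζ hE0.le
  linarith only [a1, a2, a3, a4, a5, mul_nonneg hE0.le s0]

/-- **Zone II, pointwise, with all perturbations.** -/
theorem near_pt {e₁ e₂ q₁ q₂ U V v₁ v₂ : ι → ℝ}
    {E K κ δ ζ ω a₁ a₂ γ ϖ hu hr Z m₁ m₂ : ℝ}
    (H : Small (ϱ ^ 2 * g) k (z / ϱ ^ 2) (ϱ * s)) (hϱ : 1 / 2 ≤ ϱ) (hϱ2 : ϱ ≤ 2)
    (he : dd e e = 1) (hq : dd q q = s ^ 2) (hs0 : 0 < s) (hs : 26 * (ϱ * s) ≤ 1)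
    (hZ : z / ϱ ^ 2 ≤ Z) (hk2 : k ≤ 2) (hz0 : 0 ≤ z) (hz : z ≤ 4) (hg0 : 0 ≤ g) (hp : g ≤ p)
    (hp' : ϱ * p ≤ k * s / 2) (hE0 : 0 < E) (hK0 : 0 ≤ K) (hκ : 0 ≤ κ)
    (hK : κ ≤ K * ϱ ^ 2 / 2 + E * p * ϖ + E * (ϱ * s) ^ 4 / 2400)
    (hE : 1600 * κ ≤ E * (ϱ * s) ^ 2)
    (d1 : nn (e₁ - ϱ • e) ≤ δ) (d2 : nn (e₂ - ϱ • e) ≤ δ) (g1 : nn (q₁ - q) ≤ ζ)
    (g2 : nn (q₂ + q) ≤ ζ) (hδ : δ ≤ 1) (hζ : ζ ≤ s)
    (hr' : |hr - dd (U - V) (U - V)| ≤ a₁ * (nn (U - V) * (nn U + nn V)) +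
      a₂ * (dd U U + dd V V))
    (hu' : γ * (dd U U + dd V V) + ϖ * (dd e U + dd e V) ^ 2 ≤ hu)
    (c1 : nn (v₁ - cm e q ϱ g k z (dd e q) (s ^ 2) p κ E) ≤ ω)
    (c2 : nn (v₂ - cm e (-q) ϱ g k z (-dd e q) (s ^ 2) p κ E) ≤ ω)
    (ha₁ : 0 ≤ a₁) (ha₂ : 0 ≤ a₂)
    (hm₁ : m₁ = κ / 4 + E * p * γ)
    (hm₂ : m₂ = κ / (3600 * (1 + Z) * (ϱ * s) ^ 2))
    (hA₁ : 2 * (K * δ ^ 2) + 31 * (E * p * δ) + 74 * (E * ζ) + 2 * (E * a₂) + 9 * (E * s * ω) ≤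
      m₁ / 4)
    (hA₂ : 32 * (E * (4 * (δ * s) + 8 * (ζ * s) + 2 * a₁)) ^ 2 ≤ m₁ * m₂) :
    m₁ / 2 * (dd U U + dd V V) + m₂ / 2 * dd (U - V) (U - V) ≤
      K * (dd e₁ U + dd e₂ V) ^ 2 + E * p * hu +
      E * (g * (dd e₁ U + dd e₂ V) ^ 2 +
        2 * k * (dd e₁ U + dd e₂ V) * (dd q₁ U + dd q₂ V) +
        z * (dd q₁ U + dd q₂ V) ^ 2 + k * hr) +
      TT v₁ ((E * p) • e₁ + (E * k) • q₁) U + TT v₂ ((E * p) • e₂ + (E * k) • q₂) V := by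
  have hϱ0 : 0 < ϱ := by linarith only [hϱ]
  have hs1 : s ≤ 1 := by nlinarith only [hs, hϱ, hs0]
  have hδ0 : 0 ≤ δ := (nn_nonneg _).trans d1
  have hζ0 : 0 ≤ ζ := (nn_nonneg _).trans g1
  have hω0 : 0 ≤ ω := (nn_nonneg _).trans c1
  have hp0 : 0 ≤ p := hg0.trans hp
  have hk1 := H.k_gt
  have hk0 : 0 ≤ k := by linarith only [hk1]
  have hE' : 800 * κ ≤ E * (ϱ * s) ^ 2 := by linarith only [hE, hκ]
  have hE8 : 16 * κ ≤ E := by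
    have h0 : 0 ≤ ϱ * s := by positivity
    have : (ϱ * s) ^ 2 ≤ 1 := by nlinarith only [h0, hs]
    have := mul_le_mul_of_nonneg_left this hE0.le
    linarith only [this, hE, hκ]
  have main := zII_rho H hϱ0 he hq hZ hs hp hp' hκ hK hE hE8 hE0.ne' U V
  have hn : dd e (-q) = -dd e q := dd_neg_right e q
  have hnq : dd (-q) (-q) = s ^ 2 := by rw [dd_neg_neg]; exact hq
  have n1 := nn_cm H hϱ0 hϱ2 he hq hs0 hs1 hg0 hp hp' hκ hE0 hE'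
  have n2 := nn_cm H hϱ0 hϱ2 he hnq hs0 hs1 hg0 hp hp' hκ hE0 hE'
  rw [hn] at n2
  have nU := nn_nonneg U
  have nV := nn_nonneg V
  obtain ⟨T, hT⟩ : ∃ T, T = nn U + nn V := ⟨_, rfl⟩
  obtain ⟨Qn, hQn⟩ : ∃ Qn, Qn = nn (U - V) := ⟨_, rfl⟩
  obtain ⟨S, hS⟩ : ∃ S, S = dd U U + dd V V := ⟨_, rfl⟩
  have T0 : 0 ≤ T := by rw [hT]; positivity
  have Q0 : 0 ≤ Qn := by rw [hQn]; exact nn_nonneg _
  have S0 : 0 ≤ S := by rw [hS]; exact add_nonneg (dd_self_nonneg _) (dd_self_nonneg _)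
  have hT2 : T ^ 2 ≤ 2 * S := by
    rw [hT, hS, ← nn_sq U, ← nn_sq V]; nlinarith only [sq_nonneg (nn U - nn V)]
  have hQ2 : Qn ^ 2 = dd (U - V) (U - V) := by rw [hQn]; exact nn_sq _
  obtain ⟨X, hX⟩ : ∃ X, X = dd e U + dd e V := ⟨_, rfl⟩
  obtain ⟨Y, hY⟩ : ∃ Y, Y = dd q (U - V) := ⟨_, rfl⟩
  obtain ⟨da, hda⟩ : ∃ da, da = dd (e₁ - ϱ • e) U + dd (e₂ - ϱ • e) V := ⟨_, rfl⟩
  obtain ⟨db, hdb⟩ : ∃ db, db = dd (q₁ - q) U + dd (q₂ + q) V := ⟨_, rfl⟩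
  have ea : dd e₁ U + dd e₂ V = ϱ * X + da := by
    rw [hX, hda]; simp only [dd_sub_left, dd_smul_left]; ring
  have eb : dd q₁ U + dd q₂ V = Y + db := by
    rw [hY, hdb]; simp only [dd_sub_left, dd_add_left, dd_sub_right]; ring
  have two : ∀ {u v : ι → ℝ} {t : ℝ}, nn u ≤ t → nn v ≤ t → |dd u U + dd v V| ≤ t * T := by
    intro u v t h1 h2
    rw [hT, mul_add]
    exact (abs_add_le _ _).trans (add_le_add
      ((dd_le_nn u U).trans (mul_le_mul_of_nonneg_right h1 nU))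
      ((dd_le_nn v V).trans (mul_le_mul_of_nonneg_right h2 nV)))
  have bX : |X| ≤ 1 * T := by rw [hX]; exact two (nn_one he).le (nn_one he).le
  have bda : |da| ≤ δ * T := by rw [hda]; exact two d1 d2
  have bdb : |db| ≤ ζ * T := by rw [hdb]; exact two g1 g2
  have hnq1 : nn q = s := by
    unfold nn; rw [hq]; exact Real.sqrt_sq hs0.le
  have bY : |Y| ≤ s * Qn := by
    rw [hY, hQn, ← hnq1]
    exact dd_le_nn _ _
  rw [one_mul] at bX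
  have P1 := pc1 (X := X) (ϱ' := ϱ) hK0 bda
  have P2 := pc2 (X := X) hδ0 hϱ0.le hϱ2 hg0 hp T0 bX bda
  have P3 := pc3 (X := X) (Y := Y) hδ0 hδ hζ0 hϱ0.le hϱ2 hk0 hk2 T0 Q0 hs0.le bX bda bdb bY
  have P4 := pc4 (Y := Y) hζ0 hz0 hz T0 Q0 hs0.le bdb bY
  rw [← hQn, ← hT, ← hS] at hr'
  have P5 := pc5 hk0 hk2 ha₁ ha₂ T0 Q0 S0 hr'
  have P6 : E * p * (γ * S + ϖ * X ^ 2) ≤ E * p * hu := by
    rw [hS, hX]
    exact mul_le_mul_of_nonneg_left hu' (by positivity)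
  have hks : k * s / 2 ≤ s := by nlinarith only [hk2, hs0]
  have hps : p ≤ 2 * s := by
    have h1 : 1 / 2 * p ≤ ϱ * p := mul_le_mul_of_nonneg_right hϱ hp0
    linarith only [h1, hp', hks]
  have hpϱ : p * ϱ ≤ s := by linarith only [mul_comm p ϱ, hp', hks]
  obtain ⟨w1, w1'⟩ := wd_le he hk0 hk2 hE0 hp0 hps hϱ0.le hpϱ hδ hζ hs0.le d1 g1 hnq1
  have g2' : nn (q₂ - -q) ≤ ζ := by rw [sub_neg_eq_add]; exact g2
  obtain ⟨w2, w2'⟩ := wd_le he hk0 hk2 hE0 hp0 hps hϱ0.le hpϱ hδ hζ hs0.le d2 g2'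
    (by rw [nn_neg]; exact hnq1)
  have T1 := TT_pert (U := U) n1 c1 w1 w1' hω0 (by norm_num)
  have T2 := TT_pert (U := V) n2 c2 w2 w2' hω0 (by norm_num)
  have en : (p * ϱ) • e + k • -q = (p * ϱ) • e - k • q := by rw [smul_neg, sub_eq_add_neg]
  rw [en] at T2
  rw [← hX, ← hY] at main
  rw [ea, eb]
  have Mx : κ / 4 * S + m₂ * Qn ^ 2 ≤ (K * ϱ ^ 2 / 2 + E * p * ϖ) * X ^ 2 +
      E * (g * (ϱ * X) ^ 2 + 2 * k * (ϱ * X) * Y + z * Y ^ 2 + k * dd (U - V) (U - V)) +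
      TT (cm e q ϱ g k z (dd e q) (s ^ 2) p κ E) (E • ((p * ϱ) • e + k • q)) U +
      TT (cm e (-q) ϱ g k z (-dd e q) (s ^ 2) p κ E) (E • ((p * ϱ) • e - k • q)) V := by
    rw [hS, hm₂, hQ2]; exact main
  have m20 : 0 ≤ m₂ := by
    rw [hm₂]
    have hZ0 : 0 ≤ Z := le_trans (by positivity) hZ
    positivity
  obtain ⟨A₂, hA⟩ : ∃ A₂, A₂ = E * (4 * (δ * s) + 8 * (ζ * s) + 2 * a₁) := ⟨_, rfl⟩
  rw [← hA] at hA₂
  have A10 : 0 ≤ m₁ := by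
    have : 0 ≤ 2 * (K * δ ^ 2) + 31 * (E * p * δ) + 74 * (E * ζ) + 2 * (E * a₂) +
        9 * (E * s * ω) := by positivity
    linarith only [this, hA₁]
  have mix := pc6 (Qn := Qn) hA₂ A10 m20 S0 hT2
  have E1 := mul_le_mul_of_nonneg_left P2 hE0.le
  have E2 := mul_le_mul_of_nonneg_left P3 hE0.le
  have E3 := mul_le_mul_of_nonneg_left P4 hE0.le
  have E4 := mul_le_mul_of_nonneg_left P5 hE0.le
  have K1 : K * δ ^ 2 * T ^ 2 ≤ K * δ ^ 2 * (2 * S) :=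
    mul_le_mul_of_nonneg_left hT2 (by positivity)
  have K2 : E * p * δ * T ^ 2 ≤ E * p * δ * (2 * S) :=
    mul_le_mul_of_nonneg_left hT2 (by positivity)
  have K3 : E * ζ * T ^ 2 ≤ E * ζ * (2 * S) := mul_le_mul_of_nonneg_left hT2 (by positivity)
  have K4 := mul_le_mul_of_nonneg_right hA₁ S0
  have K5 : 0 ≤ E * ζ * S := by positivity
  have K6 : (21 * (E * p * δ + 2 * (E * ζ)) + ω * (9 * (E * s))) * dd U U +
      (21 * (E * p * δ + 2 * (E * ζ)) + ω * (9 * (E * s))) * dd V V =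
      (21 * (E * p * δ + 2 * (E * ζ)) + ω * (9 * (E * s))) * S := by rw [hS]; ring
  have K7 : m₁ * S = κ / 4 * S + E * p * (γ * S) := by rw [hm₁]; ring
  have K8 : A₂ * (Qn * T) = E * (4 * (δ * s) * (Qn * T)) + E * (8 * (ζ * s) * (Qn * T)) +
      2 * (E * (a₁ * (Qn * T))) := by rw [hA]; ring
  have m₁S : 0 ≤ m₁ * S := mul_nonneg A10 S0
  have m₂Q : 0 ≤ m₂ * Qn ^ 2 := by positivity
  rw [← hS, ← hQ2]
  rw [← hQ2] at Mx E4
  linarith only [E1, E2, E3, E4, K1, K2, K3, K4, K5, K6, K7, K8, mix, Mx, P1, P6, T1, T2, m₁S, m₂Q]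

end

end Vale.Agent.P088.R2.H86.Z
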