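import Vale.Agent.P088.R2.H86.Z.PT1
import Vale.Agent.P088.R2.H983.Fl.Zi
import Vale.Agent.P088.R2.H464.EP.Lfun

/-!
# P088, stage 3, zone II: the vectors of the certificate in the frames of the two slots

`e = Ψ ∇l / λ`, `q = Ψ (x - y)`; `Ψ² = g(p)`.
-/

open Set Filter
open scoped ContDiff Topology Matrix

noncomputable section

namespace Vale.Agent.P088.R2.H86.Z

open Vale.Agent.P088.LR Vale.Agent.P088.R2.H961.GW Vale.Agent.P088.R2.H644.Ch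
open Vale.Agent.P088.HY hiding dd dd_comm
open Vale.Agent.P088.R2.H464.Cu hiding uf
open Vale.Agent.P088.R2.H230.W
open Vale.Agent.P088.R2.H983.Fl (Wn fdc alS beS eu bb lam gl al_be)
open Vale.Agent.P088.R2.H942.Iso.Near (cn kf)

variable {n : ℕ}

section norms

lemma dd_dt (a b : V n) : dd a b = dt a b := rfl

lemma nn_le_norm (v : V n) : nn v ≤ n * ‖v‖ := by
  refine nn_le_of_sq (by positivity) ?_
  have h := (le_abs_self _).trans (dt_le v v)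
  have h0 := norm_nonneg v
  have h2 := nn2 (n := n)
  have h3 : (n : ℝ) * (‖v‖ * ‖v‖) ≤ n ^ 2 * (‖v‖ * ‖v‖) :=
    mul_le_mul_of_nonneg_right h2 (by positivity)
  calc dd v v = dt v v := rfl
    _ ≤ n * (‖v‖ * ‖v‖) := h
    _ ≤ n ^ 2 * (‖v‖ * ‖v‖) := h3
    _ = (n * ‖v‖) ^ 2 := by ring

lemma norm_le_nn (v : V n) : ‖v‖ ≤ nn v := by
  rw [pi_norm_le_iff_of_nonneg (nn_nonneg v)]
  intro i
  rw [Real.norm_eq_abs]
  exact abs_le_nn v i

lemma bf_dt (F : Matrix (Fin n) (Fin n) ℝ) (a b : V n) : bf F a b = dd a (F *ᵥ b) := by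
  unfold bf dd
  simp only [Matrix.mulVec, dotProduct, Finset.mul_sum]
  exact Finset.sum_congr rfl fun i _ => Finset.sum_congr rfl fun j _ => by ring

lemma dd_sym {F : Matrix (Fin n) (Fin n) ℝ} (hF : ∀ i j, F i j = F j i) (a b : V n) :
    dd (F *ᵥ a) b = dd a (F *ᵥ b) := by
  rw [← bf_dt, bf_symm hF, bf_dt, dd_comm]

lemma coer {F : Matrix (Fin n) (Fin n) ℝ} (hF : ∀ v : V n, 1 / 2 * dt v v ≤ bf F v v) (v : V n) :
    nn v ≤ 2 * nn (F *ᵥ v) := by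
  have h1 := hF v
  rw [bf_dt, ← dd_dt, ← nn_sq] at h1
  have h2 := (le_abs_self _).trans (dd_le_nn v (F *ᵥ v))
  rcases (nn_nonneg v).eq_or_lt with h | h
  · rw [← h]; have := nn_nonneg (F *ᵥ v); linarith
  · have h3 : nn v * nn v ≤ nn v * (2 * nn (F *ᵥ v)) := by nlinarith
    exact le_of_mul_le_mul_left h3 h

end norms

section frames

variable {ε D : ℝ} {s₁ s₂ g : MF n} {z : VV n} {F F₁ F₂ Ψ : Matrix (Fin n) (Fin n) ℝ}

/-- A vector with the coordinates `c` in a slot against its coordinates in the middle. -/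
lemma nn_fr (m1 : ∀ v : V n, ‖Ψ *ᵥ (F *ᵥ v) - v‖ ≤ 4 * n ^ 6 * D * ‖v‖) (D0 : 0 ≤ D)
    (hD : 8 * n ^ 6 * D ≤ 1) {v c m : V n} {B : ℝ} (hv : F *ᵥ v = c) (hc : Ψ *ᵥ c = m)
    (hm : nn m ≤ B) : nn (v - m) ≤ 8 * n ^ 7 * D * B := by
  have h1 := m1 v
  rw [hv, hc, norm_sub_rev] at h1
  have h2 := (norm_le_nn m).trans hm
  have h3 : ‖v‖ ≤ ‖m‖ + ‖v - m‖ := by
    have := norm_add_le m (v - m)
    rwa [add_sub_cancel] at this
  have h0 := norm_nonneg v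
  have h4 : 4 * n ^ 6 * D * ‖v‖ ≤ 1 / 2 * ‖v‖ := by
    refine mul_le_mul_of_nonneg_right ?_ h0
    linarith
  have h5 : ‖v‖ ≤ 2 * B := by linarith
  refine (nn_le_norm _).trans ?_
  have c0 : (0 : ℝ) ≤ 4 * n ^ 6 * D := by positivity
  calc (n : ℝ) * ‖v - m‖ ≤ n * (4 * n ^ 6 * D * ‖v‖) := by gcongr
    _ ≤ n * (4 * n ^ 6 * D * (2 * B)) := by gcongr
    _ = _ := by ring

/-- The direction of the slope in the frame. -/
def ev (Ψ : Matrix (Fin n) (Fin n) ℝ) (s : MF n) (l : V n → ℝ) (z : VV n) : V n :=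
  Ψ *ᵥ fun i => eu s l i z

variable {l : V n → ℝ}

lemma eu_eq (s : MF n) (l : V n → ℝ) (z : VV n) :
    (fun i => eu s l i z) = (lam s l (mid z))⁻¹ • (s (mid z) *ᵥ gl l (mid z)) := by
  funext i
  simp only [eu, Pi.smul_apply, smul_eq_mul, Matrix.mulVec, dotProduct, gl]
  rw [mul_comm]

lemma psi_ev (qp : Ψ * Ψ = g (mid z)) (hg : g (mid z) * s₁ (mid z) = 1)
    (hl : 0 < lam s₁ l (mid z)) :
    Ψ *ᵥ ev Ψ s₁ l z = (lam s₁ l (mid z))⁻¹ • gl l (mid z) := by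
  unfold ev
  rw [eu_eq, Matrix.mulVec_mulVec, qp, Matrix.mulVec_smul, Matrix.mulVec_mulVec, hg,
    Matrix.one_mulVec]

lemma ev_one (yp : ∀ i j, Ψ i j = Ψ j i) (qp : Ψ * Ψ = g (mid z))
    (hg : g (mid z) * s₁ (mid z) = 1) (hl : 0 < lam s₁ l (mid z)) :
    dd (ev Ψ s₁ l z) (ev Ψ s₁ l z) = 1 := by
  have h := psi_ev qp hg hl
  conv_lhs => rw [show ev Ψ s₁ l z = Ψ *ᵥ (fun i => eu s₁ l i z) from rfl]
  rw [dd_sym yp]
  rw [show Ψ *ᵥ (Ψ *ᵥ fun i => eu s₁ l i z) = Ψ *ᵥ ev Ψ s₁ l z from rfl, h, eu_eq, dd_smul_left,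
    dd_smul_right, dd_comm, ← bf_dt]
  have h2 : bf (s₁ (mid z)) (gl l (mid z)) (gl l (mid z)) = lam s₁ l (mid z) ^ 2 := by
    unfold lam
    rw [Real.sq_sqrt]
    by_contra hn
    have : lam s₁ l (mid z) = 0 := Real.sqrt_eq_zero'.2 (not_le.1 hn).le
    rw [this] at hl
    exact lt_irrefl _ hl
  rw [h2]
  field_simp

lemma ev_tv (yp : ∀ i j, Ψ i j = Ψ j i) (qp : Ψ * Ψ = g (mid z))
    (hg : g (mid z) * s₁ (mid z) = 1) (hl : 0 < lam s₁ l (mid z)) :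
    dd (ev Ψ s₁ l z) (tv Ψ z) = bb s₁ l z := by
  unfold tv
  rw [← dd_sym yp, psi_ev qp hg hl, dd_smul_left]
  unfold bb dd gl
  rw [mul_comm]

end frames

/-- The field in the frame is the model. -/
lemma psi_fd {Ψ : Matrix (Fin n) (Fin n) ℝ} {e q eu' dif' : V n} (he : Ψ *ᵥ eu' = e)
    (hq : Ψ *ᵥ dif' = q) (h1 : dd e e = 1) {a G k y b s ν ka κ E : ℝ} (hb : dd e q = b)
    (hs : dd q q = s) (ha : a ≠ 0) (hκ : κ / E = a ^ 2 * ka) :
    Ψ *ᵥ (fun i => fdc a (alS a G k y b s ν ka) (beS a G k y b s ν ka) (eu' i) (dif' i)) =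
      cm e q a G k y b s (ν + G) κ E := by
  have e1 : (fun i => fdc a (alS a G k y b s ν ka) (beS a G k y b s ν ka) (eu' i) (dif' i)) =
      a • (alS a G k y b s ν ka • eu' + beS a G k y b s ν ka • (a • dif')) := by
    funext i
    simp only [fdc, Pi.smul_apply, Pi.add_apply, smul_eq_mul]
    ring
  have e2 := al_be (e := e) (q := a • q) h1 (a ^ 2 * G) k (y * (a ^ 2)⁻¹) (a ^ 2 * (ν + G))
    (a ^ 2 * ka)
  have e3 : dd e (a • q) = a * b := by rw [dd_smul_right, hb]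
  have e4 : dd (a • q) (a • q) = a ^ 2 * s := by
    rw [dd_smul_left, dd_smul_right, hs]; ring
  rw [e3, e4] at e2
  rw [e1, Matrix.mulVec_smul, Matrix.mulVec_add, Matrix.mulVec_smul, Matrix.mulVec_smul,
    Matrix.mulVec_smul, he, hq]
  unfold alS beS
  rw [e2]
  unfold cm
  have e5 : (a ^ 2 * (ν + G)) • e + k • a • q = a • (((ν + G) * a) • e + k • q) := by
    funext i
    simp only [Pi.smul_apply, Pi.add_apply, smul_eq_mul]
    ring
  rw [e5, kf_smul ha, smul_add, smul_smul, smul_smul, ← div_eq_mul_inv, hκ]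
  congr 2
  field_simp

end Vale.Agent.P088.R2.H86.Z
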