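import Vale.Agent.P088.R2.H86.Z.PT2

/-!
# P088, stage 3, zone II: the function `u = l(x) + l(y) + 2 μ(l(p))` in the frames
-/

open Set Filter
open scoped ContDiff Topology Matrix

noncomputable section

namespace Vale.Agent.P088.R2.H86.Z

open Vale.Agent.P088.LR Vale.Agent.P088.R2.H961.GW Vale.Agent.P088.R2.H644.Ch
open Vale.Agent.P088.HY hiding dd dd_comm
open Vale.Agent.P088.R2.H464.Cu hiding uf
open Vale.Agent.P088.R2.H230.W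
open Vale.Agent.P088.R2.H983.Fl (Wn fdc alS beS eu bb lam gl al_be aa')
open Vale.Agent.P088.R2.H942.Iso.Near (cn kf)

variable {n : ℕ}

/-- `l` at the midpoint. -/
def lm (l : V n → ℝ) (z : VV n) : ℝ := l (mid z)

/-- `u`. -/
def um (l : V n → ℝ) (μ : ℝ → ℝ) (z : VV n) : ℝ := H464.Cu.uf l z + 2 * μ (lm l z)

section der

variable {O : Set (V n)} {z : VV n} {l φ : V n → ℝ} {μ μ₁ μ₂ : ℝ → ℝ} {K₂ : ℝ}

theorem sm_lm (hc : Convex ℝ O) (hl : ContDiffOn ℝ ∞ l O) : Sm (O ×ˢ O) (lm l) :=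
  hl.comp contDiff_mid.contDiffOn fun _ hz => mid_mem hc hz.1 hz.2

theorem gx_lm (hl : DifferentiableAt ℝ l (mid z)) : gx (lm l) z = (1 / 2 : ℝ) • gl l (mid z) := by
  funext k
  have h := (Hv.mid (Pi.single k 1, 0) z hl).e
  rw [mid_x, map_smul] at h
  exact h

theorem gy_lm (hl : DifferentiableAt ℝ l (mid z)) : gy (lm l) z = (1 / 2 : ℝ) • gl l (mid z) := by
  funext k
  have h := (Hv.mid (0, Pi.single k 1) z hl).e
  rw [mid_y, map_smul] at h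
  exact h

theorem gx_um (hO : IsOpen O) (hc : Convex ℝ O) (hx : z.1 ∈ O) (hy : z.2 ∈ O)
    (hl : ContDiffOn ℝ ∞ l O) (c : Cp (O ×ˢ O) (lm l) μ μ₁ μ₂) :
    gx (um l μ) z = gl l z.1 + μ₁ (lm l z) • gl l (mid z) := by
  have hU : IsOpen (O ×ˢ O) := hO.prod hO
  have hz : z ∈ O ×ˢ O := ⟨hx, hy⟩
  funext k
  have e0 : gx (um l μ) z k = (sx (1 : MF n)).D k (um l μ) z := (Dx1 k _ z).symm
  have e1 : (sx (1 : MF n)).D k (um l μ) z = (sx (1 : MF n)).D k (H464.Cu.uf l) z +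
      (sx (1 : MF n)).D k (fun z => 2 * μ (lm l z)) z :=
    D_add _ hU (sm_uf hl) (contDiffOn_const.mul c.s0) k hz
  have e2 : (sx (1 : MF n)).D k (H464.Cu.uf l) z = pd k l z.1 :=
    (Dx1 k _ z).trans (gx_uf hO hl hx hy k)
  have e3 : (sx (1 : MF n)).D k (lm l) z = ((1 / 2 : ℝ) • gl l (mid z)) k :=
    (Dx1 k _ z).trans (congrFun (gx_lm (df_of hO hl (mid_mem hc hx hy))) k)
  rw [e0, e1, e2, D_cmul _ hU 2 c.s0 k hz, D_comp hU c k hz, e3]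
  simp only [gl, Pi.add_apply, Pi.smul_apply, smul_eq_mul]
  ring

theorem gy_um (hO : IsOpen O) (hc : Convex ℝ O) (hx : z.1 ∈ O) (hy : z.2 ∈ O)
    (hl : ContDiffOn ℝ ∞ l O) (c : Cp (O ×ˢ O) (lm l) μ μ₁ μ₂) :
    gy (um l μ) z = gl l z.2 + μ₁ (lm l z) • gl l (mid z) := by
  have hU : IsOpen (O ×ˢ O) := hO.prod hO
  have hz : z ∈ O ×ˢ O := ⟨hx, hy⟩
  funext k
  have e0 : gy (um l μ) z k = (sy (1 : MF n)).D k (um l μ) z := (Dy1 k _ z).symm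
  have e1 : (sy (1 : MF n)).D k (um l μ) z = (sy (1 : MF n)).D k (H464.Cu.uf l) z +
      (sy (1 : MF n)).D k (fun z => 2 * μ (lm l z)) z :=
    D_add _ hU (sm_uf hl) (contDiffOn_const.mul c.s0) k hz
  have e2 : (sy (1 : MF n)).D k (H464.Cu.uf l) z = pd k l z.2 :=
    (Dy1 k _ z).trans (gy_uf hO hl hx hy k)
  have e3 : (sy (1 : MF n)).D k (lm l) z = ((1 / 2 : ℝ) • gl l (mid z)) k :=
    (Dy1 k _ z).trans (congrFun (gy_lm (df_of hO hl (mid_mem hc hx hy))) k)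
  rw [e0, e1, e2, D_cmul _ hU 2 c.s0 k hz, D_comp hU c k hz, e3]
  simp only [gl, Pi.add_apply, Pi.smul_apply, smul_eq_mul]
  ring

/-- The second derivative as a form. -/
theorem d2_le (hO : IsOpen O) (hl : ContDiffOn ℝ ∞ l O)
    (hK : ∀ x ∈ O, ∀ j k, |pd j (pd k l) x| ≤ K₂) {x : V n} (hx : x ∈ O) (w : V n) :
    |fderiv ℝ (fun y => fderiv ℝ l y w) x w| ≤ n ^ 2 * (‖w‖ * ‖w‖ * K₂) := by
  have e1 : fderiv ℝ (fun y => fderiv ℝ l y w) x w =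
      ∑ a, ∑ k, w a * (w k * pd a (pd k l) x) := by
    rw [fd_pd]
    refine Finset.sum_congr rfl fun a _ => ?_
    have e2 : (fun y => fderiv ℝ l y w) = fun y => ∑ k, w k * pd k l y :=
      funext fun y => fd_pd _ y w
    rw [e2, ← Finset.mul_sum]
    congr 1
    have d : ∀ k : Fin n, DifferentiableAt ℝ (pd k l) x := fun k =>
      df_of hO (sm_pd hO hl k) hx
    unfold pd at d ⊢
    rw [fderiv_fun_sum fun k _ => (d k).const_mul (w k)]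
    simp only [_root_.sum_apply]
    refine Finset.sum_congr rfl fun k _ => ?_
    rw [fderiv_const_mul (d k)]
    simp
  rw [e1]
  refine sum_le2 fun a k => ?_
  rw [abs_mul, abs_mul]
  have h1 := cmp_le w a
  have h2 := cmp_le w k
  have h3 := hK x hx a k
  have h4 : 0 ≤ K₂ := (abs_nonneg _).trans h3
  have h5 := norm_nonneg w
  calc |w a| * (|w k| * |pd a (pd k l) x|) ≤ ‖w‖ * (‖w‖ * K₂) := by gcongr
    _ = ‖w‖ * ‖w‖ * K₂ := by ring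

/-- The second derivative of `l(p)`. -/
theorem dd_lm (hO : IsOpen O) (hc : Convex ℝ O) (hl : ContDiffOn ℝ ∞ l O) (hx : z.1 ∈ O)
    (hy : z.2 ∈ O) (w : VV n) : fderiv ℝ (fun z' => fderiv ℝ (lm l) z' w) z w =
      fderiv ℝ (fun x => fderiv ℝ l x (mid w)) (mid z) (mid w) := by
  have ho : IsOpen (O ×ˢ O) := hO.prod hO
  have e1 : (fun z' => fderiv ℝ (lm l) z' w) =ᶠ[𝓝 z]
      fun z' : VV n => fderiv ℝ l (mid z') (mid w) := by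
    filter_upwards [ho.mem_nhds ⟨hx, hy⟩] with z' hz'
    exact (Hv.mid w z' (df_of hO hl (mid_mem hc hz'.1 hz'.2))).e
  have s1 : ContDiffOn ℝ ∞ (fun x => fderiv ℝ l x (mid w)) O := by
    have h : ContDiffOn ℝ ∞ (fderiv ℝ l) O := hl.fderiv_of_isOpen hO (by norm_num)
    exact h.clm_apply contDiffOn_const
  rw [e1.fderiv_eq]
  exact (Hv.mid w z (df_of hO s1 (mid_mem hc hx hy))).e

end der

section grad

variable {O : Set (V n)} {ε D K₂ : ℝ} {s₁ s₂ g : MF n} {z : VV n} {l : V n → ℝ}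
  {F F₁ F₂ Ψ : Matrix (Fin n) (Fin n) ℝ}

/-- One gradient of `u` in the frame. -/
theorem grad_aux (m1' : ∀ v : V n, ‖F *ᵥ (Ψ *ᵥ v) - v‖ ≤ 4 * n ^ 6 * D * ‖v‖)
    (b1 : ∀ i j, |F i j| ≤ 2) (yp : ∀ i j, Ψ i j = Ψ j i) (qp : Ψ * Ψ = g (mid z))
    (hg : g (mid z) * s₁ (mid z) = 1) (hl : 0 < lam s₁ l (mid z)) (D0 : 0 ≤ D) {v : V n}
    {t r : ℝ} (ht : |1 + t| ≤ 2) (hv : ‖v - gl l (mid z)‖ ≤ n * K₂ * r) :
    nn (F *ᵥ (v + t • gl l (mid z)) - (lam s₁ l (mid z) * (1 + t)) • ev Ψ s₁ l z) ≤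
      8 * n ^ 7 * D * lam s₁ l (mid z) + 2 * n ^ 3 * K₂ * r := by
  have h1 := m1' (ev Ψ s₁ l z)
  have h2 := psi_ev qp hg hl
  have h3 : gl l (mid z) = lam s₁ l (mid z) • (Ψ *ᵥ ev Ψ s₁ l z) := by
    rw [h2, smul_smul, mul_inv_cancel₀ hl.ne', one_smul]
  have h4 : ‖ev Ψ s₁ l z‖ ≤ 1 := (norm_le_nn _).trans (nn_one (ev_one yp qp hg hl)).le
  obtain ⟨L, hL⟩ : ∃ L, L = lam s₁ l (mid z) := ⟨_, rfl⟩
  obtain ⟨e, he⟩ : ∃ e, e = ev Ψ s₁ l z := ⟨_, rfl⟩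
  rw [← hL, ← he] at h3
  rw [← he] at h1 h4
  rw [← hL] at hl
  rw [← hL, ← he]
  have e1 : F *ᵥ (v + t • gl l (mid z)) - (L * (1 + t)) • e =
      (L * (1 + t)) • (F *ᵥ (Ψ *ᵥ e) - e) + F *ᵥ (v - gl l (mid z)) := by
    rw [Matrix.mulVec_add, Matrix.mulVec_smul, Matrix.mulVec_sub]
    rw [show F *ᵥ gl l (mid z) = L • (F *ᵥ (Ψ *ᵥ e)) by rw [h3, Matrix.mulVec_smul]]
    rw [smul_sub, smul_smul]
    module
  have h5 := mv_le' b1 (v - gl l (mid z))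
  have n1 : ‖(L * (1 + t)) • (F *ᵥ (Ψ *ᵥ e) - e)‖ ≤ 8 * n ^ 6 * D * L := by
    rw [norm_smul, Real.norm_eq_abs, abs_mul, abs_of_pos hl]
    have c0 : (0 : ℝ) ≤ 4 * n ^ 6 * D := by positivity
    calc L * |1 + t| * ‖F *ᵥ (Ψ *ᵥ e) - e‖ ≤ L * 2 * (4 * n ^ 6 * D * 1) := by
          refine mul_le_mul (mul_le_mul_of_nonneg_left ht hl.le)
            (h1.trans (mul_le_mul_of_nonneg_left h4 c0)) (norm_nonneg _) (by positivity)
      _ = _ := by ring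
  have n2 : ‖F *ᵥ (v - gl l (mid z))‖ ≤ 2 * n ^ 2 * K₂ * r := by
    refine h5.trans ?_
    calc (n : ℝ) * (2 * ‖v - gl l (mid z)‖) ≤ n * (2 * (n * K₂ * r)) := by gcongr
      _ = _ := by ring
  rw [e1]
  refine (nn_le_norm _).trans ?_
  have n3 := norm_add_le ((L * (1 + t)) • (F *ᵥ (Ψ *ᵥ e) - e)) (F *ᵥ (v - gl l (mid z)))
  calc (n : ℝ) * ‖(L * (1 + t)) • (F *ᵥ (Ψ *ᵥ e) - e) + F *ᵥ (v - gl l (mid z))‖ ≤
      n * (8 * n ^ 6 * D * L + 2 * n ^ 2 * K₂ * r) := by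
        refine mul_le_mul_of_nonneg_left (n3.trans (add_le_add n1 n2)) (Nat.cast_nonneg n)
    _ = _ := by ring

/-- The gradient of `l` moves slowly. -/
theorem gl_mv (hO : IsOpen O) (hc : Convex ℝ O) (hl : ContDiffOn ℝ ∞ l O)
    (hK : ∀ x ∈ O, ∀ j k, |pd j (pd k l) x| ≤ K₂) (hK0 : 0 ≤ K₂) {x y : V n} (hx : x ∈ O)
    (hy : y ∈ O) : ‖gl l x - gl l y‖ ≤ n * K₂ * ‖x - y‖ := by
  rw [pi_norm_le_iff_of_nonneg (by positivity)]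
  intro k
  exact mv_le hO hc (sm_pd hO hl k) hK0 (fun x hx j => hK x hx j k) hx hy

/-- Both gradients of `u`. -/
theorem grad_um {μ μ₁ μ₂ : ℝ → ℝ} (hO : IsOpen O) (hc : Convex ℝ O) (hx : z.1 ∈ O)
    (hy : z.2 ∈ O) (hl : ContDiffOn ℝ ∞ l O) (c : Cp (O ×ˢ O) (lm l) μ μ₁ μ₂)
    (hK : ∀ x ∈ O, ∀ j k, |pd j (pd k l) x| ≤ K₂) (hK0 : 0 ≤ K₂)
    (f : Fr2 s₁ s₂ g ε D z F₁ F₂ Ψ) (hg : g (mid z) * s₁ (mid z) = 1)
    (hl0 : 0 < lam s₁ l (mid z)) (D0 : 0 ≤ D) (ht : |1 + μ₁ (lm l z)| ≤ 2) :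
    nn (F₁ *ᵥ gx (um l μ) z - aa' s₁ l μ₁ z • ev Ψ s₁ l z) ≤
      8 * n ^ 7 * D * lam s₁ l (mid z) + 2 * n ^ 3 * K₂ * ‖dif z‖ ∧
    nn (F₂ *ᵥ gy (um l μ) z - aa' s₁ l μ₁ z • ev Ψ s₁ l z) ≤
      8 * n ^ 7 * D * lam s₁ l (mid z) + 2 * n ^ 3 * K₂ * ‖dif z‖ := by
  have hm := mid_mem hc hx hy
  constructor
  · rw [gx_um hO hc hx hy hl c]
    refine grad_aux f.m1' f.b1 f.yp f.qp hg hl0 D0 ht ?_
    refine (gl_mv hO hc hl hK hK0 hx hm).trans ?_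
    have := dist_mid1 z
    gcongr
  · rw [gy_um hO hc hx hy hl c]
    refine grad_aux f.m2' f.b2 f.yp f.qp hg hl0 D0 ht ?_
    refine (gl_mv hO hc hl hK hK0 hy hm).trans ?_
    have := dist_mid2 z
    gcongr

end grad

end Vale.Agent.P088.R2.H86.Z
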