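import Vale.Agent.P088.R2.H86.Z.PT3

/-!
# P088, stage 3, zone II: the Hessian forms in the frames
-/

open Set Filter
open scoped ContDiff Topology Matrix

noncomputable section

namespace Vale.Agent.P088.R2.H86.Z

open Vale.Agent.P088.LR Vale.Agent.P088.R2.H961.GW Vale.Agent.P088.R2.H644.Ch
open Vale.Agent.P088.HY hiding dd dd_comm
open Vale.Agent.P088.R2.H464.Cu hiding uf
open Vale.Agent.P088.R2.H230.W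
open Vale.Agent.P088.R2.H983.Fl (Wn fdc alS beS eu bb lam gl al_be aa')
open Vale.Agent.P088.R2.H942.Iso.Near (cn kf)

variable {n : ℕ}

section cong

variable {E ι κ : Type*} [NormedAddCommGroup E] [NormedSpace ℝ E] [Fintype ι] [Fintype κ]
  {σ : Sl E ι} {τ : Sl E κ} {U : Set E} {f h : E → ℝ} {z : E}

theorem TH_congr (hU : IsOpen U) (e : ∀ z ∈ U, f z = h z) (hz : z ∈ U) (A : ι → ℝ) (B : κ → ℝ) :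
    TH σ τ f z A B = TH σ τ h z A B := by
  have d1 : ∀ i, σ.D i f z = σ.D i h z := fun i => D_congr σ hU e i hz
  have d1' : ∀ i, τ.D i f z = τ.D i h z := fun i => D_congr τ hU e i hz
  have d2 : ∀ i j, σ.D i (σ.D j f) z = σ.D i (σ.D j h) z := fun i j =>
    D_congr σ hU (fun w hw => D_congr σ hU e j hw) i hz
  have d2' : ∀ i j, τ.D i (τ.D j f) z = τ.D i (τ.D j h) z := fun i j =>
    D_congr τ hU (fun w hw => D_congr τ hU e j hw) i hz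
  have d3 : ∀ i j, σ.D i (τ.D j f) z = σ.D i (τ.D j h) z := fun i j =>
    D_congr σ hU (fun w hw => D_congr τ hU e j hw) i hz
  unfold TH Sl.Hc Mc
  simp only [d1, d1', d2, d2', d3]

theorem tc_congr (hU : IsOpen U) (e : ∀ z ∈ U, f z = h z) (c : ι → E → ℝ) (hz : z ∈ U)
    (A : ι → ℝ) : H960.W.tc σ c f z A = H960.W.tc σ c h z A := by
  have d1 : ∀ i, σ.D i f z = σ.D i h z := fun i => D_congr σ hU e i hz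
  unfold H960.W.tc
  simp only [d1]

end cong

theorem ok_xy {O : Set (V n)} {ε δ₁ δ₂ : ℝ} {s₁ s₂ : MF n} (hO : IsOpen O)
    (n₁ : Nr O ε δ₁ δ₂ s₁) (n₂ : Nr O ε δ₁ δ₂ s₂) {U : Set (VV n)} (ho : IsOpen U)
    (hU : U ⊆ O ×ˢ O) :
    (sx s₁).Ok U (tht (fun _ => 1) fun _ => 1) ∧ (sy s₂).Ok U (tht (fun _ => 1) fun _ => 1) :=
  have f₁ : Fr0 (fun _ => 1) s₁ O := ⟨hO, fun _ _ => one_pos, contDiffOn_const, n₁.sm, n₁.sy⟩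
  have f₂ : Fr0 (fun _ => 1) s₂ O := ⟨hO, fun _ _ => one_pos, contDiffOn_const, n₂.sm, n₂.sy⟩
  ⟨okx f₁ f₂ ho hU, oky f₁ f₂ ho hU⟩

section TH

variable {O : Set (V n)} {ε δ₁ δ₂ h₀ h₁ D G K₂ : ℝ} {s₁ s₂ g : MF n} {z : VV n} {l : V n → ℝ}
  {F₁ F₂ Ψ : Matrix (Fin n) (Fin n) ℝ}

/-- The Hessian form of `l(p)`. -/
theorem TH_lm (hO : IsOpen O) (hc : Convex ℝ O) (n₁ : Nr O ε δ₁ δ₂ s₁) (n₂ : Nr O ε δ₁ δ₂ s₂)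
    (hε1 : ε ≤ 1) (hx : z.1 ∈ O) (hy : z.2 ∈ O) (hl : ContDiffOn ℝ ∞ l O)
    (hG : ∀ x ∈ O, ∀ k, |pd k l x| ≤ G) (hK : ∀ x ∈ O, ∀ j k, |pd j (pd k l) x| ≤ K₂)
    (hK0 : 0 ≤ K₂) (hG0 : 0 ≤ G) (hδ : 0 ≤ δ₁) (A B : V n) :
    |TH (sx s₁) (sy s₂) (lm l) z A B| ≤ 2 * n ^ 4 * (K₂ + δ₁ * G) * (‖A‖ ^ 2 + ‖B‖ ^ 2) := by
  have hU : IsOpen (O ×ˢ O) := hO.prod hO
  have hm := mid_mem hc hx hy
  have d1 : ∀ i j, DifferentiableAt ℝ (fun x => s₁ x i j) z.1 := fun i j =>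
    df_of hO (n₁.sm i j) hx
  have d2 : ∀ i j, DifferentiableAt ℝ (fun x => s₂ x i j) z.2 := fun i j =>
    df_of hO (n₂.sm i j) hy
  rw [TH_eq hU (sm_lm hc hl) ⟨hx, hy⟩ n₁.sy n₂.sy d1 d2, dd_lm hO hc hl hx hy]
  have e1 : ∀ k, dx k (lm l) z = 1 / 2 * pd k l (mid z) := fun k =>
    congrFun (gx_lm (df_of hO hl hm)) k
  have e2 : ∀ k, dy k (lm l) z = 1 / 2 * pd k l (mid z) := fun k =>
    congrFun (gy_lm (df_of hO hl hm)) k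
  simp only [e1, e2]
  have hg2 : ∀ k, |1 / 2 * pd k l (mid z)| ≤ 1 / 2 * G := by
    intro k
    rw [abs_mul, abs_of_pos (by norm_num : (0 : ℝ) < 1 / 2)]
    exact mul_le_mul_of_nonneg_left (hG _ hm k) (by norm_num)
  have t1 : |∑ k, 1 / 2 * pd k l (mid z) * nv s₁ z.1 A k| ≤
      n * (1 / 2 * G * (n ^ 3 * (3 * δ₁ * ‖A‖ ^ 2))) := by
    refine sum_le1 fun k => ?_
    rw [abs_mul]
    exact mul_le_mul (hg2 k) (nv_le n₁ hε1 hx A k) (abs_nonneg _) (by positivity)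
  have t2 : |∑ k, 1 / 2 * pd k l (mid z) * nv s₂ z.2 B k| ≤
      n * (1 / 2 * G * (n ^ 3 * (3 * δ₁ * ‖B‖ ^ 2))) := by
    refine sum_le1 fun k => ?_
    rw [abs_mul]
    exact mul_le_mul (hg2 k) (nv_le n₂ hε1 hy B k) (abs_nonneg _) (by positivity)
  obtain ⟨M, hM⟩ : ∃ M, M = mid ((up (s₁ z.1) A, up (s₂ z.2) B) : VV n) := ⟨_, rfl⟩
  rw [← hM]
  have nA : ‖up (s₁ z.1) A‖ ≤ n * (2 * ‖A‖) := up_le (fun i j => n₁.le2 hε1 hx i j) A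
  have nB : ‖up (s₂ z.2) B‖ ≤ n * (2 * ‖B‖) := up_le (fun i j => n₂.le2 hε1 hy i j) B
  have nM : ‖M‖ ≤ n * (‖A‖ + ‖B‖) := by
    have : M = (1 / 2 : ℝ) • (up (s₁ z.1) A + up (s₂ z.2) B) := by rw [hM]; rfl
    rw [this, norm_smul, Real.norm_eq_abs, abs_of_pos (by norm_num : (0 : ℝ) < 1 / 2)]
    have := norm_add_le (up (s₁ z.1) A) (up (s₂ z.2) B)
    linarith
  have t3 := d2_le hO hl hK hm M
  have A0 := norm_nonneg A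
  have B0 := norm_nonneg B
  have M0 := norm_nonneg M
  have t4 : (n : ℝ) ^ 2 * (‖M‖ * ‖M‖ * K₂) ≤ 2 * n ^ 4 * K₂ * (‖A‖ ^ 2 + ‖B‖ ^ 2) := by
    calc (n : ℝ) ^ 2 * (‖M‖ * ‖M‖ * K₂) ≤
        n ^ 2 * ((n * (‖A‖ + ‖B‖)) * (n * (‖A‖ + ‖B‖)) * K₂) := by gcongr
      _ = n ^ 4 * K₂ * (‖A‖ + ‖B‖) ^ 2 := by ring
      _ ≤ n ^ 4 * K₂ * (2 * (‖A‖ ^ 2 + ‖B‖ ^ 2)) := by
        refine mul_le_mul_of_nonneg_left ?_ (by positivity)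
        nlinarith [sq_nonneg (‖A‖ - ‖B‖)]
      _ = _ := by ring
  have t5 : (n : ℝ) * (1 / 2 * G * (n ^ 3 * (3 * δ₁ * ‖A‖ ^ 2))) +
      n * (1 / 2 * G * (n ^ 3 * (3 * δ₁ * ‖B‖ ^ 2))) ≤
      2 * n ^ 4 * (δ₁ * G) * (‖A‖ ^ 2 + ‖B‖ ^ 2) := by
    have : 0 ≤ (n : ℝ) ^ 4 * (δ₁ * G) * (‖A‖ ^ 2 + ‖B‖ ^ 2) := by positivity
    calc (n : ℝ) * (1 / 2 * G * (n ^ 3 * (3 * δ₁ * ‖A‖ ^ 2))) +
        n * (1 / 2 * G * (n ^ 3 * (3 * δ₁ * ‖B‖ ^ 2))) =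
        3 / 2 * (n ^ 4 * (δ₁ * G) * (‖A‖ ^ 2 + ‖B‖ ^ 2)) := by ring
      _ ≤ 2 * (n ^ 4 * (δ₁ * G) * (‖A‖ ^ 2 + ‖B‖ ^ 2)) := by linarith
      _ = _ := by ring
  have e : 2 * (n : ℝ) ^ 4 * (K₂ + δ₁ * G) * (‖A‖ ^ 2 + ‖B‖ ^ 2) =
      2 * n ^ 4 * K₂ * (‖A‖ ^ 2 + ‖B‖ ^ 2) + 2 * n ^ 4 * (δ₁ * G) * (‖A‖ ^ 2 + ‖B‖ ^ 2) := by ring
  rw [e]
  refine (abs_add_le _ _).trans ?_
  have := abs_add_le (fderiv ℝ (fun x => fderiv ℝ l x M) (mid z) M)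
    (∑ k, 1 / 2 * pd k l (mid z) * nv s₁ z.1 A k)
  linarith

/-- The pairing with the gradient of `l(p)`. -/
theorem GA_lm (hO : IsOpen O) (hc : Convex ℝ O) (hx : z.1 ∈ O) (hy : z.2 ∈ O)
    (hl : ContDiffOn ℝ ∞ l O) (f : Fr2 s₁ s₂ g ε D z F₁ F₂ Ψ)
    (hg : g (mid z) * s₁ (mid z) = 1) (hl0 : 0 < lam s₁ l (mid z)) (D0 : 0 ≤ D) (A B : V n) :
    |GA (sx s₁) (sy s₂) (lm l) z A B - lam s₁ l (mid z) / 2 *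
      (dd (ev Ψ s₁ l z) (F₁ *ᵥ A) + dd (ev Ψ s₁ l z) (F₂ *ᵥ B))| ≤
      2 * n ^ 7 * D * lam s₁ l (mid z) * (nn (F₁ *ᵥ A) + nn (F₂ *ᵥ B)) := by
  have hm := mid_mem hc hx hy
  have hd := df_of hO hl hm
  have h2 := psi_ev f.qp hg hl0
  have h3 : gl l (mid z) = lam s₁ l (mid z) • (Ψ *ᵥ ev Ψ s₁ l z) := by
    rw [h2, smul_smul, mul_inv_cancel₀ hl0.ne', one_smul]
  have h4 : ‖ev Ψ s₁ l z‖ ≤ 1 := (norm_le_nn _).trans (nn_one (ev_one f.yp f.qp hg hl0)).le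
  rw [GA_fr f, gx_lm hd, gy_lm hd, ← dd_dt, ← dd_dt]
  obtain ⟨L, hL⟩ : ∃ L, L = lam s₁ l (mid z) := ⟨_, rfl⟩
  obtain ⟨e, he⟩ : ∃ e, e = ev Ψ s₁ l z := ⟨_, rfl⟩
  rw [← hL, ← he] at h3
  rw [← he] at h4
  rw [← hL] at hl0
  rw [← hL, ← he, h3]
  have c0 : (0 : ℝ) ≤ 4 * n ^ 6 * D := by positivity
  have key : ∀ (F : Matrix (Fin n) (Fin n) ℝ), (∀ v : V n, ‖F *ᵥ (Ψ *ᵥ v) - v‖ ≤
      4 * n ^ 6 * D * ‖v‖) → ∀ U : V n,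
      |dd (F *ᵥ ((1 / 2 : ℝ) • L • (Ψ *ᵥ e))) U - L / 2 * dd e U| ≤ 2 * n ^ 7 * D * L * nn U := by
    intro F hF U
    have e1 : dd (F *ᵥ ((1 / 2 : ℝ) • L • (Ψ *ᵥ e))) U - L / 2 * dd e U =
        L / 2 * dd (F *ᵥ (Ψ *ᵥ e) - e) U := by
      rw [Matrix.mulVec_smul, Matrix.mulVec_smul, dd_smul_left, dd_smul_left, dd_sub_left]; ring
    have h5 : nn (F *ᵥ (Ψ *ᵥ e) - e) ≤ 4 * n ^ 7 * D := by
      refine (nn_le_norm _).trans ?_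
      calc (n : ℝ) * ‖F *ᵥ (Ψ *ᵥ e) - e‖ ≤ n * (4 * n ^ 6 * D * 1) := by
            refine mul_le_mul_of_nonneg_left ((hF e).trans ?_) (Nat.cast_nonneg n)
            exact mul_le_mul_of_nonneg_left h4 c0
        _ = _ := by ring
    rw [e1, abs_mul, abs_of_pos (by positivity : 0 < L / 2)]
    calc L / 2 * |dd (F *ᵥ (Ψ *ᵥ e) - e) U| ≤ L / 2 * (nn (F *ᵥ (Ψ *ᵥ e) - e) * nn U) :=
          mul_le_mul_of_nonneg_left (dd_le_nn _ _) (by positivity)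
      _ ≤ L / 2 * (4 * n ^ 7 * D * nn U) := by
          refine mul_le_mul_of_nonneg_left ?_ (by positivity)
          exact mul_le_mul_of_nonneg_right h5 (nn_nonneg U)
      _ = _ := by ring
  have k1 := key F₁ f.m1' (F₁ *ᵥ A)
  have k2 := key F₂ f.m2' (F₂ *ᵥ B)
  have e3 : dd (F₁ *ᵥ ((1 / 2 : ℝ) • L • (Ψ *ᵥ e))) (F₁ *ᵥ A) +
      dd (F₂ *ᵥ ((1 / 2 : ℝ) • L • (Ψ *ᵥ e))) (F₂ *ᵥ B) -
      L / 2 * (dd e (F₁ *ᵥ A) + dd e (F₂ *ᵥ B)) =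
      (dd (F₁ *ᵥ ((1 / 2 : ℝ) • L • (Ψ *ᵥ e))) (F₁ *ᵥ A) - L / 2 * dd e (F₁ *ᵥ A)) +
      (dd (F₂ *ᵥ ((1 / 2 : ℝ) • L • (Ψ *ᵥ e))) (F₂ *ᵥ B) - L / 2 * dd e (F₂ *ᵥ B)) := by ring
  rw [e3]
  refine (abs_add_le _ _).trans ?_
  rw [mul_add]
  exact add_le_add k1 k2

/-- The scalar part of the correction. -/
lemma mu_sc {m Ga L X η ϖ : ℝ} (h : |Ga - L / 2 * X| ≤ η) (h1 : ϖ ≤ m * L ^ 2 / 4)
    (h2 : ϖ ≤ m * L ^ 2) : ϖ * X ^ 2 - 4 * |m| * η ^ 2 ≤ 2 * (m * Ga ^ 2) := by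
  obtain ⟨t, ht⟩ : ∃ t, t = Ga - L / 2 * X := ⟨_, rfl⟩
  rw [← ht] at h
  have e : Ga = L / 2 * X + t := by rw [ht]; ring
  have t2 : t ^ 2 ≤ η ^ 2 := by
    rw [← sq_abs t]; exact pow_le_pow_left₀ (abs_nonneg _) h 2
  rcases le_total 0 m with hm | hm
  · rw [abs_of_nonneg hm]
    have g1 : (L / 2 * X) ^ 2 / 2 - t ^ 2 ≤ Ga ^ 2 := by
      rw [e]; nlinarith [sq_nonneg (L / 2 * X + 2 * t)]
    have g2 := mul_le_mul_of_nonneg_left g1 hm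
    have g3 := mul_le_mul_of_nonneg_left t2 hm
    have g4 := mul_le_mul_of_nonneg_right h1 (sq_nonneg X)
    have g5 := mul_nonneg hm (sq_nonneg η)
    nlinarith
  · rw [abs_of_nonpos hm]
    have g1 : Ga ^ 2 ≤ 2 * (L / 2 * X) ^ 2 + 2 * t ^ 2 := by
      rw [e]; nlinarith [sq_nonneg (L / 2 * X - t)]
    have g2 := mul_le_mul_of_nonpos_left g1 hm
    have g3 := mul_le_mul_of_nonpos_left t2 hm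
    have g4 := mul_le_mul_of_nonneg_right h2 (sq_nonneg X)
    nlinarith

/-- The arithmetic of `TH_um`. -/
lemma um_sc {γ γ₀ p4 q dG K m1 u w hA T Tf TL R X₂ d1 d2 xU xW e14 : ℝ} (p0 : 0 ≤ p4)
    (hdG : 0 ≤ dG) (hK : 0 ≤ K) (hγ0 : 0 ≤ γ₀) (u0 : 0 ≤ u) (w0 : 0 ≤ w)
    (i1 : T = Tf + 2 * (m1 * TL + R)) (i2 : -(3 * p4 * (dG * hA)) ≤ Tf - (d1 + d2))
    (i3 : |TL| ≤ 2 * p4 * (K + dG) * hA) (i4 : X₂ - q ≤ 2 * R) (i5 : γ₀ * xU ≤ d1)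
    (i6 : γ₀ * xW ≤ d2) (i7 : 1 / 4 * u ≤ xU) (i8 : 1 / 4 * w ≤ xW) (i9 : hA ≤ 4 * (u + w))
    (hμ : |m1| ≤ 1) (iq : q ≤ e14 * (u + w))
    (hγ : γ ≤ γ₀ / 4 - 28 * p4 * dG - 16 * p4 * (|m1| * K) - e14) :
    γ * (u + w) + X₂ ≤ T := by
  have S0 : 0 ≤ u + w := add_nonneg u0 w0
  have d1' := mul_le_mul_of_nonneg_left i7 hγ0
  have d2' := mul_le_mul_of_nonneg_left i8 hγ0
  have a3 : 3 * p4 * (dG * hA) ≤ 12 * (p4 * dG * (u + w)) := by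
    have := mul_le_mul_of_nonneg_left i9 (by positivity : 0 ≤ 3 * p4 * dG)
    linarith only [this]
  have a4 : -(16 * (p4 * (|m1| * K) * (u + w)) + 16 * (p4 * dG * (u + w))) ≤ 2 * (m1 * TL) := by
    have b1 : |m1 * TL| ≤ |m1| * (2 * p4 * (K + dG) * (4 * (u + w))) := by
      rw [abs_mul]
      refine mul_le_mul_of_nonneg_left (i3.trans ?_) (abs_nonneg _)
      exact mul_le_mul_of_nonneg_left i9 (by positivity)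
    have b2 := (abs_le.1 b1).1
    have b3 : |m1| * (8 * (p4 * dG * (u + w))) ≤ 1 * (8 * (p4 * dG * (u + w))) :=
      mul_le_mul_of_nonneg_right hμ (by positivity)
    linarith only [b2, b3]
  have a6 := mul_le_mul_of_nonneg_right hγ S0
  linarith only [i1, i2, i4, i5, i6, d1', d2', a3, a4, a6, iq]

/-- **The Hessian form of `u` in the frames.** -/
theorem TH_um {μ μ₁ μ₂ : ℝ → ℝ} {γ₀ γ ϖ : ℝ} (hO : IsOpen O) (hc : Convex ℝ O)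
    (n₁ : Nr O ε δ₁ δ₂ s₁) (n₂ : Nr O ε δ₁ δ₂ s₂)
    (hε1 : ε ≤ 1) (hx : z.1 ∈ O) (hy : z.2 ∈ O) (hl : ContDiffOn ℝ ∞ l O)
    (c : Cp (O ×ˢ O) (lm l) μ μ₁ μ₂)
    (hG : ∀ x ∈ O, ∀ k, |pd k l x| ≤ G) (hK : ∀ x ∈ O, ∀ j k, |pd j (pd k l) x| ≤ K₂)
    (hK0 : 0 ≤ K₂) (hG0 : 0 ≤ G) (hδ : 0 ≤ δ₁) (f : Fr2 s₁ s₂ g ε D z F₁ F₂ Ψ)
    (hg : g (mid z) * s₁ (mid z) = 1) (hl0 : 0 < lam s₁ l (mid z)) (D0 : 0 ≤ D)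
    (hγ0 : 0 ≤ γ₀)
    (cv1 : ∀ v : V n, γ₀ * dt v v ≤ fderiv ℝ (fun x => fderiv ℝ l x v) z.1 v)
    (cv2 : ∀ v : V n, γ₀ * dt v v ≤ fderiv ℝ (fun x => fderiv ℝ l x v) z.2 v)
    (hμ : |μ₁ (lm l z)| ≤ 1)
    (ϖ1 : ϖ ≤ μ₂ (lm l z) * lam s₁ l (mid z) ^ 2 / 4)
    (ϖ2 : ϖ ≤ μ₂ (lm l z) * lam s₁ l (mid z) ^ 2)
    (hγ : γ ≤ γ₀ / 4 - 28 * n ^ 4 * (δ₁ * G) - 16 * n ^ 4 * (|μ₁ (lm l z)| * K₂) -
      32 * n ^ 14 * (|μ₂ (lm l z)| * (D * lam s₁ l (mid z)) ^ 2)) (A B : V n) :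
    γ * (dd (F₁ *ᵥ A) (F₁ *ᵥ A) + dd (F₂ *ᵥ B) (F₂ *ᵥ B)) +
      ϖ * (dd (ev Ψ s₁ l z) (F₁ *ᵥ A) + dd (ev Ψ s₁ l z) (F₂ *ᵥ B)) ^ 2 ≤
      TH (sx s₁) (sy s₂) (um l μ) z A B := by
  have hU : IsOpen (O ×ˢ O) := hO.prod hO
  have hz : z ∈ O ×ˢ O := ⟨hx, hy⟩
  obtain ⟨ok, ot⟩ := ok_xy hO n₁ n₂ hU subset_rfl
  have e0 : TH (sx s₁) (sy s₂) (um l μ) z A B = TH (sx s₁) (sy s₂) (H464.Cu.uf l) z A B +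
      2 * (μ₁ (lm l z) * TH (sx s₁) (sy s₂) (lm l) z A B +
        μ₂ (lm l z) * GA (sx s₁) (sy s₂) (lm l) z A B ^ 2) := by
    have h1 : TH (sx s₁) (sy s₂) (um l μ) z A B = TH (sx s₁) (sy s₂) (H464.Cu.uf l) z A B +
        TH (sx s₁) (sy s₂) (fun z => 2 * μ (lm l z)) z A B :=
      TH_add ok ot (sm_uf hl) (contDiffOn_const.mul c.s0) hz A B
    rw [h1, TH_cmul ok ot 2 c.s0 hz A B, TH_comp ok ot c hz A B]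
  have h1 := (abs_le.1 (TH_uf hO n₁ n₂ hε1 hx hy hl hG A B)).1
  have h2 := TH_lm hO hc n₁ n₂ hε1 hx hy hl hG hK hK0 hG0 hδ A B
  have h3 := GA_lm hO hc hx hy hl f hg hl0 D0 A B
  have h4 := mu_sc h3 ϖ1 ϖ2
  have eX : up (s₁ z.1) A = F₁ *ᵥ (F₁ *ᵥ A) := by
    rw [up_eq (n₁.sy z.1), ← f.q1, ← Matrix.mulVec_mulVec]
  have eY : up (s₂ z.2) B = F₂ *ᵥ (F₂ *ᵥ B) := by
    rw [up_eq (n₂.sy z.2), ← f.q2, ← Matrix.mulVec_mulVec]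
  have c1 := cv1 (up (s₁ z.1) A)
  have c2 := cv2 (up (s₂ z.2) B)
  rw [← dd_dt, eX] at c1
  rw [← dd_dt, eY] at c2
  rw [eX, eY] at h1
  have nA := (norm_le_nn A).trans (coer f.p1 A)
  have nB := (norm_le_nn B).trans (coer f.p2 B)
  have nX := coer f.p1 (F₁ *ᵥ A)
  have nY := coer f.p2 (F₂ *ᵥ B)
  have hA2 : ‖A‖ ^ 2 + ‖B‖ ^ 2 ≤ 4 * (dd (F₁ *ᵥ A) (F₁ *ᵥ A) + dd (F₂ *ᵥ B) (F₂ *ᵥ B)) := by
    have a1 := pow_le_pow_left₀ (norm_nonneg A) nA 2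
    have a2 := pow_le_pow_left₀ (norm_nonneg B) nB 2
    rw [mul_pow, nn_sq] at a1 a2
    linarith only [a1, a2]
  have hX2 : 1 / 4 * dd (F₁ *ᵥ A) (F₁ *ᵥ A) ≤ dd (F₁ *ᵥ (F₁ *ᵥ A)) (F₁ *ᵥ (F₁ *ᵥ A)) := by
    have a1 := pow_le_pow_left₀ (nn_nonneg _) nX 2
    rw [mul_pow, nn_sq, nn_sq] at a1
    linarith only [a1]
  have hY2 : 1 / 4 * dd (F₂ *ᵥ B) (F₂ *ᵥ B) ≤ dd (F₂ *ᵥ (F₂ *ᵥ B)) (F₂ *ᵥ (F₂ *ᵥ B)) := by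
    have a1 := pow_le_pow_left₀ (nn_nonneg _) nY 2
    rw [mul_pow, nn_sq, nn_sq] at a1
    linarith only [a1]
  refine um_sc (γ₀ := γ₀) (p4 := (n : ℝ) ^ 4) (dG := δ₁ * G) (K := K₂) (m1 := μ₁ (lm l z))
    (hA := ‖A‖ ^ 2 + ‖B‖ ^ 2) (e14 := 32 * n ^ 14 * (|μ₂ (lm l z)| * (D * lam s₁ l (mid z)) ^ 2))
    (q := 4 * |μ₂ (lm l z)| * (2 * n ^ 7 * D * lam s₁ l (mid z) *
      (nn (F₁ *ᵥ A) + nn (F₂ *ᵥ B))) ^ 2)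
    (by positivity) (by positivity) hK0 hγ0 (dd_self_nonneg _) (dd_self_nonneg _)
    e0 (le_trans (le_of_eq (by ring)) h1) h2 h4 c1 c2 hX2 hY2 hA2 hμ ?_ hγ
  have b1 : (nn (F₁ *ᵥ A) + nn (F₂ *ᵥ B)) ^ 2 ≤
      2 * (dd (F₁ *ᵥ A) (F₁ *ᵥ A) + dd (F₂ *ᵥ B) (F₂ *ᵥ B)) := by
    rw [← nn_sq, ← nn_sq]; nlinarith only [sq_nonneg (nn (F₁ *ᵥ A) - nn (F₂ *ᵥ B))]
  have b2 := mul_le_mul_of_nonneg_left b1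
    (by positivity : 0 ≤ 16 * (n : ℝ) ^ 14 * (|μ₂ (lm l z)| * (D * lam s₁ l (mid z)) ^ 2))
  refine le_trans (le_of_eq (by ring)) (b2.trans (le_of_eq (by ring)))

/-- The arithmetic of `hr_fr`. -/
lemma hr_sc {c D P Q Q' a b A B T : ℝ} (c0 : 0 ≤ c) (D0 : 0 ≤ D) (P0 : 0 ≤ P) (Q0 : 0 ≤ Q')
    (A0 : 0 ≤ A) (B0 : 0 ≤ B) (a0 : 0 ≤ a) (b0 : 0 ≤ b) (hQ : Q' ≤ Q) (hA : A ≤ 2 * a)
    (hB : B ≤ 2 * b) (h : T ≤ 424 * c * (D * Q' * (A + B) + P * (A + B) ^ 2)) :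
    T ≤ 848 * c * D * (Q * (a + b)) + 3392 * c * P * (a ^ 2 + b ^ 2) := by
  have c1 : D * Q' * (A + B) ≤ 2 * (D * (Q * (a + b))) := by
    have hDQ : 0 ≤ D * Q := mul_nonneg D0 (Q0.trans hQ)
    calc D * Q' * (A + B) ≤ D * Q * (2 * a + 2 * b) := by gcongr
      _ = _ := by ring
  have c2 : P * (A + B) ^ 2 ≤ 8 * (P * (a ^ 2 + b ^ 2)) := by
    calc P * (A + B) ^ 2 ≤ P * (2 * a + 2 * b) ^ 2 := by gcongr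
      _ ≤ P * (8 * (a ^ 2 + b ^ 2)) := by
        refine mul_le_mul_of_nonneg_left ?_ P0
        nlinarith only [sq_nonneg (a - b)]
      _ = _ := by ring
  have c0' : 0 ≤ 424 * c := by positivity
  refine h.trans ?_
  calc 424 * c * (D * Q' * (A + B) + P * (A + B) ^ 2) ≤
      424 * c * (2 * (D * (Q * (a + b))) + 8 * (P * (a ^ 2 + b ^ 2))) :=
        mul_le_mul_of_nonneg_left (add_le_add c1 c2) c0'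
    _ = _ := by ring

/-- The Hessian form of `ρ` in the frames, in Euclidean norms. -/
theorem hr_fr (hO : IsOpen O) (hc : Convex ℝ O) (n₁ : Nr O ε δ₁ δ₂ s₁) (n₂ : Nr O ε δ₁ δ₂ s₂)
    (ng : Nr O ε δ₁ δ₂ g) (hh : Dst O h₀ h₁ s₁ s₂) (hδ : 0 ≤ δ₁) (hδ' : 0 ≤ δ₂) (hh0 : 0 ≤ h₀)
    (hh1 : 0 ≤ h₁) (hε1 : ε ≤ 1) (hε : n * ε ≤ 1 / 2) (hx : z.1 ∈ O) (hy : z.2 ∈ O)
    (hD : D = δ₁ * ‖dif z‖ + h₀) (f : Fr2 s₁ s₂ g ε D z F₁ F₂ Ψ) (A B : V n) :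
    |TH (sx s₁) (sy s₂) (rq g) z A B - dd (F₁ *ᵥ A - F₂ *ᵥ B) (F₁ *ᵥ A - F₂ *ᵥ B)| ≤
      848 * (n + 1) ^ 16 * D * (nn (F₁ *ᵥ A - F₂ *ᵥ B) * (nn (F₁ *ᵥ A) + nn (F₂ *ᵥ B))) +
        3392 * (n + 1) ^ 16 * (δ₂ * ‖dif z‖ ^ 2 + D ^ 2 + h₁ * ‖dif z‖) *
          (dd (F₁ *ᵥ A) (F₁ *ᵥ A) + dd (F₂ *ᵥ B) (F₂ *ᵥ B)) := by
  have h := TH_fr hO hc n₁ n₂ ng hh hδ hδ' hh0 hh1 hε1 hε hx hy hD f A B
  have D0 : 0 ≤ D := by rw [hD]; positivity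
  have r0 := norm_nonneg (dif z)
  rw [← nn_sq (F₁ *ᵥ A), ← nn_sq (F₂ *ᵥ B)]
  exact hr_sc (by positivity) D0 (by positivity) (norm_nonneg _) (norm_nonneg A) (norm_nonneg B)
    (nn_nonneg _) (nn_nonneg _) (norm_le_nn _) ((norm_le_nn A).trans (coer f.p1 A))
    ((norm_le_nn B).trans (coer f.p2 B)) h

end TH

end Vale.Agent.P088.R2.H86.Z
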