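import Vale.Agent.P088.R2.H86.Z.PT4

/-!
# P088, stage 3, zone II: the certificate for the actual weight

`W = Φ(u) + e^u S(r²)`, `u = l(x) + l(y) + 2 μ(l(p))`, in two curved slots, with the fields of
`H983.Fl.Zi`; only hypotheses on numbers are left.
-/

open Set Filter
open scoped ContDiff Topology Matrix

noncomputable section

namespace Vale.Agent.P088.R2.H86.Z

open Vale.Agent.P088.LR Vale.Agent.P088.R2.H961.GW Vale.Agent.P088.R2.H644.Ch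
open Vale.Agent.P088.HY hiding dd dd_comm
open Vale.Agent.P088.R2.H464.Cu hiding uf
open Vale.Agent.P088.R2.H230.W
open Vale.Agent.P088.R2.H983.Fl (Wn fdc alS beS eu bb lam gl al_be aa')
open Vale.Agent.P088.R2.H942.Iso.Near (cn kf Small dd_neg_right dd_neg_neg)

variable {n : ℕ}

/-- The geometric data at a pair of points. -/
structure Gd (O : Set (V n)) (ε δ₁ δ₂ h₀ h₁ G K₂ γ₀ : ℝ) (w : Wn n) (s₂ : MF n) (z : VV n) :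
    Prop where
  hO : IsOpen O
  hc : Convex ℝ O
  n₁ : Nr O ε δ₁ δ₂ w.s
  n₂ : Nr O ε δ₁ δ₂ s₂
  ng : Nr O ε δ₁ δ₂ w.g
  hh : Dst O h₀ h₁ w.s s₂
  hδ : 0 ≤ δ₁
  hδ' : 0 ≤ δ₂
  hh0 : 0 ≤ h₀
  hh1 : 0 ≤ h₁
  hε1 : ε ≤ 1
  hε : n * ε ≤ 1 / 2
  hx : z.1 ∈ O
  hy : z.2 ∈ O
  hg : w.g (mid z) * w.s (mid z) = 1
  hl : ContDiffOn ℝ ∞ w.l O
  hG0 : 0 ≤ G
  hG : ∀ x ∈ O, ∀ k, |pd k w.l x| ≤ G
  hK0 : 0 ≤ K₂
  hK : ∀ x ∈ O, ∀ j k, |pd j (pd k w.l) x| ≤ K₂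
  hγ0 : 0 ≤ γ₀
  cv1 : ∀ v : V n, γ₀ * dt v v ≤ fderiv ℝ (fun x => fderiv ℝ w.l x v) z.1 v
  cv2 : ∀ v : V n, γ₀ * dt v v ≤ fderiv ℝ (fun x => fderiv ℝ w.l x v) z.2 v
  hl0 : 0 < lam w.s w.l (mid z)

variable {O : Set (V n)} {ε δ₁ δ₂ h₀ h₁ D G K₂ γ₀ : ℝ} {w : Wn n} {s₂ : MF n} {z : VV n}
  {F₁ F₂ Ψ : Matrix (Fin n) (Fin n) ℝ}

/-- The structure of the weight near the point. -/
structure Wl (O : Set (V n)) (w : Wn n) (Φ μ : ℝ → ℝ) (W : VV n → ℝ) (z : VV n)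
    (U : Set (VV n)) : Prop where
  ho : IsOpen U
  hU : U ⊆ O ×ˢ O
  hz : z ∈ U
  cμ : Cp (O ×ˢ O) (lm w.l) μ w.μ₁ w.μ₂
  hu : ∀ z ∈ U, w.u z = um w.l μ z
  cΦ : Cp U w.u Φ w.Φ₁ w.Φ₂
  cS : Cp U w.r2 w.S w.S₁ w.S₂
  hW : ∀ z ∈ U, W z = Φ (w.u z) + Real.exp (w.u z) * w.S (w.r2 z)

variable {Φ μ : ℝ → ℝ} {W : VV n → ℝ} {U : Set (VV n)}

theorem sm_rq (hO : IsOpen O) (hc : Convex ℝ O) {g : MF n} (ng : Nr O ε δ₁ δ₂ g) :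
    Sm (O ×ˢ O) (rq g) := by
  unfold rq bf
  refine contDiffOn_const.mul ?_
  refine ContDiffOn.sum fun i _ => ContDiffOn.sum fun j _ => ?_
  have h1 : ContDiffOn ℝ ∞ (fun z : VV n => g (mid z) i j) (O ×ˢ O) :=
    (ng.sm i j).comp contDiff_mid.contDiffOn fun _ hz => mid_mem hc hz.1 hz.2
  have h2 : ∀ i, ContDiff ℝ ∞ (fun z : VV n => dif z i) := fun i => by
    unfold dif
    exact ((contDiff_apply ℝ ℝ i).comp contDiff_fst).sub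
      ((contDiff_apply ℝ ℝ i).comp contDiff_snd)
  exact (h1.mul (h2 i).contDiffOn).mul (h2 j).contDiffOn

/-- The Hessian form of the weight by means of that of `u` and `ρ`. -/
theorem TH_W (d : Gd O ε δ₁ δ₂ h₀ h₁ G K₂ γ₀ w s₂ z) (b : Wl O w Φ μ W z U) (A B : V n) :
    TH (sx w.s) (sy s₂) W z A B =
      w.Φ₂ (w.u z) * GA (sx w.s) (sy s₂) (um w.l μ) z A B ^ 2 +
      Real.exp (w.u z) * (w.nu z + w.G z) * TH (sx w.s) (sy s₂) (um w.l μ) z A B +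
      Real.exp (w.u z) * (w.G z * GA (sx w.s) (sy s₂) (um w.l μ) z A B ^ 2 +
        2 * w.k z * GA (sx w.s) (sy s₂) (um w.l μ) z A B * GA (sx w.s) (sy s₂) (rq w.g) z A B +
        w.y z * GA (sx w.s) (sy s₂) (rq w.g) z A B ^ 2 +
        w.k z * TH (sx w.s) (sy s₂) (rq w.g) z A B) := by
  obtain ⟨ok, ot⟩ := ok_xy d.hO d.n₁ d.n₂ b.ho b.hU
  have hz := b.hz
  have srq : Sm U (rq w.g) := (sm_rq d.hO d.hc d.ng).mono b.hU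
  rw [TH_congr b.ho b.hW hz, TH_weight ok ot b.cΦ b.cS hz]
  have e1 : TH (sx w.s) (sy s₂) w.u z A B = TH (sx w.s) (sy s₂) (um w.l μ) z A B :=
    TH_congr b.ho b.hu hz A B
  have e2 : GA (sx w.s) (sy s₂) w.u z A B = GA (sx w.s) (sy s₂) (um w.l μ) z A B := by
    unfold GA Gr
    simp only [fun i => D_congr (sx w.s) b.ho b.hu i hz, fun i => D_congr (sy s₂) b.ho b.hu i hz]
  have e3 : TH (sx w.s) (sy s₂) w.r2 z A B = 2 * TH (sx w.s) (sy s₂) (rq w.g) z A B :=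
    TH_cmul ok ot 2 srq hz A B
  have e4 : GA (sx w.s) (sy s₂) w.r2 z A B = 2 * GA (sx w.s) (sy s₂) (rq w.g) z A B := by
    have g1 : ∀ i, (sx w.s).D i w.r2 z = 2 * (sx w.s).D i (rq w.g) z := fun i =>
      D_cmul _ b.ho 2 srq i hz
    have g2 : ∀ i, (sy s₂).D i w.r2 z = 2 * (sy s₂).D i (rq w.g) z := fun i =>
      D_cmul _ b.ho 2 srq i hz
    unfold GA Gr
    simp only [g1, g2, mul_left_comm _ (2 : ℝ), ← Finset.mul_sum, mul_assoc]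
    ring
  rw [e1, e2, e3, e4]
  have e5 : Real.exp (w.u z) * (w.nu z) = w.Φ₁ (w.u z) := by
    unfold Wn.nu
    have := Real.exp_pos (w.u z)
    field_simp
  have e6 : Real.exp (w.u z) * (w.nu z + w.G z) * TH (sx w.s) (sy s₂) (um w.l μ) z A B =
      w.Φ₁ (w.u z) * TH (sx w.s) (sy s₂) (um w.l μ) z A B +
        Real.exp (w.u z) * (w.G z * TH (sx w.s) (sy s₂) (um w.l μ) z A B) := by
    rw [mul_add, e5]; ring
  rw [e6]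
  unfold Wn.G Wn.k Wn.y
  ring

/-- The gradients of the weight. -/
theorem gr_W (d : Gd O ε δ₁ δ₂ h₀ h₁ G K₂ γ₀ w s₂ z) (b : Wl O w Φ μ W z U) :
    gx W z = (Real.exp (w.u z) * (w.nu z + w.G z)) • gx (um w.l μ) z +
        (Real.exp (w.u z) * w.k z) • gx (rq w.g) z ∧
      gy W z = (Real.exp (w.u z) * (w.nu z + w.G z)) • gy (um w.l μ) z +
        (Real.exp (w.u z) * w.k z) • gy (rq w.g) z := by
  have hz := b.hz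
  have srq : Sm U (rq w.g) := (sm_rq d.hO d.hc d.ng).mono b.hU
  have se : Cp U w.u Real.exp Real.exp Real.exp := Cp.exp b.cΦ.su
  have e5 : Real.exp (w.u z) * (w.nu z) = w.Φ₁ (w.u z) := by
    unfold Wn.nu
    have := Real.exp_pos (w.u z)
    field_simp
  have gen : ∀ (σ : Sl (VV n) (Fin n)) (k : Fin n), σ.D k W z =
      (Real.exp (w.u z) * (w.nu z + w.G z)) * σ.D k (um w.l μ) z +
        (Real.exp (w.u z) * w.k z) * σ.D k (rq w.g) z := by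
    intro σ k
    have g1 : σ.D k w.r2 z = 2 * σ.D k (rq w.g) z := D_cmul _ b.ho 2 srq k hz
    have g2 : σ.D k w.u z = σ.D k (um w.l μ) z := D_congr σ b.ho b.hu k hz
    rw [D_congr σ b.ho b.hW k hz, D_add σ b.ho b.cΦ.s0 (se.s0.mul b.cS.s0) k hz,
      D_mul σ b.ho se.s0 b.cS.s0 k hz, D_comp b.ho b.cΦ k hz, D_comp b.ho se k hz,
      D_comp b.ho b.cS k hz, g1, g2, ← e5]
    unfold Wn.G Wn.k
    ring
  constructor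
  · funext k
    simp only [Pi.add_apply, Pi.smul_apply, smul_eq_mul]
    have := gen (sx w.s) k
    rw [Dx1, Dx1, Dx1] at this
    exact this
  · funext k
    simp only [Pi.add_apply, Pi.smul_apply, smul_eq_mul]
    have := gen (sy s₂) k
    rw [Dy1, Dy1, Dy1] at this
    exact this

/-- **Zone II: the certificate for the actual weight.** The hypotheses are on numbers:
`s = r`, `ϱ = |du| = w.a z`, `g = S`, `k = 2 S'`, `w.y z = 4 S''`, `p = N / E + S`. -/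
theorem pt_II {κ δ ζ om a₁ a₂ γ ϖ Z m₁ m₂ s : ℝ} {kE : VV n → ℝ}
    (d : Gd O ε δ₁ δ₂ h₀ h₁ G K₂ γ₀ w s₂ z) (b : Wl O w Φ μ W z U)
    (f : Fr2 w.s s₂ w.g ε D z F₁ F₂ Ψ) (hD : D = δ₁ * ‖dif z‖ + h₀) (hD1 : 8 * n ^ 6 * D ≤ 1)
    (hμ : |w.μ₁ (lm w.l z)| ≤ 1)
    (hs0 : 0 < s) (hs2 : w.r2 z = s ^ 2)
    (hκE : κ / Real.exp (w.u z) = w.a z ^ 2 * kE z)
    -- the vectors
    (eδ : 8 * n ^ 7 * D * lam w.s w.l (mid z) + 2 * n ^ 3 * K₂ * ‖dif z‖ ≤ δ)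
    (eζ : 17 * (n + 1) ^ 9 * (D * ‖dif z‖) ≤ ζ) (eom : 168 * n ^ 7 * D ≤ om)
    (ea₁ : 848 * (n + 1) ^ 16 * D ≤ a₁)
    (ea₂ : 3392 * (n + 1) ^ 16 * (δ₂ * ‖dif z‖ ^ 2 + D ^ 2 + h₁ * ‖dif z‖) ≤ a₂)
    (eϖ1 : ϖ ≤ w.μ₂ (lm w.l z) * lam w.s w.l (mid z) ^ 2 / 4)
    (eϖ2 : ϖ ≤ w.μ₂ (lm w.l z) * lam w.s w.l (mid z) ^ 2)
    (eγ : γ ≤ γ₀ / 4 - 28 * n ^ 4 * (δ₁ * G) - 16 * n ^ 4 * (|w.μ₁ (lm w.l z)| * K₂) -
      32 * n ^ 14 * (|w.μ₂ (lm w.l z)| * (D * lam w.s w.l (mid z)) ^ 2))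
    -- the numbers
    (H : Small (w.a z ^ 2 * w.G z) (w.k z) (w.y z / w.a z ^ 2) (w.a z * s))
    (hϱ : 1 / 2 ≤ w.a z) (hϱ2 : w.a z ≤ 2) (hs : 26 * (w.a z * s) ≤ 1)
    (hZ : w.y z / w.a z ^ 2 ≤ Z) (hk2 : w.k z ≤ 2) (hz0 : 0 ≤ w.y z) (hz4 : w.y z ≤ 4)
    (hg0 : 0 ≤ w.G z) (hp : 0 ≤ w.nu z) (hp' : w.a z * (w.nu z + w.G z) ≤ w.k z * s / 2)
    (hK0 : 0 ≤ w.Φ₂ (w.u z)) (hκ : 0 ≤ κ)
    (hK : κ ≤ w.Φ₂ (w.u z) * w.a z ^ 2 / 2 + Real.exp (w.u z) * (w.nu z + w.G z) * ϖ +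
      Real.exp (w.u z) * (w.a z * s) ^ 4 / 2400)
    (hE : 1600 * κ ≤ Real.exp (w.u z) * (w.a z * s) ^ 2) (hδ1 : δ ≤ 1) (hζs : ζ ≤ s)
    (hm₁ : m₁ = κ / 4 + Real.exp (w.u z) * (w.nu z + w.G z) * γ)
    (hm₂ : m₂ = κ / (3600 * (1 + Z) * (w.a z * s) ^ 2))
    (hA₁ : 2 * (w.Φ₂ (w.u z) * δ ^ 2) + 31 * (Real.exp (w.u z) * (w.nu z + w.G z) * δ) +
      74 * (Real.exp (w.u z) * ζ) + 2 * (Real.exp (w.u z) * a₂) +
      9 * (Real.exp (w.u z) * s * om) ≤ m₁ / 4)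
    (hA₂ : 32 * (Real.exp (w.u z) * (4 * (δ * s) + 8 * (ζ * s) + 2 * a₁)) ^ 2 ≤ m₁ * m₂)
    (A B : V n) :
    m₁ / 2 * (dd (F₁ *ᵥ A) (F₁ *ᵥ A) + dd (F₂ *ᵥ B) (F₂ *ᵥ B)) +
        m₂ / 2 * dd (F₁ *ᵥ A - F₂ *ᵥ B) (F₁ *ᵥ A - F₂ *ᵥ B) ≤
      TH (sx w.s) (sy s₂) W z A B + H960.W.tc (sx w.s) (w.c₁ kE) W z A +
        H960.W.tc (sy s₂) (w.c₂ kE) W z B := by
  have D0 : 0 ≤ D := by
    have := norm_nonneg (dif z)
    have := d.hδ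
    have := d.hh0
    rw [hD]; positivity
  have hϱ0 : 0 < w.a z := by linarith only [hϱ]
  have hE0 := Real.exp_pos (w.u z)
  obtain ⟨e, he⟩ : ∃ e, e = ev Ψ w.s w.l z := ⟨_, rfl⟩
  obtain ⟨q, hq⟩ : ∃ q, q = tv Ψ z := ⟨_, rfl⟩
  have he1 : dd e e = 1 := by rw [he]; exact ev_one f.yp f.qp d.hg d.hl0
  have hqq : dd q q = w.r2 z := by rw [hq]; exact tv_sq f
  have hbq : dd e q = w.b z := by rw [he, hq]; exact ev_tv f.yp f.qp d.hg d.hl0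
  have hqs : dd q q = s ^ 2 := by rw [hqq, hs2]
  have ht : |1 + w.μ₁ (lm w.l z)| ≤ 2 := by
    rw [abs_le] at hμ ⊢
    constructor <;> linarith only [hμ.1, hμ.2]
  obtain ⟨g1, g2⟩ := grad_um d.hO d.hc d.hx d.hy d.hl b.cμ d.hK d.hK0 f d.hg d.hl0 D0 ht
  have ea : aa' w.s w.l w.μ₁ z = w.a z := rfl
  rw [ea, ← he] at g1 g2
  obtain ⟨r1, r2⟩ := grad_fr d.hO d.hc d.ng d.hδ d.hh0 d.hx d.hy hD f
  rw [← hq] at r1 r2
  have rn : ∀ v : V n, ‖v‖ ≤ 17 * (n + 1) ^ 8 * (D * ‖dif z‖) → nn v ≤ ζ := by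
    intro v hv
    refine ((nn_le_norm v).trans ?_).trans eζ
    have c0 : 0 ≤ D * ‖dif z‖ := mul_nonneg D0 (norm_nonneg _)
    calc (n : ℝ) * ‖v‖ ≤ (n + 1) * (17 * (n + 1) ^ 8 * (D * ‖dif z‖)) := by
          refine mul_le_mul (by linarith) hv (norm_nonneg _) (by positivity)
      _ = _ := by ring
  have hr := hr_fr d.hO d.hc d.n₁ d.n₂ d.ng d.hh d.hδ d.hδ' d.hh0 d.hh1 d.hε1 d.hε d.hx d.hy hD
    f A B
  have hu := TH_um d.hO d.hc d.n₁ d.n₂ d.hε1 d.hx d.hy d.hl b.cμ d.hG d.hK d.hK0 d.hG0 d.hδ f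
    d.hg d.hl0 D0 d.hγ0 d.cv1 d.cv2 hμ eϖ1 eϖ2 eγ A B
  rw [← he] at hu
  -- the fields
  obtain ⟨v₁, hv₁⟩ := fr_inv f.p1 (fun i => w.c₁ kE i z)
  obtain ⟨v₂, hv₂⟩ := fr_inv f.p2 (fun i => w.c₂ kE i z)
  have t1 := tc_x (W := W) f (c := w.c₁ kE) (v := v₁) (fun i => by rw [hv₁]) A
  have t2 := tc_y (W := W) f (c := w.c₂ kE) (v := v₂) (fun i => by rw [hv₂]) B
  have p1 : Ψ *ᵥ (fun i => w.c₁ kE i z) = cm e q (w.a z) (w.G z) (w.k z) (w.y z) (dd e q)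
      (s ^ 2) (w.nu z + w.G z) κ (Real.exp (w.u z)) := by
    have := psi_fd (Ψ := Ψ) (eu' := fun i => eu w.s w.l i z) (dif' := fun i => dif z i)
      (he.symm : Ψ *ᵥ _ = e) (hq.symm : Ψ *ᵥ _ = q) he1 (G := w.G z) (k := w.k z) (y := w.y z)
      (ν := w.nu z) (ka := kE z) hbq hqq hϱ0.ne' hκE
    rw [hbq, ← hs2]
    exact this
  have p2 : Ψ *ᵥ (fun i => w.c₂ kE i z) = cm e (-q) (w.a z) (w.G z) (w.k z) (w.y z) (-dd e q)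
      (s ^ 2) (w.nu z + w.G z) κ (Real.exp (w.u z)) := by
    have hq' : Ψ *ᵥ (fun i => -dif z i) = -q := by
      rw [hq]
      unfold tv
      rw [show (fun i => -dif z i) = -dif z from rfl, Matrix.mulVec_neg]
    have hb' : dd e (-q) = -w.b z := by rw [dd_neg_right, hbq]
    have hqq' : dd (-q) (-q) = w.r2 z := by
      rw [dd_neg_neg]; exact hqq
    have := psi_fd (Ψ := Ψ) (eu' := fun i => eu w.s w.l i z) (dif' := fun i => -dif z i)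
      (he.symm : Ψ *ᵥ _ = e) hq' he1 (G := w.G z) (k := w.k z) (y := w.y z)
      (ν := w.nu z) (ka := kE z) hb' hqq' hϱ0.ne' hκE
    rw [hbq, ← hs2]
    exact this
  have hs1 : s ≤ 1 := by nlinarith only [hs, hϱ, hs0]
  have hpp : w.G z ≤ w.nu z + w.G z := by linarith only [hp]
  have hE' : 800 * κ ≤ Real.exp (w.u z) * (w.a z * s) ^ 2 := by linarith only [hE, hκ]
  have m1 := nn_cm H hϱ0 hϱ2 he1 hqs hs0 hs1 hg0 hpp hp' hκ hE0 hE'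
  have hqs' : dd (-q) (-q) = s ^ 2 := by rw [dd_neg_neg]; exact hqs
  have m2 := nn_cm H hϱ0 hϱ2 he1 hqs' hs0 hs1 hg0 hpp hp' hκ hE0 hE'
  rw [dd_neg_right] at m2
  have c1 := (nn_fr f.m1 D0 hD1 hv₁ p1 m1).trans (le_trans (le_of_eq (by ring)) eom)
  have c2 := (nn_fr f.m2 D0 hD1 hv₂ p2 m2).trans (le_trans (le_of_eq (by ring)) eom)
  -- the gradients
  obtain ⟨G1, G2⟩ := gr_W d b
  have E1 : F₁ *ᵥ gx W z = (Real.exp (w.u z) * (w.nu z + w.G z)) • (F₁ *ᵥ gx (um w.l μ) z) +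
      (Real.exp (w.u z) * w.k z) • (F₁ *ᵥ gx (rq w.g) z) := by
    rw [G1, Matrix.mulVec_add, Matrix.mulVec_smul, Matrix.mulVec_smul]
  have E2 : F₂ *ᵥ gy W z = (Real.exp (w.u z) * (w.nu z + w.G z)) • (F₂ *ᵥ gy (um w.l μ) z) +
      (Real.exp (w.u z) * w.k z) • (F₂ *ᵥ gy (rq w.g) z) := by
    rw [G2, Matrix.mulVec_add, Matrix.mulVec_smul, Matrix.mulVec_smul]
  rw [E1] at t1
  rw [E2] at t2
  rw [TH_W d b A B, t1, t2, GA_fr (W := um w.l μ) f, GA_fr (W := rq w.g) f]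
  have ha₁ : 0 ≤ a₁ := le_trans (by positivity) ea₁
  have ha₂ : 0 ≤ a₂ := by
    refine le_trans ?_ ea₂
    have := d.hδ'
    have := d.hh1
    positivity
  have hr' : |TH (sx w.s) (sy s₂) (rq w.g) z A B -
      dd (F₁ *ᵥ A - F₂ *ᵥ B) (F₁ *ᵥ A - F₂ *ᵥ B)| ≤
      a₁ * (nn (F₁ *ᵥ A - F₂ *ᵥ B) * (nn (F₁ *ᵥ A) + nn (F₂ *ᵥ B))) +
      a₂ * (dd (F₁ *ᵥ A) (F₁ *ᵥ A) + dd (F₂ *ᵥ B) (F₂ *ᵥ B)) := by
    refine hr.trans (add_le_add ?_ ?_)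
    · refine mul_le_mul_of_nonneg_right ea₁ ?_
      exact mul_nonneg (nn_nonneg _) (add_nonneg (nn_nonneg _) (nn_nonneg _))
    · exact mul_le_mul_of_nonneg_right ea₂ (add_nonneg (dd_self_nonneg _) (dd_self_nonneg _))
  have fin := near_pt (U := F₁ *ᵥ A) (V := F₂ *ᵥ B) H hϱ hϱ2 he1 hqs hs0 hs hZ hk2 hz0 hz4 hg0
    hpp hp' hE0 hK0 hκ hK hE (g1.trans eδ) (g2.trans eδ) (rn _ r1) (rn _ r2) hδ1 hζs hr' hu c1 c2
    ha₁ ha₂ hm₁ hm₂ hA₁ hA₂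
  simp only [dd_dt, H230.W.TT] at fin ⊢
  linarith only [fin]

end Vale.Agent.P088.R2.H86.Z
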