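import Vale.Agent.P088.R2.H86.Z.PT1

/-!
# P088, stage 3, zone II: the pointwise certificate, version 3

The second margin also sees the convexity part of the first: `m₂ = m₁ / (900 (1 + Z) (ϱ s)²)`.
-/

noncomputable section

namespace Vale.Agent.P088.R2.H86.Z

open Vale.Agent.P088.R2.H230.W
open Vale.Agent.P088.R2.H942.Iso.Near hiding dn
open Set

variable {ι : Type*} [Fintype ι]

/-- `zII4` with a second reserve `κ'` for the second margin. -/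
theorem zII5 {e q : ι → ℝ} {g k z s : ℝ} (H : Small g k z s) (he : dd e e = 1)
    (hq : dd q q = s ^ 2) {Z p1 p2 E K κ κ' : ℝ} (hZ : z ≤ Z) (hs26 : 26 * s ≤ 1)
    (h1 : g ≤ p1) (h2 : g ≤ p2) (h1' : p1 ≤ k * s / 2) (h2' : p2 ≤ k * s / 2)
    (hκ : 0 ≤ κ) (hK : κ ≤ K + E * s ^ 4 / 4800) (hE : 3200 * κ ≤ E * s ^ 2)
    (hE2 : 32 * κ ≤ E) (hκ' : 0 ≤ κ') (hκ1 : κ' ≤ E * s ^ 2) (U V : ι → ℝ) :
    (κ / 4 - κ' / 2) * (dd U U + dd V V) +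
        (κ + 2 * κ') / (3600 * (1 + Z) * s ^ 2) * dd (U - V) (U - V)
      ≤ K * (dd e U + dd e V) ^ 2 + E * FU e q g k z p1 1 p2 1 U V
        + κ * TT (kf e (p1 • e + k • q)) (p1 • e + k • q) U
        + κ * TT (kf e (p2 • e - k • q)) (p2 • e - k • q) V := by
  have hs := H.s_pos
  have hg := H.rad.g_pos
  have hk1 := H.k_gt
  have hz := H.rad.z_nonneg
  have hZ0 : 0 ≤ Z := hz.trans hZ
  have hE0 : 0 ≤ E := by linarith
  have main := zII4 H he hq (E := E / 2) (K := K) hZ hs26 h1 h2 h1' h2' hκ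
    (by linarith) (by linarith) (by linarith) U V
  have g1 := dd_w_ge he hs hq (hg.le.trans h1) (by linarith : p1 ≤ k * s / 2) (by linarith : 0 ≤ k)
  have hq' : dd (-q) (-q) = s ^ 2 := by rw [dd_neg_neg]; exact hq
  have g2 := dd_w_ge he hs hq' (hg.le.trans h2) (by linarith : p2 ≤ k * s / 2) (by linarith : 0 ≤ k)
  have hqe : dd q e = dd e q := dd_comm _ _
  have w1 : dd (p1 • e + k • q) (p1 • e + k • q) = wq k (dd e q) (s ^ 2) p1 1 := by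
    unfold wq
    simp only [dd_smul_left, dd_smul_right, dd_add_left, dd_add_right, he, hq, hqe]
    ring
  have hqe' : dd (-q) e = dd e (-q) := dd_comm _ _
  have e1 : dd e (-q) = -dd e q := dd_neg_right e q
  have w2 : dd (p2 • e + k • (-q)) (p2 • e + k • (-q))
      = wq k (-dd e q) (s ^ 2) p2 1 := by
    unfold wq
    simp only [dd_smul_left, dd_smul_right, dd_add_left, dd_add_right, he, hq', hqe', e1]
    ring
  have hD1 : 0 < wq k (dd e q) (s ^ 2) p1 1 := by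
    rw [← w1]; exact lt_of_lt_of_le (by positivity) g1
  have hD2 : 0 < wq k (-dd e q) (s ^ 2) p2 1 := by
    rw [← w2]; exact lt_of_lt_of_le (by positivity) g2
  have hF := near_small H he hq (t1 := 1) (t2 := 1) zero_le_one zero_le_one
    (by linarith : 1 * g ≤ p1) (by linarith : 1 * g ≤ p2) hD1 hD2 U V
  have hF0 : 0 ≤ FU e q g k z p1 1 p2 1 U V := by
    refine le_trans ?_ hF
    have G1 := Gr_nonneg (q := q) he U
    have G2 := Gr_nonneg (q := q) he V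
    have hU := dd_self_nonneg U
    have hV := dd_self_nonneg V
    positivity
  have hFQ := Q_le_FU2 H he hq hZ h1 h1' h2 h2' U V
  have hs2 : 0 < s ^ 2 := pow_pos hs 2
  set lam := 2 * κ' / (225 * (1 + Z) * s ^ 2) with hlam
  have hl0 : 0 ≤ lam := by positivity
  have hlE : lam ≤ 2 * E := by
    rw [hlam, div_le_iff₀ (by positivity)]
    have a2 : 0 ≤ E * s ^ 2 * Z := by positivity
    have a3 : 0 ≤ E * s ^ 2 := by positivity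
    nlinarith
  have hll : lam * (225 * (1 + Z) * s ^ 2) = 2 * κ' := by
    rw [hlam]; field_simp
  have a3 : lam / 4 * FU e q g k z p1 1 p2 1 U V ≤ E / 2 * FU e q g k z p1 1 p2 1 U V :=
    mul_le_mul_of_nonneg_right (by linarith) hF0
  have a4 := mul_le_mul_of_nonneg_left hFQ (show 0 ≤ lam / 4 by linarith)
  have a5 : lam / 4 * (1 / 4 * dd (U - V) (U - V) - 225 * (1 + Z) * s ^ 2 * (dd U U + dd V V))
      = lam / 16 * dd (U - V) (U - V) - κ' / 2 * (dd U U + dd V V) := by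
    linear_combination (-(1 : ℝ) / 4 * (dd U U + dd V V)) * hll
  rw [a5] at a4
  have a6 : (κ + 2 * κ') / (3600 * (1 + Z) * s ^ 2) =
      κ / (3600 * (1 + Z) * s ^ 2) + lam / 16 := by
    rw [hlam, add_div, div_div]
    congr 2
    ring
  have b1 := a4.trans a3
  rw [a6]
  linarith only [main, b1]

section

variable {e q : ι → ℝ} {ϱ g k z s p : ℝ}

/-- **Zone II with a gradient of length `ϱ`.** -/
theorem zII_rho3 {Z E K κ κ' : ℝ} (H : Small (ϱ ^ 2 * g) k (z / ϱ ^ 2) (ϱ * s)) (hϱ : 0 < ϱ)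
    (he : dd e e = 1) (hq : dd q q = s ^ 2) (hZ : z / ϱ ^ 2 ≤ Z) (hs : 26 * (ϱ * s) ≤ 1)
    (hp : g ≤ p) (hp' : ϱ * p ≤ k * s / 2) (hκ : 0 ≤ κ) (hK : κ ≤ K + E * (ϱ * s) ^ 4 / 4800)
    (hE : 3200 * κ ≤ E * (ϱ * s) ^ 2) (hE2 : 32 * κ ≤ E) (hE0 : E ≠ 0) (hκ' : 0 ≤ κ')
    (hκ1 : κ' ≤ E * (ϱ * s) ^ 2) (U V : ι → ℝ) :
    (κ / 4 - κ' / 2) * (dd U U + dd V V) +
      (κ + 2 * κ') / (3600 * (1 + Z) * (ϱ * s) ^ 2) * dd (U - V) (U - V) ≤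
    K * (dd e U + dd e V) ^ 2 +
      E * (g * (ϱ * (dd e U + dd e V)) ^ 2 + 2 * k * (ϱ * (dd e U + dd e V)) * dd q (U - V) +
        z * dd q (U - V) ^ 2 + k * dd (U - V) (U - V)) +
      TT (cm e q ϱ g k z (dd e q) (s ^ 2) p κ E) (E • ((p * ϱ) • e + k • q)) U +
      TT (cm e (-q) ϱ g k z (-dd e q) (s ^ 2) p κ E) (E • ((p * ϱ) • e - k • q)) V := by
  have hϱ2 : 0 < ϱ ^ 2 := pow_pos hϱ 2
  have hq' : dd (ϱ • q) (ϱ • q) = (ϱ * s) ^ 2 := by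
    rw [dd_smul_left, dd_smul_right, hq]; ring
  have hp1 : ϱ ^ 2 * g ≤ ϱ ^ 2 * p := mul_le_mul_of_nonneg_left hp hϱ2.le
  have hp2 : ϱ ^ 2 * p ≤ k * (ϱ * s) / 2 := by
    have := mul_le_mul_of_nonneg_left hp' hϱ.le
    calc ϱ ^ 2 * p = ϱ * (ϱ * p) := by ring
      _ ≤ ϱ * (k * s / 2) := this
      _ = _ := by ring
  have main := zII5 H he hq' hZ hs hp1 hp1 hp2 hp2 hκ hK hE hE2 hκ' hκ1 U V
  refine main.trans (le_of_eq ?_)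
  have eb : dd e (ϱ • q) = ϱ * dd e q := dd_smul_right _ _ _
  have w1 : (ϱ ^ 2 * p) • e + (1 * k) • (ϱ • q) = ϱ • ((p * ϱ) • e + k • q) := by
    ext i; simp only [Pi.add_apply, Pi.smul_apply, smul_eq_mul]; ring
  have w2 : (ϱ ^ 2 * p) • e - (1 * k) • (ϱ • q) = ϱ • ((p * ϱ) • e - k • q) := by
    ext i; simp only [Pi.sub_apply, Pi.smul_apply, smul_eq_mul]; ring
  have w3 : (ϱ ^ 2 * p) • e + k • (ϱ • q) = ϱ • ((p * ϱ) • e + k • q) := by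
    rw [← w1, one_mul]
  have w4 : (ϱ ^ 2 * p) • e - k • (ϱ • q) = ϱ • ((p * ϱ) • e - k • q) := by
    rw [← w2, one_mul]
  have w5 : (p * ϱ) • e - k • q = (p * ϱ) • e + k • (-q) := by
    rw [smul_neg, sub_eq_add_neg]
  have hn : -(ϱ • q) = ϱ • (-q) := by rw [smul_neg]
  have hm : ϱ ^ 2 * s ^ 2 = (ϱ * s) ^ 2 := by ring
  unfold FU HQ cm
  rw [w3, w4, w1, w2, eb, hq', hn, kf_smul hϱ.ne', kf_smul hϱ.ne', ← w5, hm]
  simp only [TT_add_l, TT_smul_left, TT_smul_mid, dd_smul_left]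
  have hb : -(ϱ * dd e q) = ϱ * -dd e q := by ring
  rw [hb]
  field_simp
  ring

/-- **Zone II, pointwise, with all perturbations.** -/
theorem near_pt3 {e₁ e₂ q₁ q₂ U V v₁ v₂ : ι → ℝ}
    {E K κ δ ζ ω a₁ a₂ γ ϖ hu hr Z m₁ m₂ : ℝ}
    (H : Small (ϱ ^ 2 * g) k (z / ϱ ^ 2) (ϱ * s)) (hϱ : 1 / 2 ≤ ϱ) (hϱ2 : ϱ ≤ 2)
    (he : dd e e = 1) (hq : dd q q = s ^ 2) (hs0 : 0 < s) (hs : 26 * (ϱ * s) ≤ 1)
    (hZ : z / ϱ ^ 2 ≤ Z) (hk2 : k ≤ 2) (hz0 : 0 ≤ z) (hz : z ≤ 4) (hg0 : 0 ≤ g) (hp : g ≤ p)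
    (hp' : ϱ * p ≤ k * s / 2) (hE0 : 0 < E) (hK0 : 0 ≤ K) (hκ : 0 ≤ κ)
    (hK : κ ≤ K * ϱ ^ 2 / 2 + E * p * ϖ + E * (ϱ * s) ^ 4 / 4800)
    (hE : 3200 * κ ≤ E * (ϱ * s) ^ 2)
    (d1 : nn (e₁ - ϱ • e) ≤ δ) (d2 : nn (e₂ - ϱ • e) ≤ δ) (g1 : nn (q₁ - q) ≤ ζ)
    (g2 : nn (q₂ + q) ≤ ζ) (hδ : δ ≤ 1) (hζ : ζ ≤ s)
    (hr' : |hr - dd (U - V) (U - V)| ≤ a₁ * (nn (U - V) * (nn U + nn V)) +
      a₂ * (dd U U + dd V V))
    (hu' : γ * (dd U U + dd V V) + ϖ * (dd e U + dd e V) ^ 2 ≤ hu)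
    (c1 : nn (v₁ - cm e q ϱ g k z (dd e q) (s ^ 2) p κ E) ≤ ω)
    (c2 : nn (v₂ - cm e (-q) ϱ g k z (-dd e q) (s ^ 2) p κ E) ≤ ω)
    (ha₁ : 0 ≤ a₁) (ha₂ : 0 ≤ a₂)
    (hγ0 : 0 ≤ γ) (hγ1 : p * γ ≤ (ϱ * s) ^ 2)
    (hm₁ : m₁ = κ / 4 + E * p * γ / 2)
    (hm₂ : m₂ = m₁ / (900 * (1 + Z) * (ϱ * s) ^ 2))
    (hA₁ : 2 * (K * δ ^ 2) + 31 * (E * p * δ) + 74 * (E * ζ) + 2 * (E * a₂) + 9 * (E * s * ω) ≤
      m₁ / 4)
    (hA₂ : 32 * (E * (4 * (δ * s) + 8 * (ζ * s) + 2 * a₁)) ^ 2 ≤ m₁ * m₂) :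
    m₁ / 2 * (dd U U + dd V V) + m₂ / 2 * dd (U - V) (U - V) ≤
      K * (dd e₁ U + dd e₂ V) ^ 2 + E * p * hu +
      E * (g * (dd e₁ U + dd e₂ V) ^ 2 +
        2 * k * (dd e₁ U + dd e₂ V) * (dd q₁ U + dd q₂ V) +
        z * (dd q₁ U + dd q₂ V) ^ 2 + k * hr) +
      TT v₁ ((E * p) • e₁ + (E * k) • q₁) U + TT v₂ ((E * p) • e₂ + (E * k) • q₂) V := by
  have hϱ0 : 0 < ϱ := by linarith only [hϱ]
  have hs1 : s ≤ 1 := by nlinarith only [hs, hϱ, hs0]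
  have hδ0 : 0 ≤ δ := (nn_nonneg _).trans d1
  have hζ0 : 0 ≤ ζ := (nn_nonneg _).trans g1
  have hω0 : 0 ≤ ω := (nn_nonneg _).trans c1
  have hp0 : 0 ≤ p := hg0.trans hp
  have hk1 := H.k_gt
  have hk0 : 0 ≤ k := by linarith only [hk1]
  have hE' : 800 * κ ≤ E * (ϱ * s) ^ 2 := by linarith only [hE, hκ]
  have hE8 : 32 * κ ≤ E := by
    have h0 : 0 ≤ ϱ * s := by positivity
    have : (ϱ * s) ^ 2 ≤ 1 := by nlinarith only [h0, hs]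
    have := mul_le_mul_of_nonneg_left this hE0.le
    linarith only [this, hE, hκ]
  have hκ' : 0 ≤ E * p * γ := by positivity
  have hκ1 : E * p * γ ≤ E * (ϱ * s) ^ 2 := by
    rw [mul_assoc]; exact mul_le_mul_of_nonneg_left hγ1 hE0.le
  have main := zII_rho3 H hϱ0 he hq hZ hs hp hp' hκ hK hE hE8 hE0.ne' hκ' hκ1 U V
  have hn : dd e (-q) = -dd e q := dd_neg_right e q
  have hnq : dd (-q) (-q) = s ^ 2 := by rw [dd_neg_neg]; exact hq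
  have n1 := nn_cm H hϱ0 hϱ2 he hq hs0 hs1 hg0 hp hp' hκ hE0 hE'
  have n2 := nn_cm H hϱ0 hϱ2 he hnq hs0 hs1 hg0 hp hp' hκ hE0 hE'
  rw [hn] at n2
  have nU := nn_nonneg U
  have nV := nn_nonneg V
  obtain ⟨T, hT⟩ : ∃ T, T = nn U + nn V := ⟨_, rfl⟩
  obtain ⟨Qn, hQn⟩ : ∃ Qn, Qn = nn (U - V) := ⟨_, rfl⟩
  obtain ⟨S, hS⟩ : ∃ S, S = dd U U + dd V V := ⟨_, rfl⟩
  have T0 : 0 ≤ T := by rw [hT]; positivity
  have Q0 : 0 ≤ Qn := by rw [hQn]; exact nn_nonneg _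
  have S0 : 0 ≤ S := by rw [hS]; exact add_nonneg (dd_self_nonneg _) (dd_self_nonneg _)
  have hT2 : T ^ 2 ≤ 2 * S := by
    rw [hT, hS, ← nn_sq U, ← nn_sq V]; nlinarith only [sq_nonneg (nn U - nn V)]
  have hQ2 : Qn ^ 2 = dd (U - V) (U - V) := by rw [hQn]; exact nn_sq _
  obtain ⟨X, hX⟩ : ∃ X, X = dd e U + dd e V := ⟨_, rfl⟩
  obtain ⟨Y, hY⟩ : ∃ Y, Y = dd q (U - V) := ⟨_, rfl⟩
  obtain ⟨da, hda⟩ : ∃ da, da = dd (e₁ - ϱ • e) U + dd (e₂ - ϱ • e) V := ⟨_, rfl⟩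
  obtain ⟨db, hdb⟩ : ∃ db, db = dd (q₁ - q) U + dd (q₂ + q) V := ⟨_, rfl⟩
  have ea : dd e₁ U + dd e₂ V = ϱ * X + da := by
    rw [hX, hda]; simp only [dd_sub_left, dd_smul_left]; ring
  have eb : dd q₁ U + dd q₂ V = Y + db := by
    rw [hY, hdb]; simp only [dd_sub_left, dd_add_left, dd_sub_right]; ring
  have two : ∀ {u v : ι → ℝ} {t : ℝ}, nn u ≤ t → nn v ≤ t → |dd u U + dd v V| ≤ t * T := by
    intro u v t h1 h2
    rw [hT, mul_add]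
    exact (abs_add_le _ _).trans (add_le_add
      ((dd_le_nn u U).trans (mul_le_mul_of_nonneg_right h1 nU))
      ((dd_le_nn v V).trans (mul_le_mul_of_nonneg_right h2 nV)))
  have bX : |X| ≤ 1 * T := by rw [hX]; exact two (nn_one he).le (nn_one he).le
  have bda : |da| ≤ δ * T := by rw [hda]; exact two d1 d2
  have bdb : |db| ≤ ζ * T := by rw [hdb]; exact two g1 g2
  have hnq1 : nn q = s := by
    unfold nn; rw [hq]; exact Real.sqrt_sq hs0.le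
  have bY : |Y| ≤ s * Qn := by
    rw [hY, hQn, ← hnq1]
    exact dd_le_nn _ _
  rw [one_mul] at bX
  have P1 := pc1 (X := X) (ϱ' := ϱ) hK0 bda
  have P2 := pc2 (X := X) hδ0 hϱ0.le hϱ2 hg0 hp T0 bX bda
  have P3 := pc3 (X := X) (Y := Y) hδ0 hδ hζ0 hϱ0.le hϱ2 hk0 hk2 T0 Q0 hs0.le bX bda bdb bY
  have P4 := pc4 (Y := Y) hζ0 hz0 hz T0 Q0 hs0.le bdb bY
  rw [← hQn, ← hT, ← hS] at hr'
  have P5 := pc5 hk0 hk2 ha₁ ha₂ T0 Q0 S0 hr'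
  have P6 : E * p * (γ * S + ϖ * X ^ 2) ≤ E * p * hu := by
    rw [hS, hX]
    exact mul_le_mul_of_nonneg_left hu' (by positivity)
  have hks : k * s / 2 ≤ s := by nlinarith only [hk2, hs0]
  have hps : p ≤ 2 * s := by
    have h1 : 1 / 2 * p ≤ ϱ * p := mul_le_mul_of_nonneg_right hϱ hp0
    linarith only [h1, hp', hks]
  have hpϱ : p * ϱ ≤ s := by linarith only [mul_comm p ϱ, hp', hks]
  obtain ⟨w1, w1'⟩ := wd_le he hk0 hk2 hE0 hp0 hps hϱ0.le hpϱ hδ hζ hs0.le d1 g1 hnq1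
  have g2' : nn (q₂ - -q) ≤ ζ := by rw [sub_neg_eq_add]; exact g2
  obtain ⟨w2, w2'⟩ := wd_le he hk0 hk2 hE0 hp0 hps hϱ0.le hpϱ hδ hζ hs0.le d2 g2'
    (by rw [nn_neg]; exact hnq1)
  have T1 := TT_pert (U := U) n1 c1 w1 w1' hω0 (by norm_num)
  have T2 := TT_pert (U := V) n2 c2 w2 w2' hω0 (by norm_num)
  have en : (p * ϱ) • e + k • -q = (p * ϱ) • e - k • q := by rw [smul_neg, sub_eq_add_neg]
  rw [en] at T2
  rw [← hX, ← hY] at main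
  rw [ea, eb]
  have hm₂' : m₂ = (κ + 2 * (E * p * γ)) / (3600 * (1 + Z) * (ϱ * s) ^ 2) := by
    rw [hm₂, hm₁]
    have hZ0 : 0 ≤ Z := le_trans (by positivity) hZ
    have h1 : (0 : ℝ) < 1 + Z := by linarith only [hZ0]
    field_simp
    ring
  have Mx : (κ / 4 - E * p * γ / 2) * S + m₂ * Qn ^ 2 ≤ (K * ϱ ^ 2 / 2 + E * p * ϖ) * X ^ 2 +
      E * (g * (ϱ * X) ^ 2 + 2 * k * (ϱ * X) * Y + z * Y ^ 2 + k * dd (U - V) (U - V)) +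
      TT (cm e q ϱ g k z (dd e q) (s ^ 2) p κ E) (E • ((p * ϱ) • e + k • q)) U +
      TT (cm e (-q) ϱ g k z (-dd e q) (s ^ 2) p κ E) (E • ((p * ϱ) • e - k • q)) V := by
    rw [hS, hm₂', hQ2]; exact main
  have m20 : 0 ≤ m₂ := by
    rw [hm₂']
    have hZ0 : 0 ≤ Z := le_trans (by positivity) hZ
    positivity
  obtain ⟨A₂, hA⟩ : ∃ A₂, A₂ = E * (4 * (δ * s) + 8 * (ζ * s) + 2 * a₁) := ⟨_, rfl⟩
  rw [← hA] at hA₂
  have A10 : 0 ≤ m₁ := by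
    have : 0 ≤ 2 * (K * δ ^ 2) + 31 * (E * p * δ) + 74 * (E * ζ) + 2 * (E * a₂) +
        9 * (E * s * ω) := by positivity
    linarith only [this, hA₁]
  have mix := pc6 (Qn := Qn) hA₂ A10 m20 S0 hT2
  have E1 := mul_le_mul_of_nonneg_left P2 hE0.le
  have E2 := mul_le_mul_of_nonneg_left P3 hE0.le
  have E3 := mul_le_mul_of_nonneg_left P4 hE0.le
  have E4 := mul_le_mul_of_nonneg_left P5 hE0.le
  have K1 : K * δ ^ 2 * T ^ 2 ≤ K * δ ^ 2 * (2 * S) :=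
    mul_le_mul_of_nonneg_left hT2 (by positivity)
  have K2 : E * p * δ * T ^ 2 ≤ E * p * δ * (2 * S) :=
    mul_le_mul_of_nonneg_left hT2 (by positivity)
  have K3 : E * ζ * T ^ 2 ≤ E * ζ * (2 * S) := mul_le_mul_of_nonneg_left hT2 (by positivity)
  have K4 := mul_le_mul_of_nonneg_right hA₁ S0
  have K5 : 0 ≤ E * ζ * S := by positivity
  have K6 : (21 * (E * p * δ + 2 * (E * ζ)) + ω * (9 * (E * s))) * dd U U +
      (21 * (E * p * δ + 2 * (E * ζ)) + ω * (9 * (E * s))) * dd V V =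
      (21 * (E * p * δ + 2 * (E * ζ)) + ω * (9 * (E * s))) * S := by rw [hS]; ring
  have K7 : m₁ * S = (κ / 4 - E * p * γ / 2) * S + E * p * (γ * S) := by rw [hm₁]; ring
  have K8 : A₂ * (Qn * T) = E * (4 * (δ * s) * (Qn * T)) + E * (8 * (ζ * s) * (Qn * T)) +
      2 * (E * (a₁ * (Qn * T))) := by rw [hA]; ring
  have m₁S : 0 ≤ m₁ * S := mul_nonneg A10 S0
  have m₂Q : 0 ≤ m₂ * Qn ^ 2 := by positivity
  rw [← hS, ← hQ2]
  rw [← hQ2] at Mx E4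
  linarith only [E1, E2, E3, E4, K1, K2, K3, K4, K5, K6, K7, K8, mix, Mx, P1, P6, T1, T2, m₁S, m₂Q]

end

end Vale.Agent.P088.R2.H86.Z
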