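import Vale.Agent.P088.R2.H165.Tab
import Vale.Agent.P088.R2.H338.C.Lad

/-!
# P088, stage 3, zone II: the slack

`nuI ν`: the numbers used inside of zone II, a bit larger than `ν`; the difference pays for the part
`δ χ²` of the cost.
-/

open MeasureTheory Set Filter
open scoped ContDiff Topology

noncomputable section

namespace Vale.Agent.P088.R2.H86.Z

open Vale.Agent.P088.R2.H961.GW Vale.Agent.P088.R2.H644 Vale.Agent.P088.R2.H960.W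
  Vale.Agent.P088.R2.H551.E Vale.Agent.P088.R2.H165.Tab

variable {E ι : Type*} [NormedAddCommGroup E] [NormedSpace ℝ E] [Fintype ι]

/-- The numbers used inside of zone II. -/
def nuI (ν : Nu E) : Nu E where
  En z := √(5 / 4) * ν.En z
  N := ν.N
  K := ν.K
  r2 z := 4 / 5 * ν.r2 z
  m := ν.m
  k z := 5 / 4 * ν.k z
  F₁ := ν.F₁
  F₂ := ν.F₂

omit [NormedSpace ℝ E] in
theorem nuI_En (ν : Nu E) (z : E) : (nuI ν).En z ^ 2 = 5 / 4 * ν.En z ^ 2 := by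
  show (√(5 / 4) * ν.En z) ^ 2 = _
  rw [mul_pow, Real.sq_sqrt (by norm_num)]

omit [NormedSpace ℝ E] in
theorem nuI_r2 (ν : Nu E) (z : E) : ((nuI ν).r2 z)⁻¹ = 5 / 4 * (ν.r2 z)⁻¹ := by
  show (4 / 5 * ν.r2 z)⁻¹ = _
  rw [mul_inv]; norm_num

section pw

variable {σ τ : Sl E ι} {v₁ v₂ W χ Z₀ Z₁ a b : E → ℝ} {ν : Nu E} {z : E} {C C' δ : ℝ}

/-- **The slack, at a point.** -/
theorem slk_dens (hk : χ z ≠ 0 → 1 ≤ ν.k z) (hr : 0 ≤ ν.r2 z) (hF₁ : 0 ≤ ν.F₁ z)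
    (hF₂ : 0 ≤ ν.F₂ z) (hC : 0 ≤ C) (hδ : C * δ ≤ 1 / 20) (hZ0 : 0 ≤ Z₀ z) (hZ : Z₀ z ≤ Z₁ z)
    (hC' : 5 / 4 * C ≤ C') :
    ((MII ν).sm fun z => χ z ^ 2).dens σ τ v₁ v₂ W a b z +
        (cII (nuI ν) C fun z => Z₀ z + δ * χ z ^ 2).dens σ τ v₁ v₂ W a b z ≤
      ((MII (nuI ν)).sm fun z => χ z ^ 2).dens σ τ v₁ v₂ W a b z +
        (cII ν C' Z₁).dens σ τ v₁ v₂ W a b z := by
  have n1 : 0 ≤ nX σ W a z := Q8.nX_nonneg σ W a z
  have n2 : 0 ≤ nX τ W b z := Q8.nX_nonneg τ W b z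
  have n3 : 0 ≤ nY σ τ W a b z := Q8.nY_nonneg σ τ W a b z
  have r0 : 0 ≤ (ν.r2 z)⁻¹ := inv_nonneg.2 hr
  -- the unit densities
  obtain ⟨u, hu⟩ : ∃ u, u = (H165.Tab.uf ν).dens σ τ v₁ v₂ W a b z := ⟨_, rfl⟩
  obtain ⟨u', hu'⟩ : ∃ u, u = (H165.Tab.uf (nuI ν)).dens σ τ v₁ v₂ W a b z := ⟨_, rfl⟩
  have e1 : u = nX σ W a z + nX τ W b z + (ν.r2 z)⁻¹ * nY σ τ W a b z + ν.F₁ z * a z ^ 2 +
      ν.F₂ z * b z ^ 2 + ν.En z ^ 2 * (a z + b z) ^ 2 := by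
    rw [hu]; unfold Q8.dens H165.Tab.uf; simp only; ring
  have e2 : u' = nX σ W a z + nX τ W b z + 5 / 4 * (ν.r2 z)⁻¹ * nY σ τ W a b z +
      ν.F₁ z * a z ^ 2 + ν.F₂ z * b z ^ 2 + 5 / 4 * ν.En z ^ 2 * (a z + b z) ^ 2 := by
    rw [hu']
    unfold Q8.dens H165.Tab.uf
    simp only
    rw [nuI_En, nuI_r2]
    show _ + _ + _ + _ + ν.F₁ z * _ + ν.F₂ z * _ + _ + _ = _
    ring
  have y1 : 0 ≤ (ν.r2 z)⁻¹ * nY σ τ W a b z := mul_nonneg r0 n3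
  have y2 : 0 ≤ ν.En z ^ 2 * (a z + b z) ^ 2 := by positivity
  have y3 : 0 ≤ ν.F₁ z * a z ^ 2 := mul_nonneg hF₁ (sq_nonneg _)
  have y4 : 0 ≤ ν.F₂ z * b z ^ 2 := mul_nonneg hF₂ (sq_nonneg _)
  have u0 : 0 ≤ u := by rw [e1]; positivity
  have u0' : 0 ≤ u' := by rw [e2]; linarith
  have uu : u' ≤ 5 / 4 * u := by rw [e1, e2]; linarith
  -- the margins
  have m1 : χ z ^ 2 * (MII ν).dens σ τ v₁ v₂ W a b z + χ z ^ 2 * (1 / 20 * u') ≤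
      χ z ^ 2 * (MII (nuI ν)).dens σ τ v₁ v₂ W a b z := by
    by_cases hχ : χ z = 0
    · rw [hχ]; simp
    · have k1 := hk hχ
      rw [← mul_add]
      refine mul_le_mul_of_nonneg_left ?_ (sq_nonneg _)
      have d1 : (MII ν).dens σ τ v₁ v₂ W a b z = 1 / 2 * sqd σ τ v₁ v₂ W a b z +
          1 / 2 * ν.k z * nX σ W a z + 1 / 2 * ν.k z * nX τ W b z +
          1 / 4 * ((ν.r2 z)⁻¹ * nY σ τ W a b z) + 1 / 4 * (ν.k z * (ν.F₁ z * a z ^ 2)) +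
          1 / 4 * (ν.k z * (ν.F₂ z * b z ^ 2)) + ν.En z ^ 2 * (a z + b z) ^ 2 := by
        unfold Q8.dens MII; simp only; ring
      have d2 : (MII (nuI ν)).dens σ τ v₁ v₂ W a b z = 1 / 2 * sqd σ τ v₁ v₂ W a b z +
          5 / 8 * ν.k z * nX σ W a z + 5 / 8 * ν.k z * nX τ W b z +
          5 / 16 * ((ν.r2 z)⁻¹ * nY σ τ W a b z) + 5 / 16 * (ν.k z * (ν.F₁ z * a z ^ 2)) +
          5 / 16 * (ν.k z * (ν.F₂ z * b z ^ 2)) + 5 / 4 * (ν.En z ^ 2 * (a z + b z) ^ 2) := by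
        unfold Q8.dens MII
        simp only
        rw [nuI_En, nuI_r2]
        show _ * _ + 1 / 2 * (5 / 4 * ν.k z) * _ + 1 / 2 * (5 / 4 * ν.k z) * _ + _ * _ +
          1 / 4 * (5 / 4 * ν.k z * ν.F₁ z) * _ + 1 / 4 * (5 / 4 * ν.k z * ν.F₂ z) * _ + _ * _ +
          _ * _ = _
        ring
      rw [d1, d2, e2]
      have x1 := mul_le_mul_of_nonneg_right k1 n1
      have x2 := mul_le_mul_of_nonneg_right k1 n2
      have x3 := mul_le_mul_of_nonneg_right k1 y3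
      have x4 := mul_le_mul_of_nonneg_right k1 y4
      linarith
  -- the costs
  have c1 : (cII (nuI ν) C fun z => Z₀ z + δ * χ z ^ 2).dens σ τ v₁ v₂ W a b z =
      C * (Z₀ z + δ * χ z ^ 2) * u' := by
    unfold cII
    rw [Q8.dens_sm, hu']
  have c2 : (cII ν C' Z₁).dens σ τ v₁ v₂ W a b z = C' * Z₁ z * u := by
    unfold cII
    rw [Q8.dens_sm, hu]
  rw [Q8.dens_sm, Q8.dens_sm, c1, c2]
  have p1 : C * δ * (χ z ^ 2 * u') ≤ 1 / 20 * (χ z ^ 2 * u') :=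
    mul_le_mul_of_nonneg_right hδ (mul_nonneg (sq_nonneg _) u0')
  have p2 : C * Z₀ z * u' ≤ C' * Z₁ z * u := by
    calc C * Z₀ z * u' ≤ C * Z₀ z * (5 / 4 * u) :=
          mul_le_mul_of_nonneg_left uu (mul_nonneg hC hZ0)
      _ = 5 / 4 * C * (Z₀ z * u) := by ring
      _ ≤ C' * (Z₁ z * u) := mul_le_mul hC' (mul_le_mul_of_nonneg_right hZ u0)
          (mul_nonneg hZ0 u0) (by linarith)
      _ = _ := by ring
  linarith

end pw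

variable [MeasureSpace E] [FiniteDimensional ℝ E] [BorelSpace E]
  [(volume : Measure E).IsAddHaarMeasure]

/-- Continuity of the letters of zone II where `r² > 0`. -/
structure CtN (ν : Nu E) (U : Set E) : Prop where
  En : ContinuousOn ν.En U
  r2 : ContinuousOn ν.r2 U
  r0 : ∀ z ∈ U, 0 < ν.r2 z
  k : ContinuousOn ν.k U
  F₁ : ContinuousOn ν.F₁ U
  F₂ : ContinuousOn ν.F₂ U

omit [NormedSpace ℝ E] [MeasureSpace E] [FiniteDimensional ℝ E] [BorelSpace E]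
  [(volume : Measure E).IsAddHaarMeasure] in
theorem CtN.nuI {ν : Nu E} {U : Set E} (h : CtN ν U) : CtN (nuI ν) U where
  En := continuousOn_const.mul h.En
  r2 := continuousOn_const.mul h.r2
  r0 z hz := mul_pos (by norm_num) (h.r0 z hz)
  k := continuousOn_const.mul h.k
  F₁ := h.F₁
  F₂ := h.F₂

omit [NormedSpace ℝ E] [MeasureSpace E] [FiniteDimensional ℝ E] [BorelSpace E]
  [(volume : Measure E).IsAddHaarMeasure] in
theorem CtN.mg {ν : Nu E} {U : Set E} (h : CtN ν U) {χ : E → ℝ} (hχ : ContinuousOn χ U) :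
    ((MII ν).sm fun z => χ z ^ 2).Ct U := by
  have hx : ContinuousOn (fun z => χ z ^ 2) U := hχ.pow 2
  have hr : ContinuousOn (fun z => (ν.r2 z)⁻¹) U := h.r2.inv₀ fun z hz => (h.r0 z hz).ne'
  exact
    { κ := hx.mul continuousOn_const
      ζ₁ := hx.mul (continuousOn_const.mul h.k)
      ζ₂ := hx.mul (continuousOn_const.mul h.k)
      ζy := hx.mul (continuousOn_const.mul hr)
      w₁ := hx.mul (continuousOn_const.mul (h.k.mul h.F₁))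
      w₂ := hx.mul (continuousOn_const.mul (h.k.mul h.F₂))
      wb := hx.mul (h.En.pow 2)
      wc := hx.mul continuousOn_const }

omit [NormedSpace ℝ E] [MeasureSpace E] [FiniteDimensional ℝ E] [BorelSpace E]
  [(volume : Measure E).IsAddHaarMeasure] in
theorem CtN.co {ν : Nu E} {U : Set E} (h : CtN ν U) {Z : E → ℝ} (hZ : ContinuousOn Z U) (C : ℝ) :
    (cII ν C Z).Ct U := by
  have hx : ContinuousOn (fun z => C * Z z) U := continuousOn_const.mul hZ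
  have hr : ContinuousOn (fun z => (ν.r2 z)⁻¹) U := h.r2.inv₀ fun z hz => (h.r0 z hz).ne'
  exact
    { κ := hx.mul continuousOn_const
      ζ₁ := hx.mul continuousOn_const
      ζ₂ := hx.mul continuousOn_const
      ζy := hx.mul hr
      w₁ := hx.mul h.F₁
      w₂ := hx.mul h.F₂
      wb := hx.mul (h.En.pow 2)
      wc := hx.mul continuousOn_const }

/-- **The slack.** -/
theorem slk {σ τ : Sl E ι} {U : Set E} {θ v₁ v₂ W χ Z₀ Z₁ : E → ℝ} {ν : Nu E} {C C' δ : ℝ}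
    (ok : σ.Ok U θ) (ot : τ.Ok U θ) (hv₁ : Sm U v₁) (hv₂ : Sm U v₂) (hW : Sm U W)
    (hν : CtN ν U) (hχ : ContinuousOn χ U) (cZ₀ : ContinuousOn Z₀ U) (cZ₁ : ContinuousOn Z₁ U)
    (hk : ∀ z ∈ U, χ z ≠ 0 → 1 ≤ ν.k z) (hF₁ : ∀ z ∈ U, 0 ≤ ν.F₁ z) (hF₂ : ∀ z ∈ U, 0 ≤ ν.F₂ z)
    (hC : 0 ≤ C) (hδ : C * δ ≤ 1 / 20) (hZ0 : ∀ z ∈ U, 0 ≤ Z₀ z) (hZ : ∀ z ∈ U, Z₀ z ≤ Z₁ z)
    (hC' : 5 / 4 * C ≤ C')
    (zo : Zone σ τ U θ v₁ v₂ W χ ((MII (nuI ν)).sm fun z => χ z ^ 2)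
      (cII (nuI ν) C fun z => Z₀ z + δ * χ z ^ 2)) :
    Zone σ τ U θ v₁ v₂ W χ ((MII ν).sm fun z => χ z ^ 2) (cII ν C' Z₁) :=
  H338.C.zone_mono ok ot hv₁ hv₂ hW zo (hν.nuI.mg hχ)
    (hν.nuI.co (cZ₀.add (continuousOn_const.mul (hχ.pow 2))) C) (hν.mg hχ) (hν.co cZ₁ C')
    fun z hz _ _ => slk_dens (hk z hz) (hν.r0 z hz).le (hF₁ z hz) (hF₂ z hz) hC hδ (hZ0 z hz)
      (hZ z hz) hC'

end Vale.Agent.P088.R2.H86.Z
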