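import Vale.Agent.P088.R2.H551.E.Dens
import Vale.Agent.P088.R2.H747.S.Sem

/-!
# P088, stage 3, zone II: the Weyl inequality with a weight `χ²`

The multiplier has the field `χ² c`, the squares keep the weight `χ²`; the derivative of the weight
enters through the *turn-on* terms `2 χ (8 on + 16 (c·Dχ) F a²)`, which are kept exactly.
-/

open MeasureTheory Set Filter
open scoped ContDiff Topology

noncomputable section

namespace Vale.Agent.P088.R2.H86.Z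

open Vale.Agent.P088.R2.H961.GW Vale.Agent.P088.R2.H644 Vale.Agent.P088.R2.H960.W
  Vale.Agent.P088.R2.H747.S Vale.Agent.P088.R2.H551.E

variable {E ι κ : Type*} [NormedAddCommGroup E] [NormedSpace ℝ E] [Fintype ι] [Fintype κ]

/-- The field `χ² c`. -/
def wf (χ : E → ℝ) (c : ι → E → ℝ) (l : ι) (z : E) : ℝ := χ z ^ 2 * c l z

/-- `c · D χ`. -/
def cD (σ : Sl E ι) (c : ι → E → ℝ) (χ : E → ℝ) (z : E) : ℝ := ∑ l, c l z * σ.D l χ z

/-- The turn-on density on a vector `u` in the place of `Y a`. -/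
def onf (σ : Sl E ι) (c : ι → E → ℝ) (χ : E → ℝ) (z : E) (u : ι → ℝ) : ℝ :=
  (∑ i, ∑ j, σ.s i j z * σ.D i χ z * u j) * (∑ l, c l z * u l) -
    1 / 2 * (cD σ c χ z * ∑ i, ∑ j, σ.s i j z * u i * u j)

section pw

variable {σ : Sl E ι} {U : Set E} {θ : E → ℝ} {v W χ a : E → ℝ} {c : ι → E → ℝ} {z : E}

omit [Fintype ι] in
theorem s_wf (hχ : Sm U χ) (hc : ∀ i, Sm U (c i)) (i : ι) : Sm U (wf χ c i) :=
  (hχ.pow 2).mul (hc i)

theorem s_cD (ok : σ.Ok U θ) (hχ : Sm U χ) (hc : ∀ i, Sm U (c i)) : Sm U (cD σ c χ) :=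
  Sm.sum _ fun l _ => (hc l).mul (ok.sD hχ l)

theorem TC_wf (u : ι → E → ℝ) : TC σ (wf χ c) W u z = χ z ^ 2 * TC σ c W u z := by
  unfold TC wf
  have e1 : ∑ l, χ z ^ 2 * c l z * σ.D l W z = χ z ^ 2 * ∑ l, c l z * σ.D l W z := by
    rw [Finset.mul_sum]; exact Finset.sum_congr rfl fun l _ => by ring
  have e2 : ∑ l, χ z ^ 2 * c l z * u l z = χ z ^ 2 * ∑ l, c l z * u l z := by
    rw [Finset.mul_sum]; exact Finset.sum_congr rfl fun l _ => by ring
  rw [e1, e2]; ring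

theorem cY_wf : cY σ (wf χ c) W a z = χ z ^ 2 * cY σ c W a z := by
  unfold cY wf
  rw [Finset.mul_sum]; exact Finset.sum_congr rfl fun l _ => by ring

theorem D_wf (ok : σ.Ok U θ) (hχ : Sm U χ) (hc : ∀ i, Sm U (c i)) (hz : z ∈ U) (i l : ι) :
    σ.D i (wf χ c l) z = 2 * χ z * σ.D i χ z * c l z + χ z ^ 2 * σ.D i (c l) z := by
  unfold wf
  rw [D_mul σ ok.op (hχ.pow 2) (hc l) i hz, D_sq σ ok.op hχ i hz]

theorem eC_wf (ok : σ.Ok U θ) (hχ : Sm U χ) (hc : ∀ i, Sm U (c i)) (hz : z ∈ U) :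
    eC σ (wf χ c) v W a z = χ z ^ 2 * eC σ c v W a z +
      2 * χ z * onf σ c χ z (fun i => YY σ W a i z) := by
  have h1 : ∑ i, ∑ j, ∑ l, σ.s i j z * σ.D i (wf χ c l) z * YY σ W a j z * YY σ W a l z =
      χ z ^ 2 * (∑ i, ∑ j, ∑ l, σ.s i j z * σ.D i (c l) z * YY σ W a j z * YY σ W a l z) +
      2 * χ z * ((∑ i, ∑ j, σ.s i j z * σ.D i χ z * YY σ W a j z) *
        ∑ l, c l z * YY σ W a l z) := by
    rw [Finset.sum_mul, Finset.mul_sum, Finset.mul_sum, ← Finset.sum_add_distrib]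
    refine Finset.sum_congr rfl fun i _ => ?_
    rw [Finset.sum_mul, Finset.mul_sum, Finset.mul_sum, ← Finset.sum_add_distrib]
    refine Finset.sum_congr rfl fun j _ => ?_
    rw [Finset.mul_sum, Finset.mul_sum, Finset.mul_sum, ← Finset.sum_add_distrib]
    refine Finset.sum_congr rfl fun l _ => ?_
    rw [D_wf ok hχ hc hz]; ring
  have h2 : ∑ l, (σ.D l (wf χ c l) z + σ.k l z * wf χ c l z) =
      χ z ^ 2 * (∑ l, (σ.D l (c l) z + σ.k l z * c l z)) + 2 * χ z * cD σ c χ z := by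
    unfold cD
    rw [Finset.mul_sum, Finset.mul_sum, ← Finset.sum_add_distrib]
    refine Finset.sum_congr rfl fun l _ => ?_
    rw [D_wf ok hχ hc hz]; unfold wf; ring
  have h3 : ∑ l, ∑ i, ∑ j, wf χ c l z * σ.D l (σ.s i j) z * YY σ W a i z * YY σ W a j z =
      χ z ^ 2 * ∑ l, ∑ i, ∑ j, c l z * σ.D l (σ.s i j) z * YY σ W a i z * YY σ W a j z := by
    simp only [Finset.mul_sum]
    refine Finset.sum_congr rfl fun l _ => Finset.sum_congr rfl fun i _ =>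
      Finset.sum_congr rfl fun j _ => ?_
    unfold wf; ring
  have h4 : ∑ l, wf χ c l z * eta σ l z = χ z ^ 2 * ∑ l, c l z * eta σ l z := by
    rw [Finset.mul_sum]; exact Finset.sum_congr rfl fun l _ => by unfold wf; ring
  unfold eC onf
  rw [h1, h2, h3, h4, cY_wf]
  unfold sYY
  ring

theorem dF_wf (ok : σ.Ok U θ) (hW : Sm U W) (hχ : Sm U χ) (hc : ∀ i, Sm U (c i)) (hz : z ∈ U) :
    dF σ (wf χ c) W z = χ z ^ 2 * dF σ c W z + 2 * χ z * (cD σ c χ z * σ.F W z) := by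
  unfold dF cD
  rw [Finset.mul_sum, Finset.sum_mul, Finset.mul_sum, ← Finset.sum_add_distrib]
  refine Finset.sum_congr rfl fun j _ => ?_
  have e : σ.D j (fun z => σ.F W z * wf χ c j z) z =
      2 * χ z * σ.D j χ z * (σ.F W z * c j z) + χ z ^ 2 * σ.D j (fun z => σ.F W z * c j z) z := by
    rw [D_congr σ ok.op (g := fun z => χ z ^ 2 * (σ.F W z * c j z))
      (fun z _ => by unfold wf; ring) j hz,
      D_mul σ ok.op (hχ.pow 2) ((ok.sF hW).mul (hc j)) j hz, D_sq σ ok.op hχ j hz]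
  rw [e]
  unfold wf
  ring

end pw

variable [MeasureSpace E] [FiniteDimensional ℝ E] [BorelSpace E]
  [(volume : Measure E).IsAddHaarMeasure]

section integral

variable {σ : Sl E ι} {τ : Sl E κ} {U : Set E} {θ : E → ℝ} {v v₁ v₂ W χ f g h a b m : E → ℝ}
  {c : ι → E → ℝ} {c' : κ → E → ℝ}

/-- The turn-on density of one slot. -/
def tn (σ : Sl E ι) (c : ι → E → ℝ) (W χ a : E → ℝ) (z : E) : ℝ :=
  2 * χ z * (8 * onf σ c χ z (fun i => YY σ W a i z) + 16 * (cD σ c χ z * σ.F W z) * a z ^ 2)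

theorem t_on (ok : σ.Ok U θ) (hW : Sm U W) (hχ : Sm U χ) (ha : Te U a) (hc : ∀ i, Sm U (c i)) :
    Te U fun z => onf σ c χ z (fun i => YY σ W a i z) := by
  have hU := ok.op
  have ty := fun i => tY ok hW ha i
  have t1 : Te U fun z => (∑ i, ∑ j, σ.s i j z * σ.D i χ z * YY σ W a j z) * cY σ c W a z :=
    (tcY ok hc hW ha).mul_left hU (Sm.sum _ fun i _ => Sm.sum _ fun j _ =>
      ((ok.ss i j).mul (ok.sD hχ i)).mul (ty j).sm)
  have t2 : Te U fun z => cD σ c χ z * sYY σ W a z :=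
    (tsYY ok hW ha).mul_left hU (s_cD ok hχ hc)
  exact t1.sub hU (t2.cmul hU (1 / 2))

theorem t_tn (ok : σ.Ok U θ) (hW : Sm U W) (hχ : Sm U χ) (ha : Te U a) (hc : ∀ i, Sm U (c i)) :
    Te U (tn σ c W χ a) := by
  have hU := ok.op
  have t1 := (t_on ok hW hχ ha hc).cmul hU 8
  have t2 : Te U fun z => 16 * (cD σ c χ z * σ.F W z) * a z ^ 2 :=
    (ha.sq hU).mul_left hU (contDiffOn_const.mul ((s_cD ok hχ hc).mul (ok.sF hW)))
  exact (t1.add hU t2).mul_left hU (contDiffOn_const.mul hχ)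

/-- **The Weyl inequality with the weight `χ²`, one slot.** -/
theorem weylw (ok : σ.Ok U θ) (hv : Sm U v) (hW : Sm U W) (hχ : Sm U χ) (ha : Te U a)
    (hc : ∀ i, Sm U (c i)) {κ₀ : ℝ} (hκ : 0 < κ₀) :
    8 * In U θ (fun z => χ z ^ 2 * TC σ c W (XX σ W a) z) +
      16 * In U θ (fun z => χ z ^ 2 * (dF σ c W z * a z ^ 2)) +
      8 * In U θ (fun z => χ z ^ 2 * eC σ c v W a z) + In U θ (tn σ c W χ a) -
      16 / κ₀ * In U θ (fun z => χ z ^ 2 * cY σ c W a z ^ 2) ≤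
      κ₀ * In U θ (fun z => χ z ^ 2 * σ.P v W a z ^ 2) := by
  have hU := ok.op
  have hw : ∀ i, Sm U (wf χ c i) := fun i => s_wf hχ hc i
  have hχ2 : Sm U fun z => χ z ^ 2 := hχ.pow 2
  have tP := ok.tP hv hW ha
  have tc := tcY ok hc hW ha
  have e1 := mult' ok hv hW ha hw
  have e2 := TC_XY ok hW ha hw
  have tTX : Te U fun z => χ z ^ 2 * TC σ c W (XX σ W a) z :=
    (tTC (c := c) ok hc hW fun i => tX ok hW ha i).mul_left hU hχ2
  have tTY : Te U fun z => χ z ^ 2 * TC σ c W (YY σ W a) z :=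
    (tTC (c := c) ok hc hW fun i => tY ok hW ha i).mul_left hU hχ2
  have teC' : Te U fun z => χ z ^ 2 * eC σ c v W a z := (teC ok hc hv hW ha).mul_left hU hχ2
  have sdF : Sm U (dF σ c W) := Sm.sum _ fun j _ =>
    (ok.sD ((ok.sF hW).mul (hc j)) j).add ((ok.ks j).mul ((ok.sF hW).mul (hc j)))
  have tdF : Te U fun z => χ z ^ 2 * (dF σ c W z * a z ^ 2) :=
    ((ha.sq hU).mul_left hU sdF).mul_left hU hχ2
  have ton := (t_on ok hW hχ ha hc).mul_left hU (g := fun z => 2 * χ z) (contDiffOn_const.mul hχ)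
  have tcd : Te U fun z => 2 * χ z * (cD σ c χ z * σ.F W z * a z ^ 2) :=
    ((ha.sq hU).mul_left hU ((s_cD ok hχ hc).mul (ok.sF hW))).mul_left hU
      (contDiffOn_const.mul hχ)
  -- the pieces with the field `χ² c`
  have i1 : In U θ (TC σ (wf χ c) W (XX σ W a)) =
      In U θ (fun z => χ z ^ 2 * TC σ c W (XX σ W a) z) := In_congr hU fun z _ => TC_wf _
  have i3 : In U θ (eC σ (wf χ c) v W a) = In U θ (fun z => χ z ^ 2 * eC σ c v W a z) +
      In U θ (fun z => 2 * χ z * onf σ c χ z (fun i => YY σ W a i z)) := by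
    rw [← In_add hU ok.ts teC' ton]
    exact In_congr hU fun z hz => eC_wf ok hχ hc hz
  have i4 : In U θ (fun z => dF σ (wf χ c) W z * a z ^ 2) =
      In U θ (fun z => χ z ^ 2 * (dF σ c W z * a z ^ 2)) +
      In U θ (fun z => 2 * χ z * (cD σ c χ z * σ.F W z * a z ^ 2)) := by
    rw [← In_add hU ok.ts tdF tcd]
    refine In_congr hU fun z hz => ?_
    rw [dF_wf ok hW hχ hc hz]; ring
  have i5 : In U θ (tn σ c W χ a) =
      8 * In U θ (fun z => 2 * χ z * onf σ c χ z (fun i => YY σ W a i z)) +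
      16 * In U θ (fun z => 2 * χ z * (cD σ c χ z * σ.F W z * a z ^ 2)) := by
    rw [← In_cmul, ← In_cmul, ← In_add hU ok.ts (ton.cmul hU 8) (tcd.cmul hU 16)]
    refine In_congr hU fun z _ => ?_
    unfold tn; ring
  have h : 0 ≤ In U θ (fun z => κ₀ * (χ z ^ 2 * σ.P v W a z ^ 2) +
      8 * (σ.P v W a z * cY σ (wf χ c) W a z) +
      16 / κ₀ * (χ z ^ 2 * cY σ c W a z ^ 2)) := by
    refine In_nonneg hU ok.tp fun z _ => ?_
    rw [cY_wf]
    have e : κ₀ * (χ z ^ 2 * σ.P v W a z ^ 2) + 8 * (σ.P v W a z * (χ z ^ 2 * cY σ c W a z)) +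
      16 / κ₀ * (χ z ^ 2 * cY σ c W a z ^ 2) =
        κ₀ * (χ z * (σ.P v W a z + 4 / κ₀ * cY σ c W a z)) ^ 2 := by
      field_simp; ring
    rw [e]; positivity
  have tP2 : Te U fun z => χ z ^ 2 * σ.P v W a z ^ 2 := (tP.sq hU).mul_left hU hχ2
  have tPc : Te U fun z => σ.P v W a z * cY σ (wf χ c) W a z :=
    (tcY ok hw hW ha).mul_left hU tP.sm
  have tc2 : Te U fun z => χ z ^ 2 * cY σ c W a z ^ 2 := (tc.sq hU).mul_left hU hχ2
  rw [In_add hU ok.ts ((tP2.cmul hU κ₀).add hU (tPc.cmul hU 8)) (tc2.cmul hU _),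
    In_add hU ok.ts (tP2.cmul hU κ₀) (tPc.cmul hU 8), In_cmul, In_cmul, In_cmul, e1] at h
  rw [i1, i4] at e2
  rw [i3] at h
  rw [i5]
  linarith

end integral

end Vale.Agent.P088.R2.H86.Z
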